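import Mathlib

/-!
# P207, line N3, package P3G / P8: the calibration (mixed second difference of the function `D`)

`E` is the plane of the transversal disc, `f ξ y` the Busemann function of `ξ` at the point `y` of
the disc, `f ξ 0 = 0`. The geodesic from `ξ` to `η` crosses the disc at the minimum of
`f ξ + f η`, and `D ξ η` is the minimum.
-/

open Set Filter Topology Metric

noncomputable section

namespace Vale.Agent.P207.N3.H12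

variable {E : Type*} [NormedAddCommGroup E] [NormedSpace ℝ E]

/-- second order Taylor expansion with a fixed second derivative -/
theorem taylor2 {f : E → ℝ} {f1 : E → E →L[ℝ] ℝ} {f2 : E → E →L[ℝ] E →L[ℝ] ℝ}
    {H : E →L[ℝ] E →L[ℝ] ℝ} {ρ ε : ℝ}
    (hf : ∀ y ∈ ball (0 : E) ρ, HasFDerivAt f (f1 y) y)
    (hf1 : ∀ y ∈ ball (0 : E) ρ, HasFDerivAt f1 (f2 y) y)
    (hH : ∀ y ∈ ball (0 : E) ρ, ‖f2 y - H‖ ≤ ε) (hs : ∀ a b, H a b = H b a)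
    {y : E} (hy : y ∈ ball (0 : E) ρ) :
    ‖f1 y - f1 0 - H y‖ ≤ ε * ‖y‖ ∧ |f y - f 0 - f1 0 y - H y y / 2| ≤ ε * ‖y‖ * ‖y‖ := by
  have hρ : 0 < ρ := pos_of_mem_ball hy
  have hconv : Convex ℝ (ball (0 : E) ρ) := convex_ball 0 ρ
  have h0 : (0 : E) ∈ ball (0 : E) ρ := mem_ball_self hρ
  have key1 : ∀ z ∈ ball (0 : E) ρ, ‖f1 z - f1 0 - H z‖ ≤ ε * ‖z‖ := by
    intro z hz
    have h1 : ∀ w ∈ ball (0 : E) ρ,
        HasFDerivWithinAt (fun w => f1 w - H w) (f2 w - H) (ball (0 : E) ρ) w := by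
      intro w hw
      exact ((hf1 w hw).sub H.hasFDerivAt).hasFDerivWithinAt
    have h2 := hconv.norm_image_sub_le_of_norm_hasFDerivWithin_le h1 hH h0 hz
    simp only [map_zero, sub_zero] at h2
    have e1 : f1 z - f1 0 - H z = f1 z - H z - f1 0 := by abel
    rw [e1]
    exact h2
  refine ⟨key1 y hy, ?_⟩
  -- the function
  have hB : ∀ z : E, HasFDerivAt (fun z => H z z / 2) (H z) z := by
    intro z
    have h1 : HasFDerivAt (fun z => H z z) (((H z).comp (ContinuousLinearMap.id ℝ E)) +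
        ((H.flip z).comp (ContinuousLinearMap.id ℝ E))) z := by
      have := (H.hasFDerivAt (x := z)).clm_apply (hasFDerivAt_id z)
      simpa using this
    have h2 := h1.const_mul (1 / 2 : ℝ)
    have e : (1 / 2 : ℝ) • (((H z).comp (ContinuousLinearMap.id ℝ E)) +
        ((H.flip z).comp (ContinuousLinearMap.id ℝ E))) = H z := by
      ext w
      simp only [smul_apply, add_apply,
        ContinuousLinearMap.comp_apply, ContinuousLinearMap.id_apply,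
        ContinuousLinearMap.flip_apply, smul_eq_mul]
      rw [hs w z]
      ring
    rw [e] at h2
    refine h2.congr_of_eventuallyEq (Eventually.of_forall fun w => ?_)
    simp only
    ring
  have hg : ∀ z ∈ ball (0 : E) ρ,
      HasFDerivAt (fun z => f z - f1 0 z - H z z / 2) (f1 z - f1 0 - H z) z := by
    intro z hz
    exact ((hf z hz).sub (f1 0).hasFDerivAt).sub (hB z)
  -- the closed ball of radius `‖y‖`
  have hyρ : ‖y‖ < ρ := by simpa using hy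
  have hsub : closedBall (0 : E) ‖y‖ ⊆ ball (0 : E) ρ := closedBall_subset_ball hyρ
  have h1 : ∀ w ∈ closedBall (0 : E) ‖y‖,
      HasFDerivWithinAt (fun z => f z - f1 0 z - H z z / 2) (f1 w - f1 0 - H w)
        (closedBall (0 : E) ‖y‖) w := fun w hw => (hg w (hsub hw)).hasFDerivWithinAt
  have hε : 0 ≤ ε := (norm_nonneg (f2 0 - H)).trans (hH 0 h0)
  have h2 : ∀ w ∈ closedBall (0 : E) ‖y‖, ‖f1 w - f1 0 - H w‖ ≤ ε * ‖y‖ := by
    intro w hw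
    refine (key1 w (hsub hw)).trans (mul_le_mul_of_nonneg_left ?_ hε)
    simpa using hw
  have h3 := (convex_closedBall (0 : E) ‖y‖).norm_image_sub_le_of_norm_hasFDerivWithin_le h1 h2
    (mem_closedBall_self (norm_nonneg y)) (by simp : y ∈ closedBall (0 : E) ‖y‖)
  simp only [map_zero, sub_zero, zero_div, Real.norm_eq_abs] at h3
  have e2 : f y - f 0 - f1 0 y - H y y / 2 = f y - f1 0 y - H y y / 2 - f 0 := by ring
  rw [e2]
  exact h3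

/-- the critical value of an almost quadratic function -/
theorem crit_value {S : E →L[ℝ] E →L[ℝ] ℝ} (hs : ∀ a b, S a b = S b a) {c : ℝ}
    (hc : ∀ a, c * ‖a‖ ^ 2 ≤ S a a) {F : E → ℝ} {w y₀ : E} {r ε : ℝ} (hε : 0 ≤ ε)
    (hεc : 5 * ε ≤ c) (hw : ‖w‖ ≤ r)
    (hFw : |F w - (-(S w w) + S w w / 2)| ≤ ε * (r * ‖w‖ + ‖w‖ ^ 2))
    (hFy : |F y₀ - (-(S w y₀) + S y₀ y₀ / 2)| ≤ ε * (r * ‖y₀‖ + ‖y₀‖ ^ 2))
    (hmin : F y₀ ≤ F w) : |F y₀ + S w w / 2| ≤ 4 * ε * r ^ 2 := by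
  have hr : 0 ≤ r := (norm_nonneg w).trans hw
  rw [abs_le]
  constructor
  · -- lower bound
    have h1 := (abs_le.1 hFy).1
    set a := ‖y₀ - w‖ with ha
    have ha0 : 0 ≤ a := norm_nonneg _
    have h2 : ‖y₀‖ ≤ a + r := by
      calc ‖y₀‖ = ‖(y₀ - w) + w‖ := by rw [sub_add_cancel]
        _ ≤ a + ‖w‖ := norm_add_le _ _
        _ ≤ a + r := by linarith
    have h3 : c * a ^ 2 ≤ S (y₀ - w) (y₀ - w) := hc _
    have h4 : S (y₀ - w) (y₀ - w) = S y₀ y₀ - 2 * S w y₀ + S w w := by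
      simp only [map_sub, sub_apply]
      rw [hs y₀ w]
      ring
    have h5 : r * ‖y₀‖ + ‖y₀‖ ^ 2 ≤ 5 / 2 * a ^ 2 + 7 / 2 * r ^ 2 := by
      have h6 : ‖y₀‖ ^ 2 ≤ (a + r) ^ 2 := pow_le_pow_left₀ (norm_nonneg _) h2 2
      have h7 : r * ‖y₀‖ ≤ r * (a + r) := mul_le_mul_of_nonneg_left h2 hr
      nlinarith [sq_nonneg (a - r)]
    have h8 : ε * (r * ‖y₀‖ + ‖y₀‖ ^ 2) ≤ ε * (5 / 2 * a ^ 2 + 7 / 2 * r ^ 2) :=
      mul_le_mul_of_nonneg_left h5 hε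
    have h9 : 5 * ε * a ^ 2 ≤ c * a ^ 2 := mul_le_mul_of_nonneg_right hεc (sq_nonneg _)
    nlinarith [mul_nonneg hε (sq_nonneg r)]
  · -- upper bound
    have h1 := (abs_le.1 hFw).2
    have h2 : r * ‖w‖ + ‖w‖ ^ 2 ≤ 2 * r ^ 2 := by
      have h6 : ‖w‖ ^ 2 ≤ r ^ 2 := pow_le_pow_left₀ (norm_nonneg _) hw 2
      have h7 : r * ‖w‖ ≤ r * r := mul_le_mul_of_nonneg_left hw hr
      nlinarith
    have h3 : ε * (r * ‖w‖ + ‖w‖ ^ 2) ≤ ε * (2 * r ^ 2) := mul_le_mul_of_nonneg_left h2 hε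
    nlinarith [mul_nonneg hε (sq_nonneg r)]

section Main

variable {B : Type*} [TopologicalSpace B] {f : B → E → ℝ} {f1 : B → E → E →L[ℝ] ℝ}
  {f2 : B → E → E →L[ℝ] E →L[ℝ] ℝ}

/-- the expansion of the Busemann function of the end point of the geodesic through `u` -/
theorem expand {ξ₁ η₁ : B} {Hξ Hη : E →L[ℝ] E →L[ℝ] ℝ} {ρ : ℝ} (hρ : 0 < ρ)
    (h0 : ∀ᶠ z in 𝓝 η₁, f z 0 = 0)
    (hf : ∀ᶠ z in 𝓝 η₁, ∀ y ∈ ball (0 : E) ρ, HasFDerivAt (f z) (f1 z y) y)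
    (hf1 : ∀ᶠ z in 𝓝 η₁, ∀ y ∈ ball (0 : E) ρ, HasFDerivAt (f1 z) (f2 z y) y)
    (hc : Tendsto (fun p : B × E => f2 p.1 p.2) (𝓝 η₁ ×ˢ 𝓝 0) (𝓝 Hη))
    (hg : ∀ y ∈ ball (0 : E) ρ, HasFDerivAt (f ξ₁) (f1 ξ₁ y) y)
    (hg1 : ∀ y ∈ ball (0 : E) ρ, HasFDerivAt (f1 ξ₁) (f2 ξ₁ y) y)
    (hgc : Tendsto (f2 ξ₁) (𝓝 0) (𝓝 Hξ))
    (hs : ∀ a b, Hη a b = Hη b a) (hs' : ∀ a b, Hξ a b = Hξ b a)
    (h1 : f1 ξ₁ 0 = 0) {e : E → B} (he : Tendsto e (𝓝 0) (𝓝 η₁))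
    (hcross : ∀ᶠ u in 𝓝 (0 : E), f1 (e u) u = - f1 ξ₁ u) {ε : ℝ} (hε : 0 < ε) :
    ∃ ρ' > 0, ∀ᶠ u in 𝓝 (0 : E), ∀ y ∈ ball (0 : E) ρ',
      |f (e u) y - (-((Hξ + Hη) u y) + Hη y y / 2)| ≤ ε * (‖u‖ * ‖y‖ + ‖y‖ ^ 2) := by
  have hε2 : 0 < ε / 2 := by positivity
  have c1 : ∀ᶠ p : B × E in 𝓝 η₁ ×ˢ 𝓝 0, ‖f2 p.1 p.2 - Hη‖ ≤ ε / 2 := by
    have := hc.eventually (Metric.closedBall_mem_nhds Hη hε2)
    filter_upwards [this] with p hp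
    exact le_of_eq_of_le (dist_eq_norm (f2 p.1 p.2) Hη).symm hp
  have c2 : ∀ᶠ y in 𝓝 (0 : E), ‖f2 ξ₁ y - Hξ‖ ≤ ε / 2 := by
    have := hgc.eventually (Metric.closedBall_mem_nhds Hξ hε2)
    filter_upwards [this] with p hp
    exact le_of_eq_of_le (dist_eq_norm (f2 ξ₁ p) Hξ).symm hp
  obtain ⟨P, hP, Q, hQ, hPQ⟩ := Filter.eventually_prod_iff.1 c1
  obtain ⟨r1, hr1, hr1'⟩ := Metric.eventually_nhds_iff_ball.1 hQ
  obtain ⟨r2, hr2, hr2'⟩ := Metric.eventually_nhds_iff_ball.1 c2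
  set ρ' : ℝ := min ρ (min r1 r2) with hρ'
  have hρ'0 : 0 < ρ' := lt_min hρ (lt_min hr1 hr2)
  have s1 : ball (0 : E) ρ' ⊆ ball (0 : E) ρ := ball_subset_ball (min_le_left _ _)
  have s2 : ball (0 : E) ρ' ⊆ ball (0 : E) r1 :=
    ball_subset_ball ((min_le_right _ _).trans (min_le_left _ _))
  have s3 : ball (0 : E) ρ' ⊆ ball (0 : E) r2 :=
    ball_subset_ball ((min_le_right _ _).trans (min_le_right _ _))
  refine ⟨ρ', hρ'0, ?_⟩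
  filter_upwards [he.eventually h0, he.eventually hf, he.eventually hf1, he.eventually hP, hcross,
    Metric.ball_mem_nhds (0 : E) hρ'0] with u a0 a1 a2 a3 a4 a5 y hy
  have t1 : ∀ {y : E}, y ∈ ball (0 : E) ρ' →
      ‖f1 (e u) y - f1 (e u) 0 - Hη y‖ ≤ ε / 2 * ‖y‖ ∧
      |f (e u) y - f (e u) 0 - f1 (e u) 0 y - Hη y y / 2| ≤ ε / 2 * ‖y‖ * ‖y‖ := fun hy =>
    taylor2 (f := f (e u)) (f1 := f1 (e u)) (f2 := f2 (e u)) (H := Hη) (ρ := ρ')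
    (ε := ε / 2) (fun y hy => a1 y (s1 hy)) (fun y hy => a2 y (s1 hy))
    (fun y hy => hPQ a3 (hr1' y (s2 hy))) hs hy
  have t2 : ∀ {y : E}, y ∈ ball (0 : E) ρ' →
      ‖f1 ξ₁ y - f1 ξ₁ 0 - Hξ y‖ ≤ ε / 2 * ‖y‖ ∧
      |f ξ₁ y - f ξ₁ 0 - f1 ξ₁ 0 y - Hξ y y / 2| ≤ ε / 2 * ‖y‖ * ‖y‖ := fun hy =>
    taylor2 (f := f ξ₁) (f1 := f1 ξ₁) (f2 := f2 ξ₁) (H := Hξ) (ρ := ρ')
    (ε := ε / 2) (fun y hy => hg y (s1 hy)) (fun y hy => hg1 y (s1 hy))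
    (fun y hy => hr2' y (s3 hy)) hs' hy
  have b1 := (t1 hy).2
  have b2 := (t1 a5).1
  have b3 := (t2 a5).1
  rw [h1, sub_zero] at b3
  rw [a4] at b2
  have b4 : ‖f1 (e u) 0 + (Hξ + Hη) u‖ ≤ ε * ‖u‖ := by
    have e1 : f1 (e u) 0 + (Hξ + Hη) u =
        -((-f1 ξ₁ u - f1 (e u) 0 - Hη u) + (f1 ξ₁ u - Hξ u)) := by
      rw [add_apply]
      abel
    rw [e1, norm_neg]
    refine (norm_add_le _ _).trans ?_
    linarith
  have b5 : |(f1 (e u) 0 + (Hξ + Hη) u) y| ≤ ε * ‖u‖ * ‖y‖ := by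
    have := (f1 (e u) 0 + (Hξ + Hη) u).le_opNorm y
    rw [Real.norm_eq_abs] at this
    exact this.trans (mul_le_mul_of_nonneg_right b4 (norm_nonneg _))
  rw [a0, sub_zero] at b1
  rw [add_apply] at b5
  have e2 : f (e u) y - (-((Hξ + Hη) u y) + Hη y y / 2) =
      (f (e u) y - f1 (e u) 0 y - Hη y y / 2) + (f1 (e u) 0 y + (Hξ + Hη) u y) := by ring
  rw [e2]
  refine (abs_add_le _ _).trans ?_
  have := mul_nonneg (mul_nonneg hε.le (norm_nonneg y)) (norm_nonneg y)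
  nlinarith

/-- **the second order expansion of `D` at `(ξ₁, η₁)`** -/
theorem D_expand {ξ₁ η₁ : B} {Hξ Hη : E →L[ℝ] E →L[ℝ] ℝ} {ρ c : ℝ} (hρ : 0 < ρ) (hcpos : 0 < c)
    (h0 : ∀ z, f z 0 = 0)
    (hf : ∀ᶠ z in 𝓝 η₁, ∀ y ∈ ball (0 : E) ρ, HasFDerivAt (f z) (f1 z y) y)
    (hf1 : ∀ᶠ z in 𝓝 η₁, ∀ y ∈ ball (0 : E) ρ, HasFDerivAt (f1 z) (f2 z y) y)
    (hfc : Tendsto (fun p : B × E => f2 p.1 p.2) (𝓝 η₁ ×ˢ 𝓝 0) (𝓝 Hη))
    (hg : ∀ᶠ z in 𝓝 ξ₁, ∀ y ∈ ball (0 : E) ρ, HasFDerivAt (f z) (f1 z y) y)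
    (hg1 : ∀ᶠ z in 𝓝 ξ₁, ∀ y ∈ ball (0 : E) ρ, HasFDerivAt (f1 z) (f2 z y) y)
    (hgc : Tendsto (fun p : B × E => f2 p.1 p.2) (𝓝 ξ₁ ×ˢ 𝓝 0) (𝓝 Hξ))
    (hs : ∀ a b, Hη a b = Hη b a) (hs' : ∀ a b, Hξ a b = Hξ b a)
    (hS : ∀ a, c * ‖a‖ ^ 2 ≤ Hξ a a + Hη a a)
    (h1 : f1 ξ₁ 0 = 0) (h1' : f1 η₁ 0 = 0) {e e' : E → B}
    (he : Tendsto e (𝓝 0) (𝓝 η₁)) (he' : Tendsto e' (𝓝 0) (𝓝 ξ₁))
    (hcross : ∀ᶠ u in 𝓝 (0 : E), f1 (e u) u = - f1 ξ₁ u)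
    (hcross' : ∀ᶠ u in 𝓝 (0 : E), f1 (e' u) u = - f1 η₁ u)
    {D : B → B → ℝ}
    (hD : ∀ᶠ p : B × B in 𝓝 ξ₁ ×ˢ 𝓝 η₁, ∀ y ∈ ball (0 : E) ρ, D p.1 p.2 ≤ f p.1 y + f p.2 y)
    (hD' : ∀ r > 0, ∀ᶠ p : B × B in 𝓝 ξ₁ ×ˢ 𝓝 η₁, ∃ y ∈ ball (0 : E) r,
      D p.1 p.2 = f p.1 y + f p.2 y) {ε : ℝ} (hε : 0 < ε) :
    ∀ᶠ p : E × E in 𝓝 0 ×ˢ 𝓝 0,
      |D (e' p.2) (e p.1) + (Hξ + Hη) (p.1 + p.2) (p.1 + p.2) / 2| ≤ ε * (‖p.1‖ + ‖p.2‖) ^ 2 := by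
  set δ : ℝ := min (ε / 8) (c / 10) with hδ
  have hδ0 : 0 < δ := by rw [hδ]; positivity
  have hδε : 8 * δ ≤ ε := by
    have : δ ≤ ε / 8 := min_le_left _ _
    linarith
  have hδc : 10 * δ ≤ c := by
    have : δ ≤ c / 10 := min_le_right _ _
    linarith
  obtain ⟨r1, hr1, hx1⟩ := expand hρ (Eventually.of_forall h0) hf hf1 hfc hg.self_of_nhds
    hg1.self_of_nhds (hgc.comp ((tendsto_const_nhds (x := ξ₁)).prodMk tendsto_id)) hs hs' h1 he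
    hcross hδ0
  obtain ⟨r2, hr2, hx2⟩ := expand hρ (Eventually.of_forall h0) hg hg1 hgc hf.self_of_nhds
    hf1.self_of_nhds (hfc.comp ((tendsto_const_nhds (x := η₁)).prodMk tendsto_id)) hs' hs h1' he'
    hcross' hδ0
  set r : ℝ := min ρ (min r1 r2) with hr
  have hr0 : 0 < r := lt_min hρ (lt_min hr1 hr2)
  have s1 : ball (0 : E) r ⊆ ball (0 : E) ρ := ball_subset_ball (min_le_left _ _)
  have s2 : ball (0 : E) r ⊆ ball (0 : E) r1 :=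
    ball_subset_ball ((min_le_right _ _).trans (min_le_left _ _))
  have s3 : ball (0 : E) r ⊆ ball (0 : E) r2 :=
    ball_subset_ball ((min_le_right _ _).trans (min_le_right _ _))
  have hee : Tendsto (fun p : E × E => (e' p.2, e p.1)) (𝓝 0 ×ˢ 𝓝 0) (𝓝 ξ₁ ×ˢ 𝓝 η₁) :=
    (he'.comp tendsto_snd).prodMk (he.comp tendsto_fst)
  have hadd : Tendsto (fun p : E × E => p.1 + p.2) (𝓝 0 ×ˢ 𝓝 0) (𝓝 0) := by
    have : Tendsto (fun p : E × E => p.1 + p.2) (𝓝 (0, 0)) (𝓝 (0 + 0)) :=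
      (continuous_fst.add continuous_snd).tendsto' _ _ rfl
    rwa [nhds_prod_eq, add_zero] at this
  filter_upwards [hx1.prod_inl (𝓝 (0 : E)), hx2.prod_inr (𝓝 (0 : E)),
    hee.eventually hD, hee.eventually (hD' r hr0),
    hadd.eventually (Metric.ball_mem_nhds (0 : E) hr0)] with p a1 a2 a3 a4 a5
  obtain ⟨y₀, hy₀, hy₀'⟩ := a4
  set S := Hξ + Hη with hSdef
  have hSs : ∀ a b, S a b = S b a := by
    intro a b
    rw [hSdef, add_apply, add_apply, add_apply, add_apply, hs a b, hs' a b]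
  have hbound : ∀ y ∈ ball (0 : E) r,
      |f (e' p.2) y + f (e p.1) y - (-(S (p.1 + p.2) y) + S y y / 2)| ≤
        2 * δ * ((‖p.1‖ + ‖p.2‖) * ‖y‖ + ‖y‖ ^ 2) := by
    intro y hy
    have b1 := a1 y (s2 hy)
    have b2 := a2 y (s3 hy)
    have e1 : f (e' p.2) y + f (e p.1) y - (-(S (p.1 + p.2) y) + S y y / 2) =
        (f (e p.1) y - (-((Hξ + Hη) p.1 y) + Hη y y / 2)) +
        (f (e' p.2) y - (-((Hη + Hξ) p.2 y) + Hξ y y / 2)) := by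
      rw [hSdef]
      simp only [map_add, add_apply]
      ring
    rw [e1]
    refine (abs_add_le _ _).trans ((add_le_add b1 b2).trans ?_)
    have := mul_nonneg hδ0.le (mul_nonneg (norm_nonneg p.1) (norm_nonneg y))
    have := mul_nonneg hδ0.le (mul_nonneg (norm_nonneg p.2) (norm_nonneg y))
    nlinarith
  have key := crit_value (S := S) hSs (c := c) (fun a => by
      have := hS a
      rw [hSdef, add_apply, add_apply]
      exact this)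
    (F := fun y => f (e' p.2) y + f (e p.1) y) (w := p.1 + p.2) (y₀ := y₀)
    (r := ‖p.1‖ + ‖p.2‖) (ε := 2 * δ) (by positivity) (by linarith) (norm_add_le _ _)
    (hbound _ a5) (hbound _ hy₀) (by
      have := a3 _ (s1 a5)
      rw [hy₀'] at this
      exact this)
  rw [hy₀']
  refine key.trans ?_
  have := sq_nonneg (‖p.1‖ + ‖p.2‖)
  nlinarith

omit [TopologicalSpace B] in
/-- **the mixed second difference of `D`** -/
theorem calib_lim {ξ₁ η₁ : B} {Hξ Hη : E →L[ℝ] E →L[ℝ] ℝ}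
    (hs : ∀ a b, Hη a b = Hη b a) (hs' : ∀ a b, Hξ a b = Hξ b a) {e e' : E → B} {D : B → B → ℝ}
    (he0 : e 0 = η₁) (he0' : e' 0 = ξ₁)
    (hexp : ∀ ε > 0, ∀ᶠ p : E × E in 𝓝 0 ×ˢ 𝓝 0,
      |D (e' p.2) (e p.1) + (Hξ + Hη) (p.1 + p.2) (p.1 + p.2) / 2| ≤ ε * (‖p.1‖ + ‖p.2‖) ^ 2)
    (u u' : E) :
    Tendsto (fun t : ℝ => (D (e' (t • u')) (e (t • u)) + D ξ₁ η₁ - D ξ₁ (e (t • u))
      - D (e' (t • u')) η₁) / t ^ 2) (𝓝[>] 0) (𝓝 (-((Hξ + Hη) u u'))) := by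
  set S := Hξ + Hη with hSdef
  have hSs : ∀ a b, S a b = S b a := by
    intro a b
    rw [hSdef, add_apply, add_apply, add_apply, add_apply, hs a b, hs' a b]
  have ht1 : ∀ v : E, Tendsto (fun t : ℝ => t • v) (𝓝[>] 0) (𝓝 0) := by
    intro v
    have : Tendsto (fun t : ℝ => t • v) (𝓝 0) (𝓝 ((0 : ℝ) • v)) :=
      (continuous_id.smul continuous_const).tendsto 0
    rw [zero_smul] at this
    exact this.mono_left nhdsWithin_le_nhds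
  have ht0 : Tendsto (fun _ : ℝ => (0 : E)) (𝓝[>] 0) (𝓝 0) := tendsto_const_nhds
  rw [Metric.tendsto_nhds]
  intro ε hε
  set N : ℝ := (‖u‖ + ‖u'‖) ^ 2 with hN
  have hN0 : 0 ≤ N := sq_nonneg _
  set δ : ℝ := ε / (4 * (N + 1)) with hδ
  have hδ0 : 0 < δ := by rw [hδ]; positivity
  have hx := hexp δ hδ0
  have x00 : D ξ₁ η₁ = 0 := by
    have := (hexp 1 one_pos)
    rw [← nhds_prod_eq] at this
    have := this.self_of_nhds
    simp only [he0, he0', add_zero, map_zero, norm_zero] at this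
    simpa using this
  have t1 : ∀ᶠ t : ℝ in 𝓝[>] 0, |D (e' (t • u')) (e (t • u)) +
      S (t • u + t • u') (t • u + t • u') / 2| ≤ δ * (‖t • u‖ + ‖t • u'‖) ^ 2 :=
    ((ht1 u).prodMk (ht1 u')).eventually hx
  have t2 : ∀ᶠ t : ℝ in 𝓝[>] 0, |D (e' 0) (e (t • u)) +
      S (t • u + 0) (t • u + 0) / 2| ≤ δ * (‖t • u‖ + ‖(0 : E)‖) ^ 2 :=
    ((ht1 u).prodMk ht0).eventually hx
  have t3 : ∀ᶠ t : ℝ in 𝓝[>] 0, |D (e' (t • u')) (e 0) +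
      S (0 + t • u') (0 + t • u') / 2| ≤ δ * (‖(0 : E)‖ + ‖t • u'‖) ^ 2 :=
    (ht0.prodMk (ht1 u')).eventually hx
  filter_upwards [t1, t2, t3, self_mem_nhdsWithin] with t a1 a2 a3 a4
  have ht : 0 < t := a4
  have ht2 : 0 < t ^ 2 := by positivity
  rw [he0'] at a2
  rw [he0] at a3
  simp only [add_zero, zero_add, norm_zero, norm_smul, Real.norm_eq_abs, abs_of_pos ht, map_add,
    map_smul, add_apply, smul_apply, smul_eq_mul] at a1 a2 a3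
  rw [x00, Real.dist_eq]
  set A := D (e' (t • u')) (e (t • u)) with hA
  set A2 := D ξ₁ (e (t • u)) with hA2
  set A3 := D (e' (t • u')) η₁ with hA3
  have hsu : S u' u = S u u' := hSs _ _
  rw [hsu] at a1
  have e1 : (A + 0 - A2 - A3) / t ^ 2 - -(S u u') =
      ((A + (t * (t * S u u + t * S u u') + t * (t * S u u' + t * S u' u')) / 2)
        - (A2 + t * (t * S u u) / 2) - (A3 + t * (t * S u' u') / 2)) / t ^ 2 := by
    field_simp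
    ring
  have b1 : |(A + (t * (t * S u u + t * S u u') + t * (t * S u u' + t * S u' u')) / 2)
        - (A2 + t * (t * S u u) / 2) - (A3 + t * (t * S u' u') / 2)| ≤ 3 * δ * N * t ^ 2 := by
    have c1 : |A + (t * (t * S u u + t * S u u') + t * (t * S u u' + t * S u' u')) / 2| ≤
        δ * (t * ‖u‖ + t * ‖u'‖) ^ 2 := by
      exact le_trans (le_of_eq (by congr 1)) a1
    have c2 := abs_le.1 c1
    have c3 := abs_le.1 a2
    have c4 := abs_le.1 a3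
    have d1 : δ * (t * ‖u‖ + t * ‖u'‖) ^ 2 = δ * N * t ^ 2 := by rw [hN]; ring
    have d2 : δ * (t * ‖u‖) ^ 2 ≤ δ * N * t ^ 2 := by
      rw [← d1]
      gcongr
      have := mul_nonneg ht.le (norm_nonneg u')
      linarith
    have d3 : δ * (t * ‖u'‖) ^ 2 ≤ δ * N * t ^ 2 := by
      rw [← d1]
      gcongr
      have := mul_nonneg ht.le (norm_nonneg u)
      linarith
    rw [abs_le]
    constructor <;> linarith [c2.1, c2.2, c3.1, c3.2, c4.1, c4.2]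
  rw [e1, abs_div, abs_of_pos ht2, div_lt_iff₀ ht2]
  refine lt_of_le_of_lt b1 ?_
  have b2 : 3 * δ * N < ε := by
    have : δ * (4 * (N + 1)) = ε := by
      rw [hδ]
      field_simp
    nlinarith
  exact mul_lt_mul_of_pos_right b2 ht2

end Main

end Vale.Agent.P207.N3.H12
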