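import Vale.Agent.P207.N3.H12.Push

/-!
# P207, line N3, package P3G (PF2): the divergence formula in weak form
-/

open Set Filter Topology Metric MeasureTheory
open scoped ContDiff

noncomputable section

namespace Vale.Agent.P207.N3.H12

variable {T G : E2 → E2 → E2} {M' M : E2 → E2 → E2 →L[ℝ] E2} {X' : E2 → E2 → ℝ}
  {xh yh : E2 × E2 → E2} {R r : ℝ}

/-- the push forward with a test function of the slice -/
theorem push_slice (H : HolDat T G M' M X' xh yh R r) :
    ∃ r₀ > 0, r₀ < R ∧ ∃ χ : E2 → ℝ, Continuous χ ∧ tsupport χ ⊆ closedBall 0 r₀ ∧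
      (∀ x ∈ ball (0 : E2) (r₀ / 4), χ x = 1) ∧
      ∀ᶠ p in 𝓝 (0 : E2), ∀ φ : E2 → ℝ, Continuous φ → tsupport φ ⊆ ball 0 (r₀ / 4) →
        ∫ x, χ x * (φ (T x p) * Real.exp (X' x p)) = ∫ q, φ q := by
  have hsm : ∀ᶠ r₁ : ℝ in 𝓝[>] 0, r₁ < r :=
    (eventually_lt_nhds H.r_pos).filter_mono nhdsWithin_le_nhds
  obtain ⟨r₁, ⟨⟨⟨r₂, h2, hp⟩, h1r⟩, h1⟩⟩ :=
    (((push H).and hsm).and self_mem_nhdsWithin).exists
  have h1pos : 0 < r₁ := h1
  -- the radius
  set r₀ : ℝ := min r₂ r₁ / 2 with hr₀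
  have hm : 0 < min r₂ r₁ := lt_min h2 h1pos
  have h0 : 0 < r₀ := by rw [hr₀]; positivity
  have h02 : 2 * r₀ ≤ r₂ := by
    have : min r₂ r₁ ≤ r₂ := min_le_left _ _
    linarith
  have h01 : 2 * r₀ ≤ r₁ := by
    have : min r₂ r₁ ≤ r₁ := min_le_right _ _
    linarith
  have h0R : r₀ < R := by
    have := H.r_le
    linarith
  set b : ContDiffBump (0 : E2) := ⟨r₀ / 2, r₀, by positivity, by linarith⟩ with hb
  have hbs : tsupport (b : E2 → ℝ) = closedBall 0 r₀ := b.tsupport_eq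
  refine ⟨r₀, h0, h0R, b, b.continuous, hbs.le, ?_, ?_⟩
  · intro x hx
    refine b.one_of_mem_closedBall ?_
    have : ball (0 : E2) (r₀ / 4) ⊆ closedBall 0 (r₀ / 2) :=
      ball_subset_closedBall.trans (closedBall_subset_closedBall (by linarith))
    exact this hx
  filter_upwards [hp, Metric.ball_mem_nhds (0 : E2) (by linarith : 0 < r₀ / 4)] with p hp hp0 φ hφ
    hφs
  have hpn : ‖p‖ < r₀ / 4 := mem_ball_zero_iff.1 hp0
  have hpr : p ∈ ball (0 : E2) r := mem_ball_zero_iff.2 (by linarith)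
  have hpR : p ∈ ball (0 : E2) R := ball_subset_ball H.r_le hpr
  have hTx : ContinuousOn (fun x => T x p) (ball (0 : E2) R) := by
    intro x hx
    have h2 : ContinuousAt (fun z : E2 × E2 => T z.1 z.2) (x, p) := contAt_prod H.T_cont hx hpR
    have h3 : ContinuousAt (fun x : E2 => (x, p)) x := by fun_prop
    exact (ContinuousAt.comp (f := fun x : E2 => (x, p)) h2 h3).continuousWithinAt
  have hbR : tsupport (b : E2 → ℝ) ⊆ ball 0 R := by
    rw [hbs]
    exact closedBall_subset_ball h0R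
  set f : E2 → ℝ := fun x => b x * φ (T x p) with hf
  have hfc : Continuous f := by
    have h3 : ContinuousOn (fun z : Unit × E2 => φ (T z.2 p)) (univ ×ˢ ball 0 R) :=
      hφ.comp_continuousOn (hTx.comp continuousOn_snd (fun z hz => hz.2))
    have h4 := cont_mul_of_supp b.continuous hbR h3
    exact h4.comp (f := fun x : E2 => ((), x)) (by fun_prop)
  have hfs : tsupport f ⊆ ball 0 r₂ := by
    refine (closure_mono (Function.support_mul_subset_left _ _)).trans ?_
    have h3 : closure (Function.support (b : E2 → ℝ)) = closedBall 0 r₀ := hbs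
    rw [h3]
    exact closedBall_subset_ball (by linarith)
  have key := hp f hfc hfs
  have e1 : ∫ x, b x * (φ (T x p) * Real.exp (X' x p)) = ∫ x, f x * Real.exp (X' x p) := by
    refine integral_congr_ae (Eventually.of_forall fun x => ?_)
    simp only [hf]
    ring
  rw [e1, key]
  have e2 : ∫ q, φ q = ∫ q in ball (0 : E2) r₁, φ q := by
    rw [setIntegral_eq_integral_of_forall_compl_eq_zero]
    intro q hq
    refine image_eq_zero_of_notMem_tsupport fun h => hq ?_
    exact ball_subset_ball (by linarith) (hφs h)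
  rw [e2]
  refine setIntegral_congr_fun measurableSet_ball fun q hq => ?_
  have hqr : q ∈ ball (0 : E2) r := ball_subset_ball h1r.le hq
  have hT : T (xh (q, p)) p = q := H.T_xh q hqr p hpr
  simp only [hf]
  rw [hT]
  by_cases hs : q ∈ tsupport φ
  · have h3 : b (xh (q, p)) = 1 := by
      refine b.one_of_mem_closedBall ?_
      have hx := H.xh_mem q hqr p hpr
      have h4 := H.T_lip hx (mem_ball_self H.R_pos) hpR
      rw [H.T_zero _ hx, sub_zero, hT] at h4
      have h5 : ‖q‖ < r₀ / 4 := mem_ball_zero_iff.1 (hφs hs)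
      have h6 : ‖xh (q, p)‖ ≤ ‖q‖ + ‖q - xh (q, p)‖ := by
        calc ‖xh (q, p)‖ = ‖q - (q - xh (q, p))‖ := by rw [sub_sub_cancel]
          _ ≤ _ := norm_sub_le _ _
      have h7 : ‖xh (q, p)‖ ≤ r₀ / 2 := by linarith
      exact mem_closedBall_zero_iff.2 h7
    rw [h3, one_mul]
  · rw [image_eq_zero_of_notMem_tsupport hs, mul_zero]

/-- **the divergence formula** -/
theorem div_core (H : HolDat T G M' M X' xh yh R r) {DX' : E2 → E2 → E2 →L[ℝ] ℝ}
    (hX : ∀ x ∈ ball (0 : E2) R, ∀ p ∈ ball (0 : E2) R, HasFDerivAt (X' x) (DX' x p) p)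
    (hXc : ContinuousOn (fun z : E2 × E2 => DX' z.1 z.2) (ball 0 R ×ˢ ball 0 R))
    (hX0 : ∀ x ∈ ball (0 : E2) R, X' x 0 = 0) :
    ∃ ρ > 0, ∀ φ : E2 → ℝ, ContDiff ℝ ∞ φ → tsupport φ ⊆ ball 0 ρ →
      ∀ v, ∫ x, (fderiv ℝ φ x (M' x 0 v) + φ x * DX' x 0 v) = 0 := by
  obtain ⟨r₀, h0, h0R, χ, hχ, hχs, hχ1, hpush⟩ := push_slice H
  refine ⟨r₀ / 4, by positivity, fun φ hφ hφs v => ?_⟩
  have hφc : Continuous φ := hφ.continuous
  have hχK : HasCompactSupport χ :=
    (isCompact_closedBall (0 : E2) r₀).of_isClosed_subset (isClosed_tsupport χ) hχs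
  have hχR : tsupport χ ⊆ ball 0 R := hχs.trans (closedBall_subset_ball h0R)
  -- the parameter interval
  obtain ⟨δ, hδ, hδR⟩ : ∃ δ > 0, ∀ t : ℝ, |t| ≤ δ → t • v ∈ ball (0 : E2) R := by
    refine ⟨R / (2 * (‖v‖ + 1)), by have := H.R_pos; positivity, fun t ht => ?_⟩
    rw [mem_ball_zero_iff, norm_smul, Real.norm_eq_abs]
    have hR := H.R_pos
    have hv := norm_nonneg v
    calc |t| * ‖v‖ ≤ R / (2 * (‖v‖ + 1)) * ‖v‖ := mul_le_mul_of_nonneg_right ht hv
      _ ≤ R / (2 * (‖v‖ + 1)) * (‖v‖ + 1) := by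
          refine mul_le_mul_of_nonneg_left (by linarith) (by positivity)
      _ = R / 2 := by field_simp
      _ < R := by linarith
  -- the integrand and its derivative
  set k0 : ℝ × E2 → ℝ := fun z => φ (T z.2 (z.1 • v)) * Real.exp (X' z.2 (z.1 • v)) with hk0
  set k1 : ℝ × E2 → ℝ := fun z =>
    fderiv ℝ φ (T z.2 (z.1 • v)) (M' z.2 (z.1 • v) v) * Real.exp (X' z.2 (z.1 • v)) +
      φ (T z.2 (z.1 • v)) * (Real.exp (X' z.2 (z.1 • v)) * DX' z.2 (z.1 • v) v) with hk1
  have hmap : ContinuousOn (fun z : ℝ × E2 => (z.2, z.1 • v)) (closedBall 0 δ ×ˢ ball 0 R) := by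
    fun_prop
  have hmaps : MapsTo (fun z : ℝ × E2 => (z.2, z.1 • v)) (closedBall 0 δ ×ˢ ball (0 : E2) R)
      (ball (0 : E2) R ×ˢ ball (0 : E2) R) := fun z hz => ⟨hz.2, hδR _ (by simpa using hz.1)⟩
  have cT : ContinuousOn (fun z : ℝ × E2 => T z.2 (z.1 • v)) (closedBall 0 δ ×ˢ ball 0 R) :=
    H.T_cont.comp hmap hmaps
  have cM : ContinuousOn (fun z : ℝ × E2 => M' z.2 (z.1 • v)) (closedBall 0 δ ×ˢ ball 0 R) :=
    H.M'_cont.comp hmap hmaps
  have cX : ContinuousOn (fun z : ℝ × E2 => X' z.2 (z.1 • v)) (closedBall 0 δ ×ˢ ball 0 R) :=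
    H.X'_cont.comp hmap hmaps
  have cD : ContinuousOn (fun z : ℝ × E2 => DX' z.2 (z.1 • v)) (closedBall 0 δ ×ˢ ball 0 R) :=
    hXc.comp hmap hmaps
  have cf : Continuous (fderiv ℝ φ) := hφ.continuous_fderiv (by norm_num)
  have cE : ContinuousOn (fun z : ℝ × E2 => Real.exp (X' z.2 (z.1 • v)))
      (closedBall 0 δ ×ˢ ball 0 R) := Real.continuous_exp.comp_continuousOn cX
  have ck0 : ContinuousOn k0 (closedBall 0 δ ×ˢ ball 0 R) := (hφc.comp_continuousOn cT).mul cE
  have ck1 : ContinuousOn k1 (closedBall 0 δ ×ˢ ball 0 R) := by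
    refine ((ContinuousOn.clm_apply (cf.comp_continuousOn cT)
      (cM.clm_apply continuousOn_const)).mul cE).add
      ((hφc.comp_continuousOn cT).mul (cE.mul (cD.clm_apply continuousOn_const)))
  -- the slices in `t`
  have slice : ∀ k : ℝ × E2 → ℝ, ContinuousOn k (closedBall 0 δ ×ˢ ball 0 R) →
      ∀ t ∈ closedBall (0 : ℝ) δ, Continuous fun x => χ x * k (t, x) := by
    intro k hk t ht
    have h2 : ContinuousOn (fun z : Unit × E2 => k (t, z.2)) (univ ×ˢ ball 0 R) :=
      hk.comp (f := fun z : Unit × E2 => (t, z.2)) (by fun_prop) (fun z hz => ⟨ht, hz.2⟩)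
    have h3 := cont_mul_of_supp hχ hχR h2
    exact h3.comp (f := fun x : E2 => ((), x)) (by fun_prop)
  -- the bound
  have hcomp : IsCompact (closedBall (0 : ℝ) δ ×ˢ closedBall (0 : E2) r₀) :=
    (isCompact_closedBall _ _).prod (isCompact_closedBall _ _)
  obtain ⟨C, hC⟩ := hcomp.exists_bound_of_continuousOn
    (ck1.mono (prod_mono Subset.rfl (closedBall_subset_ball h0R)))
  have hδmem : closedBall (0 : ℝ) δ ∈ 𝓝 (0 : ℝ) := Metric.closedBall_mem_nhds 0 hδ
  have h0mem : (0 : ℝ) ∈ closedBall (0 : ℝ) δ := mem_closedBall_self hδ.le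
  have hTd : ∀ x ∈ ball (0 : E2) R, ∀ t : ℝ, |t| ≤ δ →
      HasDerivAt (fun t : ℝ => k0 (t, x)) (k1 (t, x)) t := by
    intro x hx t ht
    have l1 : HasDerivAt (fun t : ℝ => t • v) v t := by
      simpa using (hasDerivAt_id t).smul_const v
    have l2 : HasDerivAt (fun t : ℝ => T x (t • v)) (M' x (t • v) v) t :=
      (H.T_der x hx _ (hδR t ht)).comp_hasDerivAt t l1
    have l3 : HasDerivAt (fun t : ℝ => X' x (t • v)) (DX' x (t • v) v) t :=
      (hX x hx _ (hδR t ht)).comp_hasDerivAt t l1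
    have l4 : HasDerivAt (fun t : ℝ => φ (T x (t • v)))
        (fderiv ℝ φ (T x (t • v)) (M' x (t • v) v)) t :=
      (((hφ.differentiable (by norm_num)) _).hasFDerivAt).comp_hasDerivAt t l2
    exact l4.mul l3.exp
  have main := hasDerivAt_integral_of_dominated_loc_of_deriv_le (μ := (volume : Measure E2))
    (F := fun t x => χ x * k0 (t, x)) (F' := fun t x => χ x * k1 (t, x)) (x₀ := (0 : ℝ))
    (bound := fun x => C * ‖χ x‖) hδmem ?_ ?_ ?_ ?_ ?_ ?_
  · have hd := main.2
    have hev : (fun t : ℝ => ∫ x, χ x * k0 (t, x)) =ᶠ[𝓝 0] fun _ => ∫ q, φ q := by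
      have h2 : Tendsto (fun t : ℝ => t • v) (𝓝 0) (𝓝 0) := by
        have : Tendsto (fun t : ℝ => t • v) (𝓝 0) (𝓝 ((0 : ℝ) • v)) :=
          (continuous_id.smul continuous_const).tendsto 0
        rwa [zero_smul] at this
      filter_upwards [h2.eventually hpush] with t ht
      exact ht φ hφc hφs
    have h3 : HasDerivAt (fun t : ℝ => ∫ x, χ x * k0 (t, x)) 0 0 :=
      (hasDerivAt_const (0 : ℝ) (∫ q, φ q)).congr_of_eventuallyEq hev
    have h4 := hd.unique h3
    rw [← h4]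
    refine integral_congr_ae (Eventually.of_forall fun x => ?_)
    simp only [hk1, zero_smul]
    by_cases hx : x ∈ tsupport φ
    · have hx4 := hφs hx
      have hxR : x ∈ ball (0 : E2) R := ball_subset_ball (by linarith) hx4
      rw [hχ1 x hx4, H.T_zero x hxR, hX0 x hxR, Real.exp_zero]
      ring
    · have e1 : φ x = 0 := image_eq_zero_of_notMem_tsupport hx
      have e2 : fderiv ℝ φ x = 0 := by
        refine image_eq_zero_of_notMem_tsupport fun h => hx ?_
        exact tsupport_fderiv_subset ℝ h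
      by_cases hxR : x ∈ ball (0 : E2) R
      · rw [H.T_zero x hxR, e1, e2]
        simp
      · have e3 : χ x = 0 := image_eq_zero_of_notMem_tsupport fun h => hxR (hχR h)
        rw [e1, e2, e3]
        simp
  · filter_upwards [hδmem] with t ht
    exact (slice k0 ck0 t ht).aestronglyMeasurable
  · exact (slice k0 ck0 0 h0mem).integrable_of_hasCompactSupport hχK.mul_right
  · exact (slice k1 ck1 0 h0mem).aestronglyMeasurable
  · refine Eventually.of_forall fun x t ht => ?_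
    rw [norm_mul, mul_comm]
    by_cases hx : x ∈ tsupport χ
    · exact mul_le_mul_of_nonneg_right (hC (t, x) ⟨ht, hχs hx⟩) (norm_nonneg _)
    · rw [image_eq_zero_of_notMem_tsupport hx, norm_zero, mul_zero, mul_zero]
  · exact (hχ.integrable_of_hasCompactSupport hχK).norm.const_mul C
  · refine Eventually.of_forall fun x t ht => ?_
    by_cases hx : x ∈ tsupport χ
    · exact (hTd x (hχR hx) t (by simpa using ht)).const_mul (χ x)
    · have e3 : χ x = 0 := image_eq_zero_of_notMem_tsupport hx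
      simp only [e3, zero_mul]
      exact hasDerivAt_const t (0 : ℝ)

end Vale.Agent.P207.N3.H12
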