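import Vale.Agent.P207.N3.H12.Div
import Vale.Agent.P207.N3.H250.Germ

/-!
# P207, line N3, package P3G (PF2): the divergence formula for germs of leaf families
-/

open Set Filter Topology Metric MeasureTheory
open scoped ContDiff

noncomputable section

namespace Vale.Agent.P207.N3.H12

/-- The stable holonomy between unstable leaves in the chart; points `(q, p)`. -/
def HolStmt (S X S' : E2 → E2 → ℝ) (xh : E2 × E2 → E2) (h : ℝ) : Prop :=
  ∀ᶠ r₁ in 𝓝[>] (0 : ℝ), ∃ r₀ > 0, ∀ᶠ y in 𝓝 (0 : E2), ∀ g : E2 → ℝ, Continuous g →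
    tsupport g ⊆ ball 0 r₀ →
    ∫ x, g x = ∫ q in ball (0 : E2) r₁, g (xh (q, gradient (S y) q)) *
      Real.exp (X y q - h * (S y q + S' (xh (q, gradient (S y) q)) (gradient (S y) q)
        - inner ℝ (gradient (S y) q) q))

/-- The product formula as a germ; `z = ((x, y), (q, p))`. -/
def FormStmt (S X S' X' : E2 → E2 → ℝ) (h : ℝ) : Prop :=
  ∀ᶠ z in 𝓝 (0 : (E2 × E2) × (E2 × E2)), gradient (S z.1.2) z.2.1 = z.2.2 →
    gradient (S' z.1.1) z.2.2 = z.2.1 →
    X z.1.2 z.2.1 + X' z.1.1 z.2.2 - h * (S z.1.2 z.2.1 + S' z.1.1 z.2.2 - inner ℝ z.2.2 z.2.1)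
      = Real.log (1 - hess (S z.1.2) z.2.1 ∘L hess (S' z.1.1) z.2.2).det

theorem zero_prod : (0 : E2 × E2) = (0, 0) := rfl

/-- the gradients and Hessians of a family with zero base leaf -/
theorem base_hess {S : E2 → E2 → ℝ} (hb : ∀ᶠ q in 𝓝 (0 : E2), S 0 q = 0) :
    (∀ᶠ q in 𝓝 (0 : E2), gradient (S 0) q = 0) ∧ hess (S 0) 0 = 0 := by
  have h1 : ∀ᶠ q in 𝓝 (0 : E2), gradient (S 0) q = 0 := by
    filter_upwards [hb.eventually_nhds] with q hq
    have h2 : S 0 =ᶠ[𝓝 q] fun _ => (0 : ℝ) := hq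
    have h3 : HasGradientAt (S 0) 0 q := (hasGradientAt_const q (0 : ℝ)).congr_of_eventuallyEq h2
    exact h3.gradient
  refine ⟨h1, ?_⟩
  have h2 : gradient (S 0) =ᶠ[𝓝 0] fun _ => (0 : E2) := h1
  rw [hess, h2.fderiv_eq]
  exact fderiv_const_apply 0

/-- the first order data of a leaf family near `0` -/
theorem fam_data {S : E2 → E2 → ℝ} (hS : JG S) (hb : ∀ᶠ q in 𝓝 (0 : E2), S 0 q = 0) :
    ∀ᶠ z in 𝓝 (0 : E2 × E2),
      HasFDerivAt (gradient (S z.1)) (hess (S z.1) z.2) z.2 ∧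
      ContinuousAt (fun z : E2 × E2 => gradient (S z.1) z.2) z ∧
      ContinuousAt (fun z : E2 × E2 => hess (S z.1) z.2) z ∧ ‖hess (S z.1) z.2‖ ≤ 1 / 2 := by
  have h1 := hS.gradient.smooth
  have h2 := hS.gradient.cont
  have h3 := hS.gradient.fderiv.cont
  have h4 : ∀ᶠ z in 𝓝 ((0 : E2), (0 : E2)), ‖hess (S z.1) z.2‖ ≤ 1 / 2 := by
    have h5 : Tendsto (fun z : E2 × E2 => ‖hess (S z.1) z.2‖) (𝓝 (0, 0)) (𝓝 0) := by
      have h6 := (hS.gradient.fderiv.contAt).norm.tendsto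
      have h7 : ‖fderiv ℝ (gradient (S (0 : E2))) (0 : E2)‖ = 0 := by
        have := (base_hess hb).2
        rw [hess] at this
        rw [this, norm_zero]
      simp only [h7] at h6
      exact h6
    filter_upwards [h5.eventually (eventually_le_nhds (by norm_num : (0 : ℝ) < 1 / 2))] with z hz
    exact hz
  rw [zero_prod]
  filter_upwards [h1, h2, h3, h4] with z a1 a2 a3 a4
  exact ⟨(a1.differentiableAt (by simp)).hasFDerivAt, a2, a3, a4⟩

/-- the determinant is positive near `0` -/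
theorem det_pos_ev {S S' : E2 → E2 → ℝ} (hS : JG S) (hS' : JG S')
    (hb : ∀ᶠ q in 𝓝 (0 : E2), S 0 q = 0) :
    ∃ R > 0, ∀ x ∈ ball (0 : E2) R, ∀ y ∈ ball (0 : E2) R, ∀ q ∈ ball (0 : E2) R,
      ∀ p ∈ ball (0 : E2) R, 0 < (1 - hess (S y) q ∘L hess (S' x) p).det := by
  have h1 : ContinuousAt (fun z : E2 × E2 => hess (S z.1) z.2) (0, 0) :=
    hS.gradient.fderiv.contAt
  have h2 : ContinuousAt (fun z : E2 × E2 => hess (S' z.1) z.2) (0, 0) :=
    hS'.gradient.fderiv.contAt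
  have h3 : ContinuousAt (fun w : (E2 × E2) × (E2 × E2) =>
      (1 - hess (S w.1.1) w.1.2 ∘L hess (S' w.2.1) w.2.2).det) ((0, 0), (0, 0)) := by
    have h4 : ContinuousAt (fun w : (E2 × E2) × (E2 × E2) => hess (S w.1.1) w.1.2)
        ((0, 0), (0, 0)) :=
      ContinuousAt.comp (g := fun z : E2 × E2 => hess (S z.1) z.2)
        (f := fun w : (E2 × E2) × (E2 × E2) => w.1) (x := ((0, 0), (0, 0))) h1 continuousAt_fst
    have h5 : ContinuousAt (fun w : (E2 × E2) × (E2 × E2) => hess (S' w.2.1) w.2.2)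
        ((0, 0), (0, 0)) :=
      ContinuousAt.comp (g := fun z : E2 × E2 => hess (S' z.1) z.2)
        (f := fun w : (E2 × E2) × (E2 × E2) => w.2) (x := ((0, 0), (0, 0))) h2 continuousAt_snd
    exact ContinuousLinearMap.continuous_det.continuousAt.comp
      (continuousAt_const.sub (h4.clm_comp h5))
  have h6 : (0 : ℝ) < (1 - hess (S 0) 0 ∘L hess (S' 0) 0).det := by
    rw [(base_hess hb).2]
    simp only [ContinuousLinearMap.zero_comp, sub_zero]
    have : (1 : E2 →L[ℝ] E2).det = 1 := LinearMap.det_id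
    rw [this]
    exact one_pos
  obtain ⟨R, hR, hball⟩ := Metric.eventually_nhds_iff_ball.1 (h3.eventually (eventually_gt_nhds h6))
  refine ⟨R, hR, fun x hx y hy q hq p hp => ?_⟩
  refine hball ((y, q), (x, p)) ?_
  rw [← ball_prod_same, ← ball_prod_same]
  exact ⟨⟨hy, hq⟩, ⟨hx, hp⟩⟩

/-- **the divergence formula for germs** -/
theorem div_germ {S X S' X' : E2 → E2 → ℝ} {xh yh : E2 × E2 → E2} {h : ℝ}
    (hS : JG S) (hS' : JG S') (hX' : JG X')
    (S_base : ∀ᶠ q in 𝓝 (0 : E2), S 0 q = 0) (S'_base : ∀ᶠ p in 𝓝 (0 : E2), S' 0 p = 0)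
    (S'_label : ∀ᶠ x in 𝓝 (0 : E2), gradient (S' x) 0 = x)
    (X'_zero : ∀ᶠ x in 𝓝 (0 : E2), X' x 0 = 0)
    (xh_cont : ∀ᶠ z in 𝓝 (0 : E2 × E2), ContinuousAt xh z) (xh_zero : xh 0 = 0)
    (yh_cont : ∀ᶠ z in 𝓝 (0 : E2 × E2), ContinuousAt yh z)
    (leaf_xh : ∀ᶠ z in 𝓝 (0 : E2 × E2), gradient (S' (xh z)) z.2 = z.1)
    (leaf_yh : ∀ᶠ z in 𝓝 (0 : E2 × E2), gradient (S (yh z)) z.1 = z.2)
    (yh_leaf : ∀ᶠ z in 𝓝 (0 : E2 × E2), yh (z.2, gradient (S z.1) z.2) = z.1)
    (form : FormStmt S X S' X' h) (hol : HolStmt S X S' xh h) :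
    ∃ ρ > 0, ∀ f : E2 → ℝ, ContDiff ℝ ∞ f → tsupport f ⊆ ball 0 ρ → ∀ v : E2,
      ∫ x, (inner ℝ (fderiv ℝ (gradient (S' x)) 0 v) (gradient f x) + fderiv ℝ (X' x) 0 v * f x)
        = 0 := by
  -- the large radius
  obtain ⟨R1, hR1, hdet⟩ := det_pos_ev (S' := S') hS hS' S_base
  have cX : ∀ᶠ z in 𝓝 (0 : E2 × E2), HasFDerivAt (X' z.1) (fderiv ℝ (X' z.1) z.2) z.2 ∧
      ContinuousAt (fun z : E2 × E2 => X' z.1 z.2) z ∧
      ContinuousAt (fun z : E2 × E2 => fderiv ℝ (X' z.1) z.2) z := by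
    rw [zero_prod]
    filter_upwards [hX'.smooth, hX'.cont, hX'.fderiv.cont] with z a1 a2 a3
    exact ⟨(a1.differentiableAt (by simp)).hasFDerivAt, a2, a3⟩
  obtain ⟨R2, hR2, hball⟩ := Metric.eventually_nhds_iff_ball.1
    (((fam_data hS S_base).and (fam_data hS' S'_base)).and cX)
  obtain ⟨R3, hR3, hball3⟩ := Metric.eventually_nhds_iff_ball.1
    (((S'_label.and X'_zero).and (base_hess S_base).1))
  set R : ℝ := min R1 (min R2 R3) with hRd
  have hR : 0 < R := lt_min hR1 (lt_min hR2 hR3)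
  have e1 : ball (0 : E2) R ⊆ ball 0 R1 := ball_subset_ball (min_le_left _ _)
  have e2 : ball (0 : E2) R ⊆ ball 0 R2 :=
    ball_subset_ball ((min_le_right _ _).trans (min_le_left _ _))
  have e3 : ball (0 : E2) R ⊆ ball 0 R3 :=
    ball_subset_ball ((min_le_right _ _).trans (min_le_right _ _))
  have hb2 : ∀ a ∈ ball (0 : E2) R, ∀ b ∈ ball (0 : E2) R, ((a, b) : E2 × E2) ∈
      ball (0 : E2 × E2) R2 := by
    intro a ha b hb
    rw [zero_prod, ← ball_prod_same]
    exact ⟨e2 ha, e2 hb⟩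
  -- the small radius
  have hxm : ∀ᶠ z in 𝓝 (0 : E2 × E2), xh z ∈ ball (0 : E2) R := by
    have := (xh_cont.self_of_nhds).tendsto
    rw [xh_zero] at this
    exact this.eventually (Metric.ball_mem_nhds _ hR)
  have hy0 : ∀ᶠ q in 𝓝 (0 : E2), yh (q, 0) = 0 := by
    have h1 : Tendsto (fun q : E2 => ((0 : E2), q)) (𝓝 0) (𝓝 0) :=
      (Continuous.prodMk_right (0 : E2)).tendsto' _ _ rfl
    filter_upwards [h1.eventually yh_leaf, (base_hess S_base).1] with q a1 a2
    simp only [a2] at a1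
    exact a1
  obtain ⟨r1, hr1, hs⟩ := Metric.eventually_nhds_iff_ball.1
    ((((xh_cont.and yh_cont).and leaf_xh).and leaf_yh).and hxm)
  obtain ⟨r2, hr2, hs2⟩ := Metric.eventually_nhds_iff_ball.1 hy0
  set r : ℝ := min R (min r1 r2) with hrd
  have hr : 0 < r := lt_min hR (lt_min hr1 hr2)
  have hrR : r ≤ R := min_le_left _ _
  have f1 : ball (0 : E2) r ⊆ ball 0 r1 :=
    ball_subset_ball ((min_le_right _ _).trans (min_le_left _ _))
  have f2 : ball (0 : E2) r ⊆ ball 0 r2 :=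
    ball_subset_ball ((min_le_right _ _).trans (min_le_right _ _))
  have hs1 : ∀ a ∈ ball (0 : E2) r, ∀ b ∈ ball (0 : E2) r, ((a, b) : E2 × E2) ∈
      ball (0 : E2 × E2) r1 := by
    intro a ha b hb
    rw [zero_prod, ← ball_prod_same]
    exact ⟨f1 ha, f1 hb⟩
  have contR : ∀ {α : Type} [TopologicalSpace α] (k : E2 × E2 → α),
      (∀ z ∈ ball (0 : E2 × E2) R2, ContinuousAt k z) →
      ContinuousOn k (ball (0 : E2) R ×ˢ ball (0 : E2) R) := by
    intro α _ k hk z hz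
    exact (hk z (hb2 z.1 hz.1 z.2 hz.2)).continuousWithinAt
  have H : HolDat (fun x => gradient (S' x)) (fun y => gradient (S y)) (fun x => hess (S' x))
      (fun y => hess (S y)) X' xh yh R r :=
    { r_pos := hr
      r_le := hrR
      T_der := fun x hx p hp => (hball _ (hb2 x hx p hp)).1.2.1
      T_cont := contR _ fun z hz => (hball z hz).1.2.2.1
      M'_cont := contR _ fun z hz => (hball z hz).1.2.2.2.1
      M'_half := fun x hx p hp => (hball _ (hb2 x hx p hp)).1.2.2.2.2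
      T_zero := fun x hx => (hball3 x (e3 hx)).1.1
      G_der := fun y hy q hq => (hball _ (hb2 y hy q hq)).1.1.1
      G_cont := contR _ fun z hz => (hball z hz).1.1.2.1
      M_cont := contR _ fun z hz => (hball z hz).1.1.2.2.1
      M_half := fun y hy q hq => (hball _ (hb2 y hy q hq)).1.1.2.2.2
      G_base := fun q hq => (hball3 q (e3 hq)).2
      X'_cont := contR _ fun z hz => (hball z hz).2.2.1
      xh_cont := fun z hz => (hs z (hs1 z.1 hz.1 z.2 hz.2)).1.1.1.1.continuousWithinAt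
      yh_cont := fun z hz => (hs z (hs1 z.1 hz.1 z.2 hz.2)).1.1.1.2.continuousWithinAt
      xh_mem := fun q hq p hp => (hs _ (hs1 q hq p hp)).2
      T_xh := fun q hq p hp => (hs _ (hs1 q hq p hp)).1.1.2
      G_yh := fun q hq p hp => (hs _ (hs1 q hq p hp)).1.2
      yh_zero := fun q hq => hs2 q (f2 hq)
      det_pos := fun x hx y hy q hq p hp => hdet x (e1 hx) y (e1 hy) q (e1 hq) p (e1 hp)
      hol := ?_ }
  · obtain ⟨ρ, hρ, hdiv⟩ := div_core H (DX' := fun x p => fderiv ℝ (X' x) p)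
      (fun x hx p hp => (hball _ (hb2 x hx p hp)).2.1)
      (contR _ fun z hz => (hball z hz).2.2.2) (fun x hx => (hball3 x (e3 hx)).1.2)
    refine ⟨ρ, hρ, fun f hf hfs v => ?_⟩
    have h1 := hdiv f hf hfs v
    rw [← h1]
    refine integral_congr_ae (Eventually.of_forall fun x => ?_)
    simp only
    rw [real_inner_comm, inner_gradient, hess]
    ring
  · -- the tuple of the intersection
    have hS0 : gradient (S (0 : E2)) (0 : E2) = 0 := (base_hess S_base).1.self_of_nhds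
    have t1 : Tendsto (fun w : E2 × E2 => gradient (S w.1) w.2) (𝓝 0) (𝓝 0) := by
      have := (hS.gradient.contAt).tendsto
      simp only [hS0] at this
      exact this
    have t2 : Tendsto (fun w : E2 × E2 => (w.2, gradient (S w.1) w.2)) (𝓝 0) (𝓝 0) := by
      have h2 : Tendsto (fun w : E2 × E2 => w.2) (𝓝 0) (𝓝 0) := continuous_snd.tendsto' _ _ rfl
      exact h2.prodMk_nhds t1
    have t3 : Tendsto (fun w : E2 × E2 => xh (w.2, gradient (S w.1) w.2)) (𝓝 0) (𝓝 0) := by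
      have := (xh_cont.self_of_nhds).tendsto
      rw [xh_zero] at this
      exact this.comp t2
    have t4 : Tendsto (fun w : E2 × E2 => ((xh (w.2, gradient (S w.1) w.2), w.1),
        (w.2, gradient (S w.1) w.2))) (𝓝 0) (𝓝 0) := by
      have h2 : Tendsto (fun w : E2 × E2 => w.1) (𝓝 0) (𝓝 0) := continuous_fst.tendsto' _ _ rfl
      exact (t3.prodMk_nhds h2).prodMk_nhds t2
    obtain ⟨ρ, hρ, hev⟩ := Metric.eventually_nhds_iff_ball.1
      ((t4.eventually form).and ((t2.eventually leaf_xh).and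
        ((t3.eventually (Metric.ball_mem_nhds (0 : E2) hR)).and
          (t1.eventually (Metric.ball_mem_nhds (0 : E2) hR)))))
    have hsm : ∀ᶠ r₁ : ℝ in 𝓝[>] 0, r₁ < min ρ R :=
      (eventually_lt_nhds (lt_min hρ hR)).filter_mono nhdsWithin_le_nhds
    filter_upwards [hol, hsm] with r₁ hh hr1s
    obtain ⟨r₀, h0, hh⟩ := hh
    refine ⟨r₀, h0, ?_⟩
    filter_upwards [hh, Metric.ball_mem_nhds (0 : E2) (lt_min hρ hR)] with y hy hyρ g hg hgs
    rw [hy g hg hgs]
    refine setIntegral_congr_fun measurableSet_ball fun q hq => ?_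
    have hqρ : q ∈ ball (0 : E2) (min ρ R) := ball_subset_ball hr1s.le hq
    have hw : ((y, q) : E2 × E2) ∈ ball (0 : E2 × E2) ρ := by
      rw [zero_prod, ← ball_prod_same]
      exact ⟨ball_subset_ball (min_le_left _ _) hyρ, ball_subset_ball (min_le_left _ _) hqρ⟩
    obtain ⟨w1, w2, w3, w4⟩ := hev _ hw
    simp only at w1 w2 w3 w4
    have w5 := w1 trivial w2
    simp only [Jh]
    have hd := hdet _ (e1 w3) y (e1 (ball_subset_ball (min_le_right _ _) hyρ)) q
      (e1 (ball_subset_ball (min_le_right _ _) hqρ)) _ (e1 w4)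
    congr 1
    have e4 : X y q - h * (S y q + S' (xh (q, gradient (S y) q)) (gradient (S y) q)
        - inner ℝ (gradient (S y) q) q) = Real.log (1 - hess (S y) q ∘L
          hess (S' (xh (q, gradient (S y) q))) (gradient (S y) q)).det
          + -X' (xh (q, gradient (S y) q)) (gradient (S y) q) := by
      rw [← w5]
      ring
    rw [e4, Real.exp_add, Real.exp_log hd]

end Vale.Agent.P207.N3.H12
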