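import Vale.Agent.P207.N3.H12.HalfJ

/-!
# P207, line N3 (DIVIN): `DivIn` from a half of the product formula, the link and (R0), (R2)
-/

open Set Filter Topology Metric MeasureTheory InnerProductSpace
open scoped ContDiff RealInnerProductSpace Gradient

noncomputable section

namespace Vale.Agent.P207.N3.H12

open H790 (NF)

variable {Γ X B : Type} [Group Γ] [MetricSpace X] [ProperSpace X] [MulAction Γ X]
  [IsIsometricSMul Γ X] [TopologicalSpace B] [CompactSpace B] [T2Space B] [MulAction Γ B]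
  [ContinuousConstSMul Γ B]

/-! ### Smoothness near the origin -/

theorem smNear_iff {F : Type} [NormedAddCommGroup F] [NormedSpace ℝ F] {g : E2 → F} :
    SmNear g ↔ ∀ᶠ v in 𝓝 (0 : E2), ContDiffAt ℝ ∞ g v := by
  constructor
  · rintro ⟨ρ, hρ, h⟩
    filter_upwards [ball_mem_nhds (0 : E2) hρ] with v hv
    exact h.contDiffAt (isOpen_ball.mem_nhds hv)
  · intro h
    obtain ⟨ρ, hρ, h⟩ := Metric.eventually_nhds_iff_ball.1 h
    exact ⟨ρ, hρ, fun v hv => (h v hv).contDiffWithinAt⟩

theorem SmNear.congr {F : Type} [NormedAddCommGroup F] [NormedSpace ℝ F] {g g' : E2 → F}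
    (h : SmNear g) (he : ∀ᶠ v in 𝓝 (0 : E2), g' v = g v) : SmNear g' := by
  rw [smNear_iff] at h ⊢
  filter_upwards [h, he.eventually_nhds] with v h1 h2
  exact h1.congr_of_eventuallyEq h2

theorem SmNear.clm {F G : Type} [NormedAddCommGroup F] [NormedSpace ℝ F]
    [NormedAddCommGroup G] [NormedSpace ℝ G] {g : E2 → F}
    (h : SmNear g) (A : F →L[ℝ] G) : SmNear fun v => A (g v) := by
  rw [smNear_iff] at h ⊢
  filter_upwards [h] with v h1
  exact A.contDiff.contDiffAt.comp v h1

theorem SmNear.smul {F : Type} [NormedAddCommGroup F] [NormedSpace ℝ F] {g : E2 → F}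
    (h : SmNear g) (c : ℝ) : SmNear fun v => c • g v := by
  obtain ⟨ρ, hρ, h⟩ := h
  exact ⟨ρ, hρ, h.const_smul c⟩

theorem SmNear.add {F : Type} [NormedAddCommGroup F] [NormedSpace ℝ F] {g g' : E2 → F}
    (h : SmNear g) (h' : SmNear g') : SmNear fun v => g v + g' v := by
  rw [smNear_iff] at h h' ⊢
  filter_upwards [h, h'] with v h1 h2
  exact h1.add h2

/-! ### The link and the producer of `DivIn` -/

/-- (LINK at `y = 0`) the second derivative of the leaves is the tensor, in the coordinate `g`,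
up to a smooth tensor and a constant factor `-c⁻¹`, `c = r₀²`. -/
def LinkAt {L : Leaf Γ X B} (T : Tens L) (x : X) (g : E2 → E2) (S : E2 → E2 → ℝ) (c : ℝ) : Prop :=
  ∃ W : E2 → E2 →L[ℝ] E2, (∀ᶠ v in 𝓝 (0 : E2), ContDiffAt ℝ ∞ W v) ∧
    ∀ᶠ v in 𝓝 (0 : E2), fderiv ℝ (∇ (S (g v))) 0 = W v - c⁻¹ • conj (fderiv ℝ g v) (T.N x v)

/-- **the producer of `DivIn`** -/
def divInOf {L : Leaf Γ X B} {T : Tens L} {o : Orb L} (n : Nor L o) (H : Half) {c : ℝ}
    (hc : c ≠ 0) (hlink : LinkAt T o.x n.g H.S c)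
    (R0 : n.N.Split → SmNear (fun x => fderiv ℝ (H.X x) 0 (bas 1)))
    (R0' : (∃ μ₁ μ₂ a k, n.N = .tri μ₁ μ₂ a k) → ¬ n.N.Split → ∀ i,
      SmNear (fun x => fderiv ℝ (H.X x) 0 (bas i)))
    (R2 : n.N.Split → SmNear (fun x => fderiv ℝ (∇ (H.S x)) 0 (bas 1) 1) →
      SmNear (fun x => fderiv ℝ (H.X x) 0 (bas 0))) : DivIn T n where
  r := H.r
  r_pos := H.r_pos
  Tp x := (-c) • TH H x
  Xp x := (-c) • XH H x
  Tp_cont := (TH_cont H).const_smul (-c)
  Tp_symm := by
    intro x hx v w
    rw [smul_apply, smul_apply, real_inner_smul_left,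
      real_inner_smul_right, TH_symm H hx]
  Xp_cont := (XH_cont H).const_smul (-c)
  link := by
    obtain ⟨W, hW, hl⟩ := hlink
    have h1 : SmNear fun v => (-c) • W v := SmNear.smul (smNear_iff.2 hW) _
    refine SmNear.congr h1 ?_
    filter_upwards [hl] with v hv
    change (-c) • fderiv ℝ (∇ (H.S (n.g v))) 0 - _ = _
    rw [hv, smul_sub, smul_smul, neg_mul, mul_inv_cancel₀ hc]
    module
  div := by
    intro χ h1 h2 h3 v
    have key := div_half H h1 h2 h3 v
    have e1 : (fun x => ⟪((-c) • TH H x) (∇ χ x), v⟫) = fun x => (-c) * ⟪TH H x (∇ χ x), v⟫ := by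
      funext x
      rw [smul_apply, real_inner_smul_left]
    have e2 : (fun x => χ x * ⟪(-c) • XH H x, v⟫) = fun x => (-c) * (χ x * ⟪XH H x, v⟫) := by
      funext x
      rw [real_inner_smul_left]
      ring
    rw [e1, e2, integral_const_mul, integral_const_mul, key]
    ring
  R0 := by
    intro hs
    refine SmNear.congr (SmNear.smul (R0 hs) (-c)) (Eventually.of_forall fun x => ?_)
    show ((-c) • XH H x) 1 = (-c) • fderiv ℝ (H.X x) 0 (bas 1)
    rw [← XH_inner, bas, EuclideanSpace.inner_single_right]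
    simp
  R0' := by
    intro h1 h2
    have h3 : SmNear fun x => (-c) • (fderiv ℝ (H.X x) 0 (bas 0) • bas 0
        + fderiv ℝ (H.X x) 0 (bas 1) • bas 1) := by
      refine SmNear.smul (SmNear.add ?_ ?_) (-c)
      · exact SmNear.clm (R0' h1 h2 0) ((ContinuousLinearMap.id ℝ ℝ).smulRight (bas 0))
      · exact SmNear.clm (R0' h1 h2 1) ((ContinuousLinearMap.id ℝ ℝ).smulRight (bas 1))
    refine SmNear.congr h3 (Eventually.of_forall fun x => ?_)
    congr 1
    rw [← XH_inner, ← XH_inner]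
    ext i
    fin_cases i <;> simp [bas, EuclideanSpace.inner_single_right]
  R2 := by
    intro hs h22
    have h1 : SmNear (fun x => fderiv ℝ (∇ (H.S x)) 0 (bas 1) 1) := by
      refine SmNear.congr (SmNear.smul h22 (-c⁻¹)) (Eventually.of_forall fun x => ?_)
      show TH H x (bas 1) 1 = (-c⁻¹) • (((-c) • TH H x) (bas 1)) 1
      rw [smul_apply]
      simp only [PiLp.smul_apply, smul_eq_mul]
      field_simp
    refine SmNear.congr (SmNear.smul (R2 hs h1) (-c)) (Eventually.of_forall fun x => ?_)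
    show ((-c) • XH H x) 0 = (-c) • fderiv ℝ (H.X x) 0 (bas 0)
    rw [← XH_inner, bas, EuclideanSpace.inner_single_right]
    simp

end Vale.Agent.P207.N3.H12
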