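import Vale.Agent.P207.N3.H12.HolT
import Vale.Agent.P207.N3.H250.Dyn0

/-!
# P207, line N3, package P3G (PF2): the fields `div` from the input `PFIn`
-/

open Set Filter Topology Metric MeasureTheory
open scoped ContDiff

noncomputable section

namespace Vale.Agent.P207.N3.H12

/-- the labels of the leaves and the stable holonomy (one side) -/
structure LabIn (u s ρ : E2 → E2 → ℝ) (ϑ : E2 → E2) (h : ℝ) (xh yh : E2 × E2 → E2) : Prop where
  xh_cont : ∀ᶠ z in 𝓝 (0 : E2 × E2), ContinuousAt xh z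
  yh_cont : ∀ᶠ z in 𝓝 (0 : E2 × E2), ContinuousAt yh z
  xh_zero : xh 0 = 0
  yh_zero : yh 0 = 0
  leaf_yh : ∀ᶠ z in 𝓝 (0 : E2 × E2), gradient (u (yh z)) z.1 = z.2
  yh_leaf : ∀ᶠ z in 𝓝 (0 : E2 × E2), yh (lf u z) = z.1
  leaf_xh : ∀ᶠ z in 𝓝 (0 : E2 × E2), gradient (s (xh z)) z.1 = - z.2
  label' : ∀ᶠ t in 𝓝 (0 : E2), xh (lf u (0, t)) = ϑ t
  hol : ∀ᶠ r₁ in 𝓝[>] (0 : ℝ), ∃ r₀ > 0, ∀ᶠ y in 𝓝 (0 : E2), ∀ f : E2 → ℝ, Continuous f →
    tsupport f ⊆ ball 0 r₀ →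
    ∫ t in ball (0 : E2) r₁, f (xh (lf u (y, t))) *
        Real.exp (ρ y t + h * s (xh (lf u (y, t))) t)
      = ∫ t in ball (0 : E2) r₁, f (xh (lf u (0, t))) *
        Real.exp (ρ 0 t + h * s (xh (lf u (0, t))) t)

/-- the reflection `(t, π) ↦ (t, -π)` -/
def rfl2 (z : E2 × E2) : E2 × E2 := (z.1, - z.2)

theorem rfl2_cont : Continuous rfl2 := by
  unfold rfl2
  fun_prop

theorem rfl2_zero : rfl2 0 = 0 := by simp [rfl2]

theorem rfl2_tendsto : Tendsto rfl2 (𝓝 0) (𝓝 0) := rfl2_cont.tendsto' _ _ rfl2_zero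

theorem labIn_of {N N' : E2 → E2} {h : ℝ} (I : PFIn N N' h) :
    LabIn I.u I.s I.ρ I.ϑ h I.xh I.yh :=
  ⟨I.xh_cont, I.yh_cont, I.xh_zero, I.yh_zero, I.leaf_yh, I.yh_leaf, I.leaf_xh, I.label', I.hol⟩

theorem labIn_of' {N N' : E2 → E2} {h : ℝ} (I : PFIn N N' h) :
    LabIn I.s I.u I.ρ' I.ϑ' h (fun z => I.yh (rfl2 z)) (fun z => I.xh (rfl2 z)) where
  xh_cont := by
    filter_upwards [rfl2_tendsto.eventually I.yh_cont] with z hz
    exact ContinuousAt.comp hz rfl2_cont.continuousAt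
  yh_cont := by
    filter_upwards [rfl2_tendsto.eventually I.xh_cont] with z hz
    exact ContinuousAt.comp hz rfl2_cont.continuousAt
  xh_zero := by simp only [rfl2_zero, I.yh_zero]
  yh_zero := by simp only [rfl2_zero, I.xh_zero]
  leaf_yh := by
    filter_upwards [rfl2_tendsto.eventually I.leaf_xh] with z hz
    have e : - (rfl2 z).2 = z.2 := neg_neg _
    rw [e] at hz
    exact hz
  yh_leaf := I.xh_leaf
  leaf_xh := by
    filter_upwards [rfl2_tendsto.eventually I.leaf_yh] with z hz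
    exact hz
  label' := I.label
  hol := I.hol'

/-- The determinant identity at the intersection of two leaves, points `((x, y), t)`. -/
def DetStmt (S S' : E2 → E2 → ℝ) (al al' : E2 → E2 → E2) (u s ρ ρ' : E2 → E2 → ℝ) : Prop :=
  ∀ᶠ z in 𝓝 (0 : (E2 × E2) × E2), gradient (u z.1.2) z.2 + gradient (s z.1.1) z.2 = 0 →
    Real.log (1 - hess (S z.1.2) (al z.1.2 z.2) ∘L hess (S' z.1.1) (al' z.1.1 z.2)).det
      = ρ z.1.2 z.2 + ρ' z.1.1 z.2 - Real.log |(fderiv ℝ (al z.1.2) z.2).det|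
        - Real.log |(fderiv ℝ (al' z.1.1) z.2).det|

theorem gradient_ng (u : E2 → E2 → ℝ) (y t : E2) : gradient (ng u y) t = - gradient (u y) t := by
  rw [grL_apply, grL_apply]
  have : fderiv ℝ (ng u y) t = - fderiv ℝ (u y) t := fderiv_fun_neg
  rw [this, map_neg]

theorem lf_ng (u : E2 → E2 → ℝ) (z : E2 × E2) : lf (ng u) z = rfl2 (lf u z) := by
  simp only [lf, rfl2, gradient_ng]

theorem lf_ng' (u : E2 → E2 → ℝ) (z : E2 × E2) : rfl2 (lf (ng u) z) = lf u z := by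
  simp only [lf, rfl2, gradient_ng, neg_neg]

theorem div_side {Φ : E2 × E2 → E2 × E2} {K : E2 × E2 → ℝ} {u s ρ ρ' : E2 → E2 → ℝ}
    {ϑ ϑ' : E2 → E2} {h : ℝ} {xh yh : E2 × E2 → E2} {τ τ' : E2 → E2 → E2}
    (I : LabIn u s ρ ϑ h xh yh) (D : Side Φ K (ng u) ρ ϑ (-h))
    (D' : Side (sw Φ) (swK Φ K) (ng s) ρ' ϑ' (-h)) (T : IsTau Φ (ng u) τ)
    (T' : IsTau (sw Φ) (ng s) τ')
    (hdet : DetStmt (Side.SS K (ng u) τ) (Side.SS (swK Φ K) (ng s) τ') (Side.al Φ (ng u))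
      (Side.al (sw Φ) (ng s)) u s ρ ρ')
    (form : FormStmt (Side.SS K (ng u) τ) (Side.XX Φ (ng u) ρ (-h) τ)
      (Side.SS (swK Φ K) (ng s) τ') (Side.XX (sw Φ) (ng s) ρ' (-h) τ') h) :
    ∃ ρ₀ > 0, ∀ f : E2 → ℝ, ContDiff ℝ ∞ f → tsupport f ⊆ ball 0 ρ₀ → ∀ v : E2,
      ∫ x, (inner ℝ (fderiv ℝ (gradient (Side.SS (swK Φ K) (ng s) τ' x)) 0 v) (gradient f x)
        + fderiv ℝ (Side.XX (sw Φ) (ng s) ρ' (-h) τ' x) 0 v * f x) = 0 := by
  obtain ⟨Ψ, hΨ, hΦΨ, hΨΦ⟩ := D.ex.inv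
  -- convergences
  have tΨ : Tendsto Ψ (𝓝 0) (𝓝 0) := by
    have := hΨ.smooth.self_of_nhds.continuousAt.tendsto
    rwa [hΨ.zero] at this
  have cΨ : ∀ᶠ z in 𝓝 (0 : E2 × E2), ContinuousAt Ψ z := hΨ.smooth.mono fun z hz => hz.continuousAt
  have tR : Tendsto (fun z => rfl2 (Ψ z)) (𝓝 0) (𝓝 0) := rfl2_tendsto.comp tΨ
  have cR : ∀ᶠ z in 𝓝 (0 : E2 × E2), ContinuousAt (fun z => rfl2 (Ψ z)) z :=
    cΨ.mono fun z hz => rfl2_cont.continuousAt.comp hz
  have tl : Tendsto (lf u) (𝓝 0) (𝓝 0) := by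
    have h1 := rfl2_tendsto.comp D.lf_tendsto
    exact h1.congr fun z => lf_ng' u z
  have cl : ∀ᶠ z in 𝓝 (0 : E2 × E2), ContinuousAt (lf u) z := by
    filter_upwards [Side.lf_cont D.u_jg] with z hz
    have h1 : ContinuousAt (fun z => rfl2 (lf (ng u) z)) z := rfl2_cont.continuousAt.comp hz
    exact h1.congr (Eventually.of_forall fun w => lf_ng' u w)
  -- the labels in the chart
  set xc : E2 × E2 → E2 := fun z => xh (rfl2 (Ψ z)) with hxc
  set yc : E2 × E2 → E2 := fun z => yh (rfl2 (Ψ z)) with hyc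
  have txc : Tendsto xc (𝓝 0) (𝓝 0) := by
    have := (I.xh_cont.self_of_nhds).tendsto
    rw [I.xh_zero] at this
    exact this.comp tR
  have tyc : Tendsto yc (𝓝 0) (𝓝 0) := by
    have := (I.yh_cont.self_of_nhds).tendsto
    rw [I.yh_zero] at this
    exact this.comp tR
  have tΨ1 : Tendsto (fun z => (Ψ z).1) (𝓝 0) (𝓝 0) :=
    (continuous_fst.tendsto' (0 : E2 × E2) 0 rfl).comp tΨ
  have hxcc : ∀ᶠ z in 𝓝 (0 : E2 × E2), ContinuousAt xc z := by
    filter_upwards [cR, tR.eventually I.xh_cont] with z h1 h2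
    exact ContinuousAt.comp (g := xh) (f := fun z => rfl2 (Ψ z)) h2 h1
  have hycc : ∀ᶠ z in 𝓝 (0 : E2 × E2), ContinuousAt yc z := by
    filter_upwards [cR, tR.eventually I.yh_cont] with z h1 h2
    exact ContinuousAt.comp (g := yh) (f := fun z => rfl2 (Ψ z)) h2 h1
  have hxc0 : xc 0 = 0 := by
    simp only [hxc]
    rw [hΨ.zero, rfl2_zero, I.xh_zero]
  -- the leaves through a point
  have leaf_yc : ∀ᶠ z in 𝓝 (0 : E2 × E2), gradient (Side.SS K (ng u) τ (yc z)) z.1 = z.2 := by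
    have t1 : Tendsto (fun z => (yc z, (Ψ z).1)) (𝓝 0) (𝓝 0) := tyc.prodMk_nhds tΨ1
    filter_upwards [tR.eventually I.leaf_yh, hΦΨ, t1.eventually (D.SS_grad' T)] with z h1 h2 h3
    have e1 : lf (ng u) (yc z, (Ψ z).1) = Ψ z := by
      have h4 : gradient (u (yc z)) (Ψ z).1 = - (Ψ z).2 := h1
      simp only [lf, gradient_ng]
      rw [h4, neg_neg]
    simp only [Side.al, Side.be] at h3
    rw [e1, h2] at h3
    exact h3
  have leaf_xc : ∀ᶠ z in 𝓝 (0 : E2 × E2),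
      gradient (Side.SS (swK Φ K) (ng s) τ' (xc z)) z.2 = z.1 := by
    have t1 : Tendsto (fun z => (xc z, (Ψ z).1)) (𝓝 0) (𝓝 0) := txc.prodMk_nhds tΨ1
    filter_upwards [tR.eventually I.leaf_xh, hΦΨ, t1.eventually (D'.SS_grad' T')] with z h1 h2 h3
    have e1 : lf (ng s) (xc z, (Ψ z).1) = ((Ψ z).1, -(Ψ z).2) := by
      have h4 : gradient (s (xc z)) (Ψ z).1 = - -(Ψ z).2 := h1
      simp only [lf, gradient_ng]
      rw [h4, neg_neg]
    have e2 : sw Φ ((Ψ z).1, -(Ψ z).2) = (z.2, z.1) := by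
      simp only [sw, neg_neg]
      rw [show ((Ψ z).1, (Ψ z).2) = Ψ z from rfl, h2]
    simp only [Side.al, Side.be] at h3
    rw [e1, e2] at h3
    exact h3
  have yc_leaf : ∀ᶠ z in 𝓝 (0 : E2 × E2),
      yc (z.2, gradient (Side.SS K (ng u) τ z.1) z.2) = z.1 := by
    have t1 := Side.τ_tendsto T
    filter_upwards [D.SS_grad T, T.right, t1.eventually (D.lf_tendsto.eventually hΨΦ),
      t1.eventually I.yh_leaf] with z h1 h2 h3 h4
    have e1 : (z.2, gradient (Side.SS K (ng u) τ z.1) z.2) =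
        Φ (lf (ng u) (z.1, τ z.1 z.2)) := by
      rw [h1]
      exact Prod.ext h2.symm rfl
    simp only [hyc]
    rw [e1, h3, lf_ng', h4]
  -- the holonomy
  have hol : HolStmt (Side.SS K (ng u) τ) (Side.XX Φ (ng u) ρ (-h) τ)
      (Side.SS (swK Φ K) (ng s) τ') xc h := by
    have w_cont : ∀ᶠ z in 𝓝 (0 : E2 × E2), ContinuousAt (fun z : E2 × E2 => xh (lf u z)) z := by
      filter_upwards [cl, tl.eventually I.xh_cont] with z h1 h2
      exact ContinuousAt.comp (g := xh) (f := lf u) h2 h1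
    have tw : Tendsto (fun z : E2 × E2 => xh (lf u z)) (𝓝 0) (𝓝 0) := by
      have := (I.xh_cont.self_of_nhds).tendsto
      rw [I.xh_zero] at this
      exact this.comp tl
    have lab : ∀ᶠ z in 𝓝 (0 : E2 × E2),
        xc (Side.al Φ (ng u) z.1 z.2, gradient (Side.SS K (ng u) τ z.1)
          (Side.al Φ (ng u) z.1 z.2)) = xh (lf u (z.1, z.2)) := by
      filter_upwards [D.SS_grad' T, D.lf_tendsto.eventually hΨΦ] with z h1 h2
      rw [h1]
      have e1 : (Side.al Φ (ng u) z.1 z.2, Side.be Φ (ng u) z.1 z.2) =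
          Φ (lf (ng u) (z.1, z.2)) := rfl
      simp only [hxc]
      rw [e1, show ((z.1, z.2) : E2 × E2) = z from rfl, h2, lf_ng']
    refine hol_change (al := Side.al Φ (ng u)) (τ := τ) (w := fun y t => xh (lf u (y, t)))
      (L := fun y q => xc (q, gradient (Side.SS K (ng u) τ y) q))
      (σ := fun y t => ρ y t + h * s (xh (lf u (y, t))) t)
      (E := fun y q => Side.XX Φ (ng u) ρ (-h) τ y q - h * (Side.SS K (ng u) τ y q
        + Side.SS (swK Φ K) (ng s) τ' (xc (q, gradient (Side.SS K (ng u) τ y) q))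
          (gradient (Side.SS K (ng u) τ y) q) - inner ℝ (gradient (Side.SS K (ng u) τ y) q) q))
      (c := fun x => Side.xx (sw Φ) (ng s) ρ' (-h) x (τ' x 0))
      D.al_jg T.jg T.zero T.right T.left w_cont ?_ lab ?_ ?_ ?_ I.hol
    · filter_upwards [I.label', D.al_base] with t h1 h2
      rw [h1, h2]
    · -- the density
      have t5 : Tendsto (fun z : E2 × E2 => ((xh (lf u z), z.1), z.2)) (𝓝 0) (𝓝 0) :=
        (tw.prodMk_nhds (continuous_fst.tendsto' (0 : E2 × E2) 0 rfl)).prodMk_nhds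
          (continuous_snd.tendsto' (0 : E2 × E2) 0 rfl)
      have t6 : Tendsto (fun z : E2 × E2 => (xh (lf u z), z.2)) (𝓝 0) (𝓝 0) :=
        tw.prodMk_nhds (continuous_snd.tendsto' (0 : E2 × E2) 0 rfl)
      have t7 : Tendsto (fun z : E2 × E2 => Φ (lf (ng u) z)) (𝓝 0) (𝓝 0) := by
        have h1 := D.ex.smooth.self_of_nhds.continuousAt.tendsto
        rw [D.ex.zero] at h1
        exact h1.comp D.lf_tendsto
      have t8 : Tendsto (fun z : E2 × E2 => ((xh (lf u z), z.1), Φ (lf (ng u) z))) (𝓝 0) (𝓝 0) :=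
        (tw.prodMk_nhds (continuous_fst.tendsto' (0 : E2 × E2) 0 rfl)).prodMk_nhds t7
      filter_upwards [D.al_det, lab, D.SS_grad' T, t8.eventually form, t5.eventually hdet,
        tl.eventually I.leaf_xh, t6.eventually T'.left, t7.eventually leaf_xc] with z h1 h2 h3 h4
        h5 h6 h7 h8
      obtain ⟨y, t⟩ := z
      simp only at h1 h2 h3 h4 h5 h6 h7 h8 ⊢
      set x := xh (lf u (y, t)) with hx
      have hq : (Φ (lf (ng u) (y, t))).1 = Side.al Φ (ng u) y t := rfl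
      have hp : (Φ (lf (ng u) (y, t))).2 = Side.be Φ (ng u) y t := rfl
      rw [hq, hp] at h4 h8
      set q := Side.al Φ (ng u) y t with hqd
      set p := Side.be Φ (ng u) y t with hpd
      have hz : Φ (lf (ng u) (y, t)) = (q, p) := rfl
      rw [h3] at h2
      rw [hz, h2] at h8
      -- the two leaves meet
      have h6' : gradient (s x) t = - gradient (u y) t := h6
      have h5' := h5 (by rw [h6']; exact add_neg_cancel _)
      have hal : Side.al (sw Φ) (ng s) x t = p := by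
        have e1 : lf s (x, t) = lf (ng u) (y, t) := by
          simp only [lf, gradient_ng]
          rw [h6']
        simp only [Side.al, sw]
        rw [show ((lf (ng s) (x, t)).1, -(lf (ng s) (x, t)).2) = rfl2 (lf (ng s) (x, t)) from rfl,
          lf_ng', e1, hz]
      rw [hal] at h5'
      rw [hal] at h7
      have h4' := h4 h3 h8
      have hXX : Side.XX (sw Φ) (ng s) ρ' (-h) τ' x p =
          Side.xx (sw Φ) (ng s) ρ' (-h) x t - Side.xx (sw Φ) (ng s) ρ' (-h) x (τ' x 0) := by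
        rw [Side.XX, h7]
      have hxx : Side.xx (sw Φ) (ng s) ρ' (-h) x t = ρ' x t - h * s x t
          - Real.log |(fderiv ℝ (Side.al (sw Φ) (ng s) x) t).det| := by
        simp only [Side.xx, ng]
        ring
      rw [h3, h2, ← Real.exp_add]
      have hE : Side.XX Φ (ng u) ρ (-h) τ y q - h * (Side.SS K (ng u) τ y q
          + Side.SS (swK Φ K) (ng s) τ' x p - inner ℝ p q) =
          (ρ y t + h * s x t + Side.xx (sw Φ) (ng s) ρ' (-h) x (τ' x 0))
            - Real.log |(fderiv ℝ (Side.al Φ (ng u) y) t).det| := by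
        have e1 : Side.XX Φ (ng u) ρ (-h) τ y q - h * (Side.SS K (ng u) τ y q
          + Side.SS (swK Φ K) (ng s) τ' x p - inner ℝ p q) = (Side.XX Φ (ng u) ρ (-h) τ y q
          + Side.XX (sw Φ) (ng s) ρ' (-h) τ' x p - h * (Side.SS K (ng u) τ y q
          + Side.SS (swK Φ K) (ng s) τ' x p - inner ℝ p q))
            - Side.XX (sw Φ) (ng s) ρ' (-h) τ' x p := by ring
        rw [e1, h4', h5', hXX, hxx]
        ring
      have hdpos : 0 < |(fderiv ℝ (Side.al Φ (ng u) y) t).det| := abs_pos.2 h1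
      rw [hE, Real.exp_sub, Real.exp_log hdpos]
      field_simp
    · filter_upwards [D.XX_base T, D.SS_base T, D.SS_grad_base T] with q h1 h2 h3
      rw [h1, h2, h3, Side.SS_zero]
      simp
    · exact (D'.xx_jg.comp T'.jg T'.zero).zero_cont
  exact div_germ (S := Side.SS K (ng u) τ) (X := Side.XX Φ (ng u) ρ (-h) τ)
    (S' := Side.SS (swK Φ K) (ng s) τ') (X' := Side.XX (sw Φ) (ng s) ρ' (-h) τ') (xh := xc)
    (yh := yc) (h := h) (D.SS_jg T) (D'.SS_jg T') (D'.XX_jg T') (D.SS_base T) (D'.SS_base T')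
    (D'.SS_label T') (Eventually.of_forall fun x => Side.XX_zero x) hxcc hxc0 hycc leaf_xc
    leaf_yc yc_leaf form hol

theorem sw_sw (Φ : E2 × E2 → E2 × E2) : sw (sw Φ) = Φ := by
  funext z
  simp only [sw, neg_neg]

theorem swK_swK (Φ : E2 × E2 → E2 × E2) (K : E2 × E2 → ℝ) : swK (sw Φ) (swK Φ K) = K := by
  funext z
  simp only [sw, swK, neg_neg]
  rw [real_inner_comm]
  ring

/-- exchange of the two labels -/
theorem DetStmt.swap {S S' : E2 → E2 → ℝ} {al al' : E2 → E2 → E2} {u s ρ ρ' : E2 → E2 → ℝ}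
    (hd : DetStmt S S' al al' u s ρ ρ') : DetStmt S' S al' al s u ρ' ρ := by
  have t : Tendsto (fun z : (E2 × E2) × E2 => ((z.1.2, z.1.1), z.2)) (𝓝 0) (𝓝 0) :=
    (by fun_prop : Continuous fun z : (E2 × E2) × E2 => ((z.1.2, z.1.1), z.2)).tendsto' _ _ rfl
  filter_upwards [t.eventually hd] with z hz hh
  have h1 := hz (by rw [add_comm]; exact hh)
  simp only at h1
  rw [HolDat.det_comm, h1]
  ring

/-- exchange of the two sides in the product formula -/
theorem FormStmt.swap {S X S' X' : E2 → E2 → ℝ} {h : ℝ} (hf : FormStmt S X S' X' h) :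
    FormStmt S' X' S X h := by
  have t : Tendsto (fun z : (E2 × E2) × (E2 × E2) => ((z.1.2, z.1.1), (z.2.2, z.2.1)))
      (𝓝 0) (𝓝 0) :=
    (by fun_prop : Continuous fun z : (E2 × E2) × (E2 × E2) =>
      ((z.1.2, z.1.1), (z.2.2, z.2.1))).tendsto' _ _ rfl
  filter_upwards [t.eventually hf] with z hz h1 h2
  have h3 := hz h2 h1
  simp only at h3
  rw [HolDat.det_comm, ← h3, real_inner_comm z.2.1 z.2.2]
  ring

/-- **the two divergence formulas of the product structure** -/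
theorem div_pf {N N' : E2 → E2} {h : ℝ} (I : PFIn N N' h) {Φ : E2 × E2 → E2 × E2}
    {K : E2 × E2 → ℝ} {τ τ' : E2 → E2 → E2} (D : Side Φ K (ng I.u) I.ρ I.ϑ (-h))
    (D' : Side (sw Φ) (swK Φ K) (ng I.s) I.ρ' I.ϑ' (-h)) (T : IsTau Φ (ng I.u) τ)
    (T' : IsTau (sw Φ) (ng I.s) τ')
    (hdet : DetStmt (Side.SS K (ng I.u) τ) (Side.SS (swK Φ K) (ng I.s) τ')
      (Side.al Φ (ng I.u)) (Side.al (sw Φ) (ng I.s)) I.u I.s I.ρ I.ρ')
    (form : FormStmt (Side.SS K (ng I.u) τ) (Side.XX Φ (ng I.u) I.ρ (-h) τ)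
      (Side.SS (swK Φ K) (ng I.s) τ') (Side.XX (sw Φ) (ng I.s) I.ρ' (-h) τ') h) :
    ∃ ρ₀ > 0, ∀ f : E2 → ℝ, ContDiff ℝ ∞ f → tsupport f ⊆ ball 0 ρ₀ → ∀ v : E2,
      (∫ x, (inner ℝ (fderiv ℝ (gradient (Side.SS (swK Φ K) (ng I.s) τ' x)) 0 v) (gradient f x)
        + fderiv ℝ (Side.XX (sw Φ) (ng I.s) I.ρ' (-h) τ' x) 0 v * f x) = 0) ∧
      (∫ y, (inner ℝ (fderiv ℝ (gradient (Side.SS K (ng I.u) τ y)) 0 v) (gradient f y)
        + fderiv ℝ (Side.XX Φ (ng I.u) I.ρ (-h) τ y) 0 v * f y) = 0) := by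
  obtain ⟨ρ₁, h1, hX⟩ := div_side (labIn_of I) D D' T T' hdet form
  have D'' : Side (sw (sw Φ)) (swK (sw Φ) (swK Φ K)) (ng I.u) I.ρ I.ϑ (-h) := by
    rw [sw_sw, swK_swK]
    exact D
  have T'' : IsTau (sw (sw Φ)) (ng I.u) τ := by
    rw [sw_sw]
    exact T
  obtain ⟨ρ₂, h2, hY⟩ := div_side (labIn_of' I) D' D'' T' T''
    (by rw [sw_sw, swK_swK]; exact hdet.swap) (by rw [sw_sw, swK_swK]; exact form.swap)
  rw [sw_sw, swK_swK] at hY
  refine ⟨min ρ₁ ρ₂, lt_min h1 h2, fun f hf hfs v => ⟨?_, ?_⟩⟩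
  · exact hX f hf (hfs.trans (ball_subset_ball (min_le_left _ _))) v
  · exact hY f hf (hfs.trans (ball_subset_ball (min_le_right _ _))) v

end Vale.Agent.P207.N3.H12
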