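import Vale.Agent.P207.N3.H391.PF
import Vale.Agent.P207.N3.H790.NF

/-!
# P207, line N3 (DIVIN): the normal forms of the two sides of the product formula

`SplitPF`: `r > 1`. `EqPF`: `r = 1`, real eigenvalues (`Y` is the dual side: lower triangular).
-/

open Set Filter Topology Metric MeasureTheory
open scoped ContDiff

noncomputable section

namespace Vale.Agent.P207.N3.H12

open H790 (NF)

/-- the normal forms of the two sides, `r > 1` -/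
structure SplitPF (D : PF) (μ₁ μ₂ a : ℝ) (k : ℕ) (a' : ℝ) (k' : ℕ) : Prop where
  ok : (NF.tri μ₁ μ₂ a k).OK
  ok' : (NF.tri μ₁ μ₂ a' k').OK
  lt : |μ₂| < |μ₁|
  XM : ∀ x, D.X.M x = (NF.tri μ₁ μ₂ a k).inv x
  YN : ∀ x, D.Y.N x = (NF.tri μ₁ μ₂ a k).fn x
  YM : ∀ y, D.Y.M y = (NF.tri μ₁ μ₂ a' k').inv y
  XN : ∀ y, D.X.N y = (NF.tri μ₁ μ₂ a' k').fn y

theorem SplitPF.symm {D : PF} {μ₁ μ₂ a : ℝ} {k : ℕ} {a' : ℝ} {k' : ℕ}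
    (H : SplitPF D μ₁ μ₂ a k a' k') : SplitPF D.symm μ₁ μ₂ a' k' a k where
  ok := H.ok'
  ok' := H.ok
  lt := H.lt
  XM := H.YM
  YN := H.XN
  YM := H.XM
  XN := H.YN

/-- the normal forms of the two sides, `r = 1`, real eigenvalues -/
structure EqPF (D : PF) (μ₁ μ₂ a : ℝ) (k : ℕ) : Prop where
  ok : (NF.tri μ₁ μ₂ a k).OK
  eq : |μ₂| = |μ₁|
  jor : a ≠ 0 → k = 1 ∧ μ₁ = μ₂
  XM : ∀ x, D.X.M x = !₂[μ₁⁻¹ * (x 0 - a * (μ₂⁻¹ * x 1)), μ₂⁻¹ * x 1]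
  YN : ∀ x, D.Y.N x = !₂[μ₁ * x 0 + a * x 1, μ₂ * x 1]
  YM : ∀ y, D.Y.M y = !₂[μ₁⁻¹ * y 0, μ₂⁻¹ * (y 1 - a * (μ₁⁻¹ * y 0))]
  XN : ∀ y, D.X.N y = !₂[μ₁ * y 0, a * y 0 + μ₂ * y 1]

end Vale.Agent.P207.N3.H12
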