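import Vale.Agent.P207.N3.H391.PF
import Vale.Agent.P207.N3.H503.In

/-!
# P207, line N3 (DIVIN): the second derivative of the leaves and the first derivative of the
densities of a half, at the base point
-/

open Set Filter Topology Metric MeasureTheory InnerProductSpace
open scoped ContDiff RealInnerProductSpace Gradient

noncomputable section

namespace Vale.Agent.P207.N3.H12

/-! ### Hessians -/

theorem inner_grad (f : E2 → ℝ) (x v : E2) : ⟪∇ f x, v⟫ = fderiv ℝ f x v := by
  rw [gradient, InnerProductSpace.toDual_symm_apply]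

/-- the gradient as a linear function of the differential -/
def gL : (E2 →L[ℝ] ℝ) →L[ℝ] E2 :=
  LinearMap.toContinuousLinearMap
    { toFun := fun l => (InnerProductSpace.toDual ℝ E2).symm l
      map_add' := fun a b => by simp
      map_smul' := fun c a => by simp }

theorem gL_apply (l : E2 →L[ℝ] ℝ) (v : E2) : ⟪gL l, v⟫ = l v := by
  change ⟪(InnerProductSpace.toDual ℝ E2).symm l, v⟫ = l v
  rw [InnerProductSpace.toDual_symm_apply]

theorem grad_eq_gL (f : E2 → ℝ) : ∇ f = fun x => gL (fderiv ℝ f x) := by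
  funext x
  refine ext_inner_right ℝ fun v => ?_
  rw [inner_grad, gL_apply]

theorem fderiv_diff {f : E2 → ℝ} {q : E2} (hf : ContDiffAt ℝ ∞ f q) :
    ContDiffAt ℝ ∞ (fderiv ℝ f) q :=
  hf.fderiv_right (m := ∞) (by simp)

theorem grad_diff {f : E2 → ℝ} {q : E2} (hf : ContDiffAt ℝ ∞ f q) : ContDiffAt ℝ ∞ (∇ f) q := by
  rw [grad_eq_gL]
  exact gL.contDiff.contDiffAt.comp q (fderiv_diff hf)

theorem inner_hess {f : E2 → ℝ} {q : E2} (hf : ContDiffAt ℝ ∞ f q) (v w : E2) :
    ⟪fderiv ℝ (∇ f) q v, w⟫ = fderiv ℝ (fderiv ℝ f) q v w := by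
  have h1 : HasFDerivAt (∇ f) (gL ∘L fderiv ℝ (fderiv ℝ f) q) q := by
    rw [grad_eq_gL]
    exact gL.hasFDerivAt.comp q ((fderiv_diff hf).differentiableAt (by simp)).hasFDerivAt
  rw [h1.fderiv]
  exact gL_apply _ _

theorem inner_hess_iter {f : E2 → ℝ} {q : E2} (hf : ContDiffAt ℝ ∞ f q) (v w : E2) :
    ⟪fderiv ℝ (∇ f) q v, w⟫ = iteratedFDeriv ℝ 2 f q ![v, w] := by
  rw [inner_hess hf, iteratedFDeriv_two_apply]
  rfl

theorem hess_symm {f : E2 → ℝ} {q : E2} (hf : ContDiffAt ℝ ∞ f q) (v w : E2) :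
    ⟪fderiv ℝ (∇ f) q v, w⟫ = ⟪v, fderiv ℝ (∇ f) q w⟫ := by
  have h2 := hf.isSymmSndFDerivAt (by
    rw [minSmoothness_of_isRCLikeNormedField]
    exact (by exact_mod_cast le_top : ((2 : ℕ∞) : WithTop ℕ∞) ≤ ∞))
  rw [real_inner_comm (fderiv ℝ (∇ f) q w) v, inner_hess hf, inner_hess hf]
  exact h2 v w

/-! ### A half at the base point -/

/-- the second derivative of the leaf `y` -/
def TH (H : Half) (y : E2) : E2 →L[ℝ] E2 := fderiv ℝ (∇ (H.S y)) 0

/-- the first derivative of the density `y` -/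
def XH (H : Half) (y : E2) : E2 := ∇ (H.X y) 0

section

variable (H : Half)

theorem S_at {y : E2} (hy : y ∈ ball (0 : E2) H.r) : ContDiffAt ℝ ∞ (H.S y) 0 :=
  (H.S_smooth y hy).contDiffAt (isOpen_ball.mem_nhds (mem_ball_self H.r_pos))

theorem X_at {y : E2} (hy : y ∈ ball (0 : E2) H.r) : ContDiffAt ℝ ∞ (H.X y) 0 :=
  (H.X_smooth y hy).contDiffAt (isOpen_ball.mem_nhds (mem_ball_self H.r_pos))

theorem TH_symm {y : E2} (hy : y ∈ ball (0 : E2) H.r) (v w : E2) :
    ⟪TH H y v, w⟫ = ⟪v, TH H y w⟫ := hess_symm (S_at H hy) v w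

theorem XH_inner (y v : E2) : ⟪XH H y, v⟫ = fderiv ℝ (H.X y) 0 v := inner_grad _ _ _

theorem cont_vec {f : E2 → E2} {s : Set E2} (h : ∀ w, ContinuousOn (fun y => ⟪f y, w⟫) s) :
    ContinuousOn f s := by
  have h1 : ContinuousOn (fun y => (EuclideanSpace.equiv (Fin 2) ℝ) (f y)) s := by
    refine continuousOn_pi.2 fun i => ?_
    refine (h (EuclideanSpace.single i 1)).congr fun y _ => ?_
    simp [EuclideanSpace.inner_single_right]
  have h2 := (EuclideanSpace.equiv (Fin 2) ℝ).symm.continuous.comp_continuousOn h1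
  refine h2.congr fun y _ => ?_
  simp

theorem TH_cont : ContinuousOn (TH H) (ball 0 H.r) := by
  rw [continuousOn_clm_apply]
  intro v
  refine cont_vec fun w => ?_
  have h1 := (H.S_cont 2).comp (f := fun y : E2 => (y, (0 : E2)))
    (by fun_prop : Continuous fun y : E2 => (y, (0 : E2))).continuousOn
    (fun y hy => ⟨hy, mem_ball_self H.r_pos⟩)
  have h3 : Continuous fun L : E2 [×2]→L[ℝ] ℝ => L ![v, w] :=
    (ContinuousMultilinearMap.apply ℝ (fun _ : Fin 2 => E2) ℝ ![v, w]).continuous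
  exact (h3.comp_continuousOn h1).congr fun y hy => inner_hess_iter (S_at H hy) v w

theorem XH_cont : ContinuousOn (XH H) (ball 0 H.r) := by
  refine cont_vec fun v => ?_
  have h1 := (H.X_cont 1).comp (f := fun y : E2 => (y, (0 : E2)))
    (by fun_prop : Continuous fun y : E2 => (y, (0 : E2))).continuousOn
    (fun y hy => ⟨hy, mem_ball_self H.r_pos⟩)
  have h3 : Continuous fun L : E2 [×1]→L[ℝ] ℝ => L ![v] :=
    (ContinuousMultilinearMap.apply ℝ (fun _ : Fin 1 => E2) ℝ ![v]).continuous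
  refine (h3.comp_continuousOn h1).congr fun y hy => ?_
  show ⟪XH H y, v⟫ = iteratedFDeriv ℝ 1 (H.X y) 0 ![v]
  rw [XH_inner, iteratedFDeriv_one_apply]
  rfl

/-- a function which is continuous on an open set and vanishes outside of a compact subset -/
theorem cont_of_supp {f : E2 → ℝ} {U K : Set E2} (hU : IsOpen U) (hK : IsClosed K) (hKU : K ⊆ U)
    (hf : ContinuousOn f U) (h0 : ∀ x ∉ K, f x = 0) : Continuous f := by
  rw [continuous_iff_continuousAt]
  intro x
  by_cases hx : x ∈ K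
  · exact hf.continuousAt (hU.mem_nhds (hKU hx))
  · have h1 : f =ᶠ[𝓝 x] fun _ => 0 := by
      filter_upwards [hK.isOpen_compl.mem_nhds hx] with y hy
      exact h0 y hy
    exact (continuousAt_const (y := (0 : ℝ))).congr h1.symm

theorem int_of_supp {f : E2 → ℝ} {U K : Set E2} (hU : IsOpen U) (hK : IsCompact K) (hKU : K ⊆ U)
    (hf : ContinuousOn f U) (h0 : ∀ x ∉ K, f x = 0) : Integrable f := by
  refine (cont_of_supp hU hK.isClosed hKU hf h0).integrable_of_hasCompactSupport ?_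
  exact HasCompactSupport.intro hK h0

theorem grad_zero_of {χ : E2 → ℝ} {y : E2} (hy : y ∉ tsupport χ) : ∇ χ y = 0 := by
  have h2 : y ∉ tsupport (fderiv ℝ χ) := fun h => hy (tsupport_fderiv_subset ℝ h)
  have h3 := image_eq_zero_of_notMem_tsupport h2
  rw [gradient, h3, map_zero]

/-- **the divergence formula, in the other form** -/
theorem div_half {χ : E2 → ℝ} (hχ : ContDiff ℝ ∞ χ) (hc : HasCompactSupport χ)
    (hs : tsupport χ ⊆ ball 0 H.r) (v : E2) :
    ∫ y, ⟪TH H y (∇ χ y), v⟫ = - ∫ y, χ y * ⟪XH H y, v⟫ := by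
  have h0 := H.div χ hχ hc hs v
  have e1 : (fun y => ⟪TH H y (∇ χ y), v⟫) = fun y => ⟪fderiv ℝ (∇ (H.S y)) 0 v, ∇ χ y⟫ := by
    funext y
    by_cases hy : y ∈ tsupport χ
    · rw [TH_symm H (hs hy), real_inner_comm]
      rfl
    · rw [grad_zero_of hy, map_zero, inner_zero_left, inner_zero_right]
  have e2 : (fun y => χ y * ⟪XH H y, v⟫) = fun y => fderiv ℝ (H.X y) 0 v * χ y := by
    funext y
    rw [XH_inner, mul_comm]
  have gc : Continuous (∇ χ) := by
    rw [grad_eq_gL]
    exact gL.continuous.comp (hχ.continuous_fderiv (by simp))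
  have i1 : Integrable fun y => ⟪fderiv ℝ (∇ (H.S y)) 0 v, ∇ χ y⟫ := by
    refine int_of_supp isOpen_ball hc hs ?_ fun y hy => ?_
    · exact ContinuousOn.inner (𝕜 := ℝ) ((TH_cont H).clm_apply continuousOn_const) gc.continuousOn
    · rw [grad_zero_of hy, inner_zero_right]
  have i2 : Integrable fun y => fderiv ℝ (H.X y) 0 v * χ y := by
    refine int_of_supp isOpen_ball hc hs ?_ fun y hy => ?_
    · have h1 : ContinuousOn (fun y => ⟪XH H y, v⟫) (ball 0 H.r) :=
        ContinuousOn.inner (𝕜 := ℝ) (XH_cont H) continuousOn_const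
      exact (h1.congr fun y _ => (XH_inner H y v).symm).mul hχ.continuous.continuousOn
    · rw [image_eq_zero_of_notMem_tsupport hy, mul_zero]
  rw [e1, e2]
  rw [integral_add i1 i2] at h0
  linarith

end

end Vale.Agent.P207.N3.H12
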