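import Vale.Agent.P207.N3.H12.DivG

/-!
# P207, line N3, package P3G (PF2): the stable holonomy in the chart

The holonomy identity in the coordinate `t` of the transversal disc (field `hol` of `PFIn`)
becomes `HolStmt` after the change of variables `q = al y t` on each leaf.
-/

open Set Filter Topology Metric MeasureTheory
open scoped ContDiff

noncomputable section

namespace Vale.Agent.P207.N3.H12

/-- a property near `(0, 0)` on a product of two equal balls -/
theorem ev_balls {P : E2 × E2 → Prop} (h : ∀ᶠ z in 𝓝 (0 : E2 × E2), P z) :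
    ∃ r > 0, ∀ a ∈ ball (0 : E2) r, ∀ b ∈ ball (0 : E2) r, P (a, b) := by
  obtain ⟨r, hr, hb⟩ := Metric.eventually_nhds_iff_ball.1 h
  refine ⟨r, hr, fun a ha b hb' => hb _ ?_⟩
  rw [zero_prod, ← ball_prod_same]
  exact ⟨ha, hb'⟩

/-- **change of variables in the holonomy**; `w y t` = label of the stable leaf through the point
`t` of the leaf `y`, `q = al y t`, `L y q` = the same label in the coordinate `q`. -/
theorem hol_change {al τ : E2 → E2 → E2} {w L : E2 → E2 → E2} {σ E : E2 → E2 → ℝ} {c : E2 → ℝ}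
    (al_jg : JG al) (τ_jg : JG τ) (τ_zero : τ 0 0 = 0)
    (right : ∀ᶠ z in 𝓝 (0 : E2 × E2), al z.1 (τ z.1 z.2) = z.2)
    (left : ∀ᶠ z in 𝓝 (0 : E2 × E2), τ z.1 (al z.1 z.2) = z.2)
    (w_cont : ∀ᶠ z in 𝓝 (0 : E2 × E2), ContinuousAt (fun z : E2 × E2 => w z.1 z.2) z)
    (w_base : ∀ᶠ t in 𝓝 (0 : E2), w 0 t = al 0 t)
    (lab : ∀ᶠ z in 𝓝 (0 : E2 × E2), L z.1 (al z.1 z.2) = w z.1 z.2)
    (dens : ∀ᶠ z in 𝓝 (0 : E2 × E2), |(fderiv ℝ (al z.1) z.2).det| *
      Real.exp (E z.1 (al z.1 z.2)) = Real.exp (σ z.1 z.2) * Real.exp (c (w z.1 z.2)))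
    (E_base : ∀ᶠ q in 𝓝 (0 : E2), E 0 q = 0)
    (c_cont : ∀ᶠ x in 𝓝 (0 : E2), ContinuousAt c x)
    (hol : ∀ᶠ r₁ in 𝓝[>] (0 : ℝ), ∃ r₀ > 0, ∀ᶠ y in 𝓝 (0 : E2), ∀ f : E2 → ℝ, Continuous f →
      tsupport f ⊆ ball 0 r₀ →
      ∫ t in ball (0 : E2) r₁, f (w y t) * Real.exp (σ y t)
        = ∫ t in ball (0 : E2) r₁, f (w 0 t) * Real.exp (σ 0 t)) :
    ∀ᶠ r₁ in 𝓝[>] (0 : ℝ), ∃ r₀ > 0, ∀ᶠ y in 𝓝 (0 : E2), ∀ g : E2 → ℝ, Continuous g →
      tsupport g ⊆ ball 0 r₀ →
      ∫ x, g x = ∫ q in ball (0 : E2) r₁, g (L y q) * Real.exp (E y q) := by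
  -- everything holds on a product of balls
  have ald : ∀ᶠ z in 𝓝 (0 : E2 × E2), HasFDerivAt (al z.1) (fderiv ℝ (al z.1) z.2) z.2 := by
    filter_upwards [al_jg.smooth] with z hz
    exact (hz.differentiableAt (by simp)).hasFDerivAt
  obtain ⟨ρ₀, hρ₀, hP⟩ := ev_balls (((((ald.and al_jg.cont).and left).and w_cont).and lab).and dens)
  obtain ⟨ρ₁, hρ₁, hB⟩ := Metric.eventually_nhds_iff_ball.1 (w_base.and (E_base.and c_cont))
  -- the radius in `t`
  have hsm : ∀ᶠ r₁ : ℝ in 𝓝[>] 0, r₁ < min ρ₀ ρ₁ :=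
    (eventually_lt_nhds (lt_min hρ₀ hρ₁)).filter_mono nhdsWithin_le_nhds
  obtain ⟨rt, ⟨⟨r₂, h2, hh⟩, hrt⟩, hrt0⟩ := ((hol.and hsm).and self_mem_nhdsWithin).exists
  have hrtpos : 0 < rt := hrt0
  have hrtρ : rt < ρ₀ := hrt.trans_le (min_le_left _ _)
  have hrtρ1 : rt < ρ₁ := hrt.trans_le (min_le_right _ _)
  -- the radius in `q`
  have hτt : ∀ᶠ z in 𝓝 (0 : E2 × E2), τ z.1 z.2 ∈ ball (0 : E2) rt := by
    have := τ_jg.contAt.tendsto
    simp only [τ_zero] at this
    exact this.eventually (Metric.ball_mem_nhds _ hrtpos)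
  obtain ⟨rq, hrq, hQ⟩ := ev_balls (right.and hτt)
  have hsm2 : ∀ᶠ r₁ : ℝ in 𝓝[>] 0, r₁ < min rq ρ₁ :=
    (eventually_lt_nhds (lt_min hrq hρ₁)).filter_mono nhdsWithin_le_nhds
  filter_upwards [hsm2, self_mem_nhdsWithin] with r₁ hr1 hr10
  have h1pos : 0 < r₁ := hr10
  have h1q : r₁ < rq := hr1.trans_le (min_le_left _ _)
  have h1ρ : r₁ < ρ₁ := hr1.trans_le (min_le_right _ _)
  -- uniform smallness of `w - al`
  have hU : ∀ᶠ y in 𝓝 (0 : E2), ∀ t ∈ closedBall (0 : E2) rt, ‖w y t - al y t‖ < r₁ / 2 := by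
    refine (isCompact_closedBall (0 : E2) rt).eventually_forall_of_forall_eventually
      (P := fun y t => ‖w y t - al y t‖ < r₁ / 2) ?_
    intro t ht
    have ht0 : t ∈ ball (0 : E2) ρ₀ := closedBall_subset_ball hrtρ ht
    have ht1 : t ∈ ball (0 : E2) ρ₁ := closedBall_subset_ball hrtρ1 ht
    obtain ⟨⟨⟨⟨⟨_, a2⟩, _⟩, a4⟩, _⟩, _⟩ := hP 0 (mem_ball_self hρ₀) t ht0
    have h3 : ContinuousAt (fun z : E2 × E2 => ‖w z.1 z.2 - al z.1 z.2‖) (0, t) :=
      (ContinuousAt.sub a4 a2).norm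
    have h4 := h3.tendsto
    simp only [(hB t ht1).1, sub_self, norm_zero] at h4
    exact h4.eventually (eventually_lt_nhds (by positivity))
  set r₀ : ℝ := min r₂ (min (r₁ / 2) ρ₁) with hr₀
  have hr₀0 : 0 < r₀ := by rw [hr₀]; positivity
  have hr₀2 : r₀ ≤ r₂ := min_le_left _ _
  have hr₀1 : r₀ ≤ r₁ / 2 := (min_le_right _ _).trans (min_le_left _ _)
  have hr₀ρ : r₀ ≤ ρ₁ := (min_le_right _ _).trans (min_le_right _ _)
  refine ⟨r₀, hr₀0, ?_⟩
  -- the key identity on one leaf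
  have key : ∀ y : E2, y ∈ ball (0 : E2) (min ρ₀ rq) →
      (∀ t ∈ closedBall (0 : E2) rt, ‖w y t - al y t‖ < r₁ / 2) →
      ∀ g : E2 → ℝ, Continuous g → tsupport g ⊆ ball 0 r₀ →
      ∫ q in ball (0 : E2) r₁, g (L y q) * Real.exp (E y q)
        = ∫ t in ball (0 : E2) rt, (g (w y t) * Real.exp (c (w y t))) * Real.exp (σ y t) := by
    intro y hy hyU g hg hgs
    have hy0 : y ∈ ball (0 : E2) ρ₀ := ball_subset_ball (min_le_left _ _) hy
    have hyq : y ∈ ball (0 : E2) rq := ball_subset_ball (min_le_right _ _) hy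
    have hPt : ∀ t ∈ ball (0 : E2) rt, _ := fun t ht =>
      hP y hy0 t (ball_subset_ball hrtρ.le ht)
    set s : Set E2 := ball (0 : E2) rt ∩ (al y) ⁻¹' ball 0 r₁ with hs
    have hac : ContinuousOn (al y) (ball (0 : E2) rt) := fun t ht =>
      ((hPt t ht).1.1.1.1.1.continuousAt).continuousWithinAt
    have hso : IsOpen s := hac.isOpen_inter_preimage isOpen_ball isOpen_ball
    have him : al y '' s = ball (0 : E2) r₁ := by
      ext q
      constructor
      · rintro ⟨t, ht, rfl⟩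
        exact ht.2
      · intro hq
        obtain ⟨b1, b2⟩ := hQ y hyq q (ball_subset_ball h1q.le hq)
        simp only at b1 b2
        refine ⟨τ y q, ⟨b2, ?_⟩, b1⟩
        rw [mem_preimage, b1]
        exact hq
    have hinj : InjOn (al y) s := by
      intro t ht t' ht' he
      have c1 := (hPt t ht.1).1.1.1.2
      have c2 := (hPt t' ht'.1).1.1.1.2
      simp only at c1 c2
      rw [← c1, ← c2, he]
    have hcv := integral_image_eq_integral_abs_det_fderiv_smul volume hso.measurableSet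
      (f := al y) (f' := fun t => fderiv ℝ (al y) t)
      (fun t ht => (hPt t ht.1).1.1.1.1.1.hasFDerivWithinAt) hinj
      (fun q => g (L y q) * Real.exp (E y q))
    rw [him] at hcv
    rw [hcv]
    have e1 : ∫ t in s, |(fderiv ℝ (al y) t).det| • (g (L y (al y t)) * Real.exp (E y (al y t)))
        = ∫ t in s, (g (w y t) * Real.exp (c (w y t))) * Real.exp (σ y t) := by
      refine setIntegral_congr_fun hso.measurableSet fun t ht => ?_
      have d1 := (hPt t ht.1).1.2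
      have d2 := (hPt t ht.1).2
      simp only at d1 d2 ⊢
      rw [smul_eq_mul, d1]
      calc |(fderiv ℝ (al y) t).det| * (g (w y t) * Real.exp (E y (al y t)))
          = g (w y t) * (|(fderiv ℝ (al y) t).det| * Real.exp (E y (al y t))) := by ring
        _ = _ := by rw [d2]; ring
    rw [e1]
    refine (setIntegral_eq_of_subset_of_forall_sdiff_eq_zero measurableSet_ball
      inter_subset_left ?_).symm
    intro t ht
    have ht1 : t ∈ ball (0 : E2) rt := ht.1
    have h3 : al y t ∉ ball (0 : E2) r₁ := fun h => ht.2 ⟨ht1, h⟩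
    have h4 := hyU t (ball_subset_closedBall ht1)
    have h5 : w y t ∉ tsupport g := by
      intro h
      have h6 : ‖w y t‖ < r₀ := mem_ball_zero_iff.1 (hgs h)
      rw [mem_ball_zero_iff, not_lt] at h3
      have h7 : ‖al y t‖ ≤ ‖w y t‖ + ‖w y t - al y t‖ := by
        calc ‖al y t‖ = ‖w y t - (w y t - al y t)‖ := by rw [sub_sub_cancel]
          _ ≤ _ := norm_sub_le _ _
      linarith
    rw [image_eq_zero_of_notMem_tsupport h5, zero_mul, zero_mul]
  have hU0 := hU.self_of_nhds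
  filter_upwards [hh, hU, Metric.ball_mem_nhds (0 : E2) (lt_min hρ₀ hrq)] with y hy1 hy2 hy3 g hg
    hgs
  -- the test function
  have hf : Continuous fun x => g x * Real.exp (c x) := by
    have h3 : ContinuousOn (fun z : Unit × E2 => Real.exp (c z.2)) (univ ×ˢ ball 0 ρ₁) := by
      intro z hz
      have h4 : ContinuousAt c z.2 := (hB z.2 hz.2).2.2
      exact (Real.continuous_exp.continuousAt.comp (h4.comp continuousAt_snd)).continuousWithinAt
    have h4 := cont_mul_of_supp hg (hgs.trans (ball_subset_ball hr₀ρ)) h3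
    exact h4.comp (f := fun x : E2 => ((), x)) (by fun_prop)
  have hfs : tsupport (fun x => g x * Real.exp (c x)) ⊆ ball 0 r₂ :=
    (closure_mono (Function.support_mul_subset_left _ _)).trans
      (hgs.trans (ball_subset_ball hr₀2))
  have h5 := hy1 _ hf hfs
  rw [key y hy3 hy2 g hg hgs, h5,
    ← key 0 (mem_ball_self (lt_min hρ₀ hrq)) hU0 g hg hgs]
  -- the base leaf
  have e2 : ∫ x, g x = ∫ x in ball (0 : E2) r₁, g x := by
    rw [setIntegral_eq_integral_of_forall_compl_eq_zero]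
    intro q hq
    refine image_eq_zero_of_notMem_tsupport fun h => hq ?_
    exact ball_subset_ball (by linarith) (hgs h)
  rw [e2]
  refine setIntegral_congr_fun measurableSet_ball fun q hq => ?_
  have hq1 : q ∈ ball (0 : E2) ρ₁ := ball_subset_ball h1ρ.le hq
  obtain ⟨b1, b2⟩ := hQ 0 (mem_ball_self hrq) q (ball_subset_ball h1q.le hq)
  simp only at b1 b2
  have hLq : L 0 q = q := by
    have c1 := (hP 0 (mem_ball_self hρ₀) (τ 0 q) (ball_subset_ball hrtρ.le b2)).1.2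
    simp only at c1
    rw [b1] at c1
    rw [c1, (hB (τ 0 q) (ball_subset_ball hrtρ1.le b2)).1, b1]
  rw [hLq, (hB q hq1).2.1, Real.exp_zero, mul_one]

end Vale.Agent.P207.N3.H12
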