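import Vale.Agent.P207.N3.Spec

/-!
# P207, line N3, package P3G (PF2): the kernel lemma

Local change of variables at one point: if `ψ` is differentiable at `c`, `ψ c = c`, and expands
distances from `c`, then `∫ a(q) ε⁻² K(ε⁻¹ (ψ q - c)) dq → a(c) / det Dψ(c)`.
-/

open Set Filter Topology Metric MeasureTheory
open scoped ContDiff

noncomputable section

namespace Vale.Agent.P207.N3.H12

/-- the bump -/
def bump : ContDiffBump (0 : E2) := ⟨1 / 2, 1, by norm_num, by norm_num⟩

/-- the kernel: continuous, nonnegative, of integral one, supported in the unit ball -/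
def Ker : E2 → ℝ := bump.normed volume

theorem ker_cont : Continuous Ker := bump.continuous_normed

theorem ker_nonneg (w : E2) : 0 ≤ Ker w := bump.nonneg_normed w

theorem ker_int : ∫ w, Ker w = 1 := bump.integral_normed

theorem ker_zero {w : E2} (hw : 1 ≤ ‖w‖) : Ker w = 0 := by
  by_contra h
  have h1 : w ∈ Function.support Ker := h
  rw [Ker, bump.support_normed_eq] at h1
  have : bump.rOut = 1 := rfl
  rw [this, mem_ball_zero_iff] at h1
  linarith

theorem ker_supp : HasCompactSupport Ker := bump.hasCompactSupport_normed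

theorem ker_bdd : ∃ C, 0 < C ∧ ∀ w, Ker w ≤ C := by
  obtain ⟨C, hC⟩ := ker_cont.bounded_above_of_compact_support ker_supp
  refine ⟨max C 1, by positivity, fun w => ?_⟩
  have := hC w
  rw [Real.norm_eq_abs] at this
  exact (le_abs_self _).trans (this.trans (le_max_left _ _))

theorem finrank_E2 : Module.finrank ℝ E2 = 2 := by simp

/-- linear change of variables -/
theorem ker_lin (A : E2 →L[ℝ] E2) (hA : 0 < A.det) : ∫ w, Ker (A w) = (A.det)⁻¹ := by
  have h1 : (A : E2 →ₗ[ℝ] E2).det ≠ 0 := ne_of_gt hA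
  have h2 := MeasureTheory.Measure.map_linearMap_addHaar_eq_smul_addHaar (volume : Measure E2) h1
  have h3 : ∫ w, Ker (A w) = ∫ w, Ker w ∂(Measure.map (A : E2 →ₗ[ℝ] E2) volume) := by
    rw [integral_map]
    · rfl
    · exact A.continuous.aemeasurable
    · exact ker_cont.aestronglyMeasurable
  rw [h3, h2, integral_smul_measure, ker_int, smul_eq_mul, mul_one,
    ENNReal.toReal_ofReal (abs_nonneg _)]
  have h4 : (A : E2 →ₗ[ℝ] E2).det = A.det := rfl
  rw [h4, abs_of_pos (inv_pos.2 hA)]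

/-- substitution `q = c + ε w` -/
theorem subst_integral (F : E2 → ℝ) (c : E2) {ε : ℝ} (hε : 0 < ε) :
    ∫ q, F q = ε ^ 2 * ∫ w, F (c + ε • w) := by
  have h1 : ∫ q, F q = ∫ q, F (c + q) := (integral_add_left_eq_self F c).symm
  have h2 := MeasureTheory.Measure.integral_comp_smul (volume : Measure E2) (fun q => F (c + q)) ε
  rw [finrank_E2] at h2
  rw [h1, h2, abs_of_pos (by positivity), smul_eq_mul, ← mul_assoc, mul_inv_cancel₀ (by positivity),
    one_mul]

/-- the kernel integral in rescaled form -/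
theorem kern_resc {r₁ : ℝ} (a : E2 → ℝ) (ψ : E2 → E2) (c : E2) {ε : ℝ} (hε : 0 < ε) :
    ∫ q in ball (0 : E2) r₁, a q * ((ε ^ 2)⁻¹ * Ker (ε⁻¹ • (ψ q - c)))
      = ∫ w, (ball (0 : E2) r₁).indicator
          (fun q => a q * Ker (ε⁻¹ • (ψ q - c))) (c + ε • w) := by
  rw [← integral_indicator measurableSet_ball, subst_integral _ c hε, ← integral_const_mul]
  refine integral_congr_ae (Eventually.of_forall fun w => ?_)
  simp only [indicator]
  split_ifs
  · field_simp
  · simp

/-- pointwise bound and vanishing -/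
theorem kern_le {r₁ Ca C : ℝ} {a : E2 → ℝ} {ψ : E2 → E2} {c : E2}
    (hCa : ∀ q ∈ ball (0 : E2) r₁, |a q| ≤ Ca) (hCa0 : 0 ≤ Ca) (hC : ∀ w, Ker w ≤ C) (hC0 : 0 < C)
    (hψ : ∀ q ∈ ball (0 : E2) r₁, 3 / 4 * ‖q - c‖ ≤ ‖ψ q - c‖) {ε : ℝ} (hε : 0 < ε) (w : E2) :
    ‖(ball (0 : E2) r₁).indicator (fun q => a q * Ker (ε⁻¹ • (ψ q - c))) (c + ε • w)‖
      ≤ (ball (0 : E2) 2).indicator (fun _ => Ca * C) w := by
  by_cases hw : w ∈ ball (0 : E2) 2
  · rw [indicator_of_mem hw]
    by_cases hq : c + ε • w ∈ ball (0 : E2) r₁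
    · rw [indicator_of_mem hq, norm_mul, Real.norm_eq_abs, Real.norm_eq_abs,
        abs_of_nonneg (ker_nonneg _)]
      exact mul_le_mul (hCa _ hq) (hC _) (ker_nonneg _) hCa0
    · rw [indicator_of_notMem hq, norm_zero]
      positivity
  · rw [indicator_of_notMem hw]
    by_cases hq : c + ε • w ∈ ball (0 : E2) r₁
    · rw [indicator_of_mem hq, ker_zero, mul_zero, norm_zero]
      rw [norm_smul, norm_inv, Real.norm_eq_abs, abs_of_pos hε]
      have h1 := hψ _ hq
      rw [add_sub_cancel_left, norm_smul, Real.norm_eq_abs, abs_of_pos hε] at h1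
      have h2 : 2 ≤ ‖w‖ := by
        rw [mem_ball_zero_iff] at hw
        exact not_lt.1 hw
      rw [le_inv_mul_iff₀ hε]
      nlinarith
    · rw [indicator_of_notMem hq, norm_zero]

/-- the uniform bound of the kernel integral -/
theorem kern_bound {r₁ Ca C : ℝ} {a : E2 → ℝ} {ψ : E2 → E2} {c : E2}
    (hCa : ∀ q ∈ ball (0 : E2) r₁, |a q| ≤ Ca) (hCa0 : 0 ≤ Ca) (hC : ∀ w, Ker w ≤ C) (hC0 : 0 < C)
    (hψ : ∀ q ∈ ball (0 : E2) r₁, 3 / 4 * ‖q - c‖ ≤ ‖ψ q - c‖) {ε : ℝ} (hε : 0 < ε) :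
    |∫ q in ball (0 : E2) r₁, a q * ((ε ^ 2)⁻¹ * Ker (ε⁻¹ • (ψ q - c)))|
      ≤ Ca * C * (volume (ball (0 : E2) 2)).toReal := by
  rw [kern_resc a ψ c hε, ← Real.norm_eq_abs]
  have hi : Integrable ((ball (0 : E2) 2).indicator (fun _ : E2 => Ca * C)) := by
    rw [integrable_indicator_iff measurableSet_ball]
    exact integrableOn_const measure_ball_lt_top.ne
  refine (norm_integral_le_of_norm_le hi
    (Eventually.of_forall fun w => kern_le hCa hCa0 hC hC0 hψ hε w)).trans ?_
  rw [integral_indicator measurableSet_ball, setIntegral_const, smul_eq_mul, mul_comm]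
  rfl

/-- **the local change of variables at one point** -/
theorem kern_tendsto {r₁ Ca : ℝ} {a : E2 → ℝ} {ψ : E2 → E2} {c : E2} {A : E2 →L[ℝ] E2}
    (hc : c ∈ ball (0 : E2) r₁) (hac : ContinuousOn a (ball 0 r₁))
    (hCa : ∀ q ∈ ball (0 : E2) r₁, |a q| ≤ Ca) (hψc : ContinuousOn ψ (ball 0 r₁))
    (hψ : ∀ q ∈ ball (0 : E2) r₁, 3 / 4 * ‖q - c‖ ≤ ‖ψ q - c‖) (hψ0 : ψ c = c)
    (hψd : HasFDerivAt ψ A c) (hA : 0 < A.det) {ε : ℕ → ℝ} (hε : ∀ n, 0 < ε n)
    (hε0 : Tendsto ε atTop (𝓝 0)) :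
    Tendsto (fun n => ∫ q in ball (0 : E2) r₁, a q * (((ε n) ^ 2)⁻¹ * Ker ((ε n)⁻¹ • (ψ q - c))))
      atTop (𝓝 (a c * (A.det)⁻¹)) := by
  obtain ⟨C, hC0, hC⟩ := ker_bdd
  have hCa0 : 0 ≤ Ca := (abs_nonneg _).trans (hCa c hc)
  have e1 : a c * (A.det)⁻¹ = ∫ w, a c * Ker (A w) := by
    rw [integral_const_mul, ker_lin A hA]
  rw [e1]
  simp_rw [fun n => kern_resc (r₁ := r₁) a ψ c (hε n)]
  refine tendsto_integral_of_dominated_convergence
    ((ball (0 : E2) 2).indicator (fun _ : E2 => Ca * C)) ?_ ?_ ?_ ?_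
  · intro n
    have h1 : Measurable fun q : E2 => (ball (0 : E2) r₁).indicator
        (fun q => a q * Ker ((ε n)⁻¹ • (ψ q - c))) q := by
      have h20 : ContinuousOn (fun q => (ε n)⁻¹ • (ψ q - c)) (ball 0 r₁) := by fun_prop
      have h2 : ContinuousOn (fun q => a q * Ker ((ε n)⁻¹ • (ψ q - c))) (ball 0 r₁) :=
        hac.mul (ker_cont.comp_continuousOn h20)
      classical
      have h3 := h2.measurable_piecewise (continuousOn_const (c := (0 : ℝ))) measurableSet_ball
      have e : (ball (0 : E2) r₁).piecewise (fun q => a q * Ker ((ε n)⁻¹ • (ψ q - c)))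
          (fun _ => (0 : ℝ)) = (ball (0 : E2) r₁).indicator
          (fun q => a q * Ker ((ε n)⁻¹ • (ψ q - c))) := Set.piecewise_eq_indicator
      rw [e] at h3
      exact h3
    have h3 : Measurable fun w : E2 => c + ε n • w := by fun_prop
    exact (h1.comp h3).aestronglyMeasurable
  · rw [integrable_indicator_iff measurableSet_ball]
    exact integrableOn_const measure_ball_lt_top.ne
  · intro n
    exact Eventually.of_forall fun w => kern_le hCa hCa0 hC hC0 hψ (hε n) w
  · refine Eventually.of_forall fun w => ?_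
    have h1 : Tendsto (fun n => c + ε n • w) atTop (𝓝 c) := by
      have : Tendsto (fun n => c + ε n • w) atTop (𝓝 (c + (0 : ℝ) • w)) :=
        (hε0.smul_const w).const_add c
      simpa using this
    have h2 : ∀ᶠ n in atTop, c + ε n • w ∈ ball (0 : E2) r₁ :=
      h1.eventually (isOpen_ball.mem_nhds hc)
    have h3 : Tendsto (fun n => a (c + ε n • w)) atTop (𝓝 (a c)) :=
      ((hac.continuousAt (isOpen_ball.mem_nhds hc)).tendsto).comp h1
    have h4 : Tendsto (fun n => (ε n)⁻¹ • (ψ (c + ε n • w) - c)) atTop (𝓝 (A w)) := by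
      have hat : Tendsto (fun n => ‖(ε n)⁻¹‖) atTop atTop := by
        have h5 : Tendsto ε atTop (𝓝[>] 0) :=
          tendsto_nhdsWithin_iff.2 ⟨hε0, Eventually.of_forall fun n => hε n⟩
        refine (tendsto_inv_nhdsGT_zero.comp h5).congr fun n => ?_
        rw [Function.comp_apply, Real.norm_eq_abs, abs_of_pos (inv_pos.2 (hε n))]
      have h6 := hψd.lim w hat
      simp only [inv_inv, hψ0] at h6
      exact h6
    have h5 : Tendsto (fun n => a (c + ε n • w) * Ker ((ε n)⁻¹ • (ψ (c + ε n • w) - c))) atTop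
        (𝓝 (a c * Ker (A w))) := h3.mul ((ker_cont.tendsto _).comp h4)
    refine h5.congr' ?_
    filter_upwards [h2] with n hn
    rw [indicator_of_mem hn]

end Vale.Agent.P207.N3.H12
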