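import Vale.Agent.P207.N3.H12.POrb
import Vale.Agent.P207.N3.H12.PFX
import Vale.Agent.P207.N3.H319.Mirror

/-!
# P207, line N3 (DIVIN): the two sides of a closed orbit in normal form
-/

open Set Filter Topology Metric MeasureTheory InnerProductSpace
open scoped ContDiff RealInnerProductSpace Gradient

noncomputable section

namespace Vale.Agent.P207.N3.H12

open H790 (NF)

/-- a normal form which is not split is linear -/
theorem fn_eq_lin {N : NF} (h : N.OK) (h1 : ¬ N.Split) (v : E2) : N.fn v = N.lin v := by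
  rcases H319.DualIn.shape h h1 with ⟨c, s, rfl⟩ | ⟨μ, k, rfl⟩ | ⟨μ, a, -, rfl⟩ | ⟨μ, k, rfl⟩
  · rw [H790.NF.lin_cx]; rfl
  · rw [H790.NF.lin_tri]
    apply H790.NF.ext2
    · rw [H790.NF.fn_tri_zero]; simp
    · rw [H790.NF.fn_tri_one]; simp
  · rw [H790.NF.lin_tri]
    apply H790.NF.ext2
    · rw [H790.NF.fn_tri_zero]; simp
    · rw [H790.NF.fn_tri_one]; simp
  · rw [H790.NF.lin_tri]
    apply H790.NF.ext2
    · rw [H790.NF.fn_tri_zero]; simp
    · rw [H790.NF.fn_tri_one]; simp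

variable {Γ X B : Type} [Group Γ] [MetricSpace X] [ProperSpace X] [MulAction Γ X]
  [IsIsometricSMul Γ X] [TopologicalSpace B] [CompactSpace B] [T2Space B] [MulAction Γ B]
  [ContinuousConstSMul Γ B] {L : Leaf Γ X B} {T : Tens L} {o : Orb L} {n : Nor L o}
  {n' : Nor L o.flip}

/-- **`r > 1`** -/
theorem POrb.split (P : POrb T n n') {μ₁ μ₂ a : ℝ} {k : ℕ} (hN : n.N = .tri μ₁ μ₂ a k)
    (hs : |μ₂| < |μ₁|) : ∃ (n'' : Nor L o.flip) (a' : ℝ) (k' : ℕ), n''.N = .tri μ₁ μ₂ a' k' ∧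
      (∀ u, n''.g u = P.M (n'.g u)) ∧ SplitPF P.D μ₁ μ₂ a k a' k' := by
  have hd := P.dual
  rw [hN] at hd
  obtain ⟨n'', a', k', h1, h2, -, h4, -⟩ := H319.DualIn.exists_conj n' hd hs
  have h5 : ∀ y, P.M (n'.N.inv (P.M.symm y)) = (NF.tri μ₁ μ₂ a' k').inv y := by
    intro y
    rw [← h4, h1]
  have hok : (NF.tri μ₁ μ₂ a' k').OK := by rw [← h1]; exact n''.ok
  refine ⟨n'', a', k', h1, fun u => h2 _, ?_, hok, hs, ?_, ?_, ?_, ?_⟩
  · rw [← hN]; exact n.ok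
  · intro x; rw [P.MX, hN]
  · intro x; rw [P.NY, hN]
  · intro y; rw [P.MY, h5]
  · intro y
    rw [P.NX]
    have h6 := h5 ((NF.tri μ₁ μ₂ a' k').fn y)
    rw [H790.NF.inv_fn hok] at h6
    have h7 : n'.N.inv (P.M.symm ((NF.tri μ₁ μ₂ a' k').fn y)) = P.M.symm y := by
      rw [ContinuousLinearEquiv.eq_symm_apply]; exact h6
    rw [← h7, H790.NF.fn_inv n'.ok, ContinuousLinearEquiv.apply_symm_apply]

/-- **`r = 1`, real eigenvalues** -/
theorem POrb.eqPF (P : POrb T n n') {μ₁ μ₂ a : ℝ} {k : ℕ} (hN : n.N = .tri μ₁ μ₂ a k)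
    (hs : ¬ n.N.Split) : EqPF P.D μ₁ μ₂ a k := by
  have hd := P.dual
  have hok : (NF.tri μ₁ μ₂ a k).OK := by rw [← hN]; exact n.ok
  have hs' : ¬ |μ₂| < |μ₁| := by rw [hN] at hs; exact hs
  have heq : |μ₂| = |μ₁| := le_antisymm hok.2.1 (not_lt.1 hs')
  have hj : a ≠ 0 → k = 1 ∧ μ₁ = μ₂ := by
    intro ha
    obtain ⟨h1, h2⟩ := hok.2.2 ha
    have hk : k = 1 := by
      by_contra hk
      have hk2 : 1 < k := by omega
      have h4 : |μ₂| = |μ₂| ^ k := by rw [← abs_pow, ← h2, heq]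
      have h5 : |μ₂| ^ 1 < |μ₂| ^ k := pow_lt_pow_right₀ hok.1 hk2
      rw [pow_one] at h5
      linarith
    refine ⟨hk, ?_⟩
    rw [hk, pow_one] at h2
    exact h2
  have hak : ∀ t : ℝ, a * t ^ k = a * t := by
    intro t
    by_cases ha : a = 0
    · rw [ha, zero_mul, zero_mul]
    · rw [(hj ha).1, pow_one]
  have hif : (if k = 1 then a else 0) = a := by
    by_cases ha : a = 0
    · rw [ha, ite_self]
    · rw [if_pos (hj ha).1]
  obtain ⟨hμ₁, hμ₂⟩ := H790.NF.ne_of_OK hok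
  have hs1 : ¬ n'.N.Split := fun h => hs (hd.split_iff.1 h)
  -- the dual side
  have hXN : ∀ y, P.M (n'.N.fn (P.M.symm y)) = !₂[μ₁ * y 0, a * y 0 + μ₂ * y 1] := by
    intro y
    have h1 : P.M (n'.N.fn (P.M.symm y))
        = ((P.M : E2 →L[ℝ] E2) ∘L n'.N.lin ∘L (P.M.symm : E2 →L[ℝ] E2)) y := by
      rw [fn_eq_lin n'.ok hs1]
      rfl
    obtain ⟨t00, t01, t10, t11⟩ := H319.DualIn.en_tri μ₁ μ₂ a k
    rw [hif] at t01
    rw [h1]
    apply H790.NF.ext2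
    · rw [H319.en_apply, hd.en_eq, hd.en_eq, hN, t00, t10]
      simp
    · rw [H319.en_apply, hd.en_eq, hd.en_eq, hN, t01, t11]
      simp
  refine ⟨hok, heq, hj, ?_, ?_, ?_, ?_⟩
  · intro x
    rw [P.MX, hN]
    apply H790.NF.ext2
    · rw [H790.NF.inv_tri_zero, hak]; rfl
    · rw [H790.NF.inv_tri_one]; rfl
  · intro x
    rw [P.NY, hN]
    apply H790.NF.ext2
    · rw [H790.NF.fn_tri_zero, hak]; rfl
    · rw [H790.NF.fn_tri_one]; rfl
  · intro y
    rw [P.MY]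
    set z : E2 := !₂[μ₁⁻¹ * y 0, μ₂⁻¹ * (y 1 - a * (μ₁⁻¹ * y 0))] with hz
    have h1 : P.M (n'.N.fn (P.M.symm z)) = y := by
      rw [hXN]
      apply H790.NF.ext2
      · simp only [hz, Matrix.cons_val_zero]
        field_simp
      · simp only [hz, Matrix.cons_val_zero, Matrix.cons_val_one]
        field_simp
        ring
    have h2 : n'.N.fn (P.M.symm z) = P.M.symm y := by
      rw [ContinuousLinearEquiv.eq_symm_apply]; exact h1
    rw [← h2, H790.NF.inv_fn n'.ok, ContinuousLinearEquiv.apply_symm_apply]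
  · intro y
    rw [P.NX]
    exact hXN y

end Vale.Agent.P207.N3.H12
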