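import Vale.Agent.P207.N3.H12.P10Out

/-!
# P207, line N3 (DIVIN): the fields `hdiv` and `r1` of `Rem`, from the algebra at a closed orbit
-/

open Set Filter Topology Metric MeasureTheory
open scoped ContDiff

noncomputable section

namespace Vale.Agent.P207.N3.H12

open H790 (NF)

variable {Γ X B : Type} [Group Γ] [MetricSpace X] [ProperSpace X] [MulAction Γ X]
  [IsIsometricSMul Γ X] [TopologicalSpace B] [CompactSpace B] [T2Space B] [MulAction Γ B]
  [ContinuousConstSMul Γ B] {L : Leaf Γ X B} [MeasurableSpace B] [BorelSpace B] {V : Type}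
  [NormedAddCommGroup V] [NormedSpace ℝ V] [FiniteDimensional ℝ V]

/-- **field `hdiv` of `Rem`** -/
theorem P10Out.hdiv (O : P10Out) (S : Suite L V) : ∀ (o : Orb L) (n : Nor L o),
    (∃ μ₁ μ₂ a k, n.N = .tri μ₁ μ₂ a k) → Nonempty (DivIn S.T n) :=
  fun o n hN => hdiv_of' O S o n hN

/-- **field `r1` of `Rem`** -/
theorem P10Out.r1 (O : P10Out) (S : Suite L V) : ∀ (o : Orb L) (n : Nor L o), n.N.Split →
    ∃ (o' : Orb L) (n' : Nor L o') (_ : n'.N.Split) (D : DivIn S.T n'),
      SmNear fun z => D.Tp z (bas 1) 1 := by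
  intro o n hn
  obtain ⟨o', m, D, -, hm, h⟩ := start_in_of' O S o n hn
  exact ⟨o', m, hm, D, h⟩

end Vale.Agent.P207.N3.H12
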