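import Vale.Agent.P207.N3.H12.NFSide
import Vale.Agent.P207.N3.H12.DivIn1
import Vale.Agent.P207.N3.H684.JetConv
import Vale.Agent.P207.N3.H790.Glob
import Vale.Agent.P207.N3.H229.PFStar
import Vale.Agent.P207.N3.Top.Suite

/-!
# P207, line N3 (DIVIN): the outputs `hdiv` and the input of START, over the geometry

`P10Out`: (R0), (R0'), (R1), (R2) for the product formula.
-/

open Set Filter Topology Metric MeasureTheory InnerProductSpace
open scoped ContDiff RealInnerProductSpace Gradient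

noncomputable section

namespace Vale.Agent.P207.N3.H12

open H790 (NF)

/-- the output of the algebra at a closed orbit (P10) -/
structure P10Out : Prop where
  R0 : ∀ {D : PF} {μ₁ μ₂ a : ℝ} {k : ℕ} {a' : ℝ} {k' : ℕ}, SplitPF D μ₁ μ₂ a k a' k' →
    SmNear (fun x => Jet.jet (D.X.X x) 0 1)
  R0' : ∀ {D : PF} {μ₁ μ₂ a : ℝ} {k : ℕ}, EqPF D μ₁ μ₂ a k →
    SmNear (fun x => Jet.jet (D.X.X x) 1 0) ∧ SmNear (fun x => Jet.jet (D.X.X x) 0 1)
  R1 : ∀ {D : PF} {μ₁ μ₂ a : ℝ} {k : ℕ} {a' : ℝ} {k' : ℕ}, SplitPF D μ₁ μ₂ a k a' k' →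
    SmNear (fun y => Jet.jet (D.Y.S y) 0 2) ∨ SmNear (fun x => Jet.jet (D.X.S x) 0 2)
  R2 : ∀ {D : PF} {μ₁ μ₂ a : ℝ} {k : ℕ} {a' : ℝ} {k' : ℕ}, SplitPF D μ₁ μ₂ a k a' k' →
    SmNear (fun x => Jet.jet (D.X.S x) 0 2) → SmNear (fun x => Jet.jet (D.X.X x) 1 0)

variable {Γ X B : Type} [Group Γ] [MetricSpace X] [ProperSpace X] [MulAction Γ X]
  [IsIsometricSMul Γ X] [TopologicalSpace B] [CompactSpace B] [T2Space B] [MulAction Γ B]
  [ContinuousConstSMul Γ B] {L : Leaf Γ X B} {T : Tens L}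

/-- `DivIn` from the product formula, `r > 1`, general form: any half in normal form -/
def divInSplit (O : P10Out) {o : Orb L} (m : Nor L o) (D : PF) {μ₁ μ₂ a : ℝ} {k : ℕ} {a' : ℝ}
    {k' : ℕ} (hD : SplitPF D μ₁ μ₂ a k a' k') (hm : m.N.Split) {c : ℝ} (hc : c ≠ 0)
    (hl : LinkAt T o.x m.g D.X.S c) : DivIn T m :=
  divInOf m D.X hc hl (fun _ => (H684.smNear_X2 _).2 (O.R0 hD)) (fun _ h => absurd hm h)
    (fun _ h => (H684.smNear_X1 _).2 (O.R2 hD ((H684.smNear_T22 _).1 h)))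

theorem divInSplit_Tp (O : P10Out) {o : Orb L} (m : Nor L o) (D : PF) {μ₁ μ₂ a : ℝ} {k : ℕ}
    {a' : ℝ} {k' : ℕ} (hD : SplitPF D μ₁ μ₂ a k a' k') (hm : m.N.Split) {c : ℝ} (hc : c ≠ 0)
    (hl : LinkAt T o.x m.g D.X.S c) (h : SmNear (fun x => Jet.jet (D.X.S x) 0 2)) :
    SmNear fun z => (divInSplit O m D hD hm hc hl).Tp z (bas 1) 1 := by
  have h1 := (H684.smNear_T22 _).2 h
  refine SmNear.congr (SmNear.smul h1 (-c)) (Eventually.of_forall fun x => ?_)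
  show (((-c) • TH D.X x) (bas 1)) 1 = (-c) • fderiv ℝ (∇ (D.X.S x)) 0 (bas 1) 1
  rw [smul_apply]
  rfl

/-- a split normal form is triangular -/
theorem split_tri {N : NF} (h : N.Split) : ∃ μ₁ μ₂ a k, N = .tri μ₁ μ₂ a k ∧ |μ₂| < |μ₁| := by
  cases N with
  | tri μ₁ μ₂ a k => exact ⟨μ₁, μ₂, a, k, rfl, h⟩
  | cx c s => exact absurd h (lt_irrefl _)

/-- **`DivIn` at every closed orbit with real eigenvalues** -/
theorem hdiv_of_pOrb (O : P10Out) {o : Orb L} {n : Nor L o} {n' : Nor L o.flip}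
    (P : POrb T n n') (hN : ∃ μ₁ μ₂ a k, n.N = .tri μ₁ μ₂ a k) : Nonempty (DivIn T n) := by
  obtain ⟨μ₁, μ₂, a, k, hN⟩ := hN
  by_cases hs : n.N.Split
  · have hs' : |μ₂| < |μ₁| := by rw [hN] at hs; exact hs
    obtain ⟨-, a', k', -, -, hD⟩ := P.split hN hs'
    exact ⟨divInSplit O n P.D hD hs P.c_ne P.linkX⟩
  · have hE := P.eqPF hN hs
    refine ⟨divInOf n P.D.X P.c_ne P.linkX (fun h => absurd h hs) (fun _ _ i => ?_)
      (fun h => absurd h hs)⟩
    fin_cases i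
    · exact (H684.smNear_X1 _).2 (O.R0' hE).1
    · exact (H684.smNear_X2 _).2 (O.R0' hE).2

/-- **the input of START**: a normal coordinate of `o` or of `o.flip` with `T'_22` smooth -/
theorem start_in_of_pOrb (O : P10Out) {o : Orb L} {n : Nor L o} {n' : Nor L o.flip}
    (P : POrb T n n') (hs : n.N.Split) : ∃ (o' : Orb L) (m : Nor L o') (D : DivIn T m),
      (o' = o ∨ o' = o.flip) ∧ m.N.Split ∧ SmNear fun z => D.Tp z (bas 1) 1 := by
  obtain ⟨μ₁, μ₂, a, k, hN, hs'⟩ := split_tri hs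
  obtain ⟨n'', a', k', hN'', hg, hD⟩ := P.split hN hs'
  rcases O.R1 hD with h | h
  · have hs'' : n''.N.Split := by rw [hN'']; exact hs'
    have hl : LinkAt T o.flip.x n''.g P.D.symm.X.S P.c := by
      have h1 : n''.g = fun u => P.M (n'.g u) := funext hg
      rw [h1]
      exact P.linkY
    exact ⟨o.flip, n'', divInSplit O n'' P.D.symm hD.symm hs'' P.c_ne hl, Or.inr rfl, hs'',
      divInSplit_Tp O n'' P.D.symm hD.symm hs'' P.c_ne hl h⟩
  · exact ⟨o, n, divInSplit O n P.D hD hs P.c_ne P.linkX, Or.inl rfl, hs,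
      divInSplit_Tp O n P.D hD hs P.c_ne P.linkX h⟩

/-! ### Over the suite -/

section

variable [MeasurableSpace B] [BorelSpace B] {V : Type} [NormedAddCommGroup V] [NormedSpace ℝ V]
  [FiniteDimensional ℝ V]

/-- **the product formula at every closed orbit** -/
theorem exists_pOrb_of (S : Suite L V) (o : Orb L) (n : Nor L o) (n' : Nor L o.flip) :
    ∃ R : POrb S.T n n', R.D.h = S.A.h := by
  obtain ⟨M, P, hu, hs, hxh, hyh, -⟩ := H229.exists_pfIn S.I S.A o n n' S.H S.norm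
  obtain ⟨R, -, hR, -⟩ := exists_pOrb S.H o n n' M S.A.h_pos P hu hs hxh hyh
  exact ⟨R, hR⟩

/-- **field `hdiv` of `Rem`** -/
theorem hdiv_of' (O : P10Out) (S : Suite L V) (o : Orb L) (n : Nor L o)
    (hN : ∃ μ₁ μ₂ a k, n.N = .tri μ₁ μ₂ a k) : Nonempty (DivIn S.T n) := by
  obtain ⟨n'⟩ := H790.exists_nor L o.flip
  obtain ⟨R, -⟩ := exists_pOrb_of S o n n'
  exact hdiv_of_pOrb O R hN

/-- **the input of START over the suite** -/
theorem start_in_of' (O : P10Out) (S : Suite L V) (o : Orb L) (n : Nor L o) (hs : n.N.Split) :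
    ∃ (o' : Orb L) (m : Nor L o') (D : DivIn S.T m),
      (o' = o ∨ o' = o.flip) ∧ m.N.Split ∧ SmNear fun z => D.Tp z (bas 1) 1 := by
  obtain ⟨n'⟩ := H790.exists_nor L o.flip
  obtain ⟨R, -⟩ := exists_pOrb_of S o n n'
  exact start_in_of_pOrb O R hs

end

end Vale.Agent.P207.N3.H12
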