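import Vale.Agent.P207.N3.H12.DivIn1
import Vale.Agent.P207.N3.H250.PfOfIn
import Vale.Agent.P207.N3.H473.LinkInst
import Vale.Agent.P207.N3.H306.LinkI
import Vale.Agent.P207.N3.H319.Dual

/-!
# P207, line N3 (DIVIN): the product formula at a closed orbit, with normal coordinates on both
sides and the link on both sides

`POrb T n n'`: 391's `PF` with the labels `x = n.x` and `y = M ∘ n'.x`, the links at `y = 0` and
at `x = 0`. `POrb.of_pfIn`: it comes from the input `PFIn` over the geometry.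
-/

open Set Filter Topology Metric MeasureTheory InnerProductSpace
open scoped ContDiff RealInnerProductSpace Gradient

noncomputable section

namespace Vale.Agent.P207.N3.H12

open H790 (NF)

variable {Γ X B : Type} [Group Γ] [MetricSpace X] [ProperSpace X] [MulAction Γ X]
  [IsIsometricSMul Γ X] [TopologicalSpace B] [CompactSpace B] [T2Space B] [MulAction Γ B]
  [ContinuousConstSMul Γ B]

/-- the product formula at a closed orbit -/
structure POrb {L : Leaf Γ X B} (T : Tens L) {o : Orb L} (n : Nor L o) (n' : Nor L o.flip) where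
  D : PF
  M : E2 ≃L[ℝ] E2
  c : ℝ
  c_ne : c ≠ 0
  MX : ∀ x, D.X.M x = n.N.inv x
  MY : ∀ y, D.Y.M y = M (n'.N.inv (M.symm y))
  NX : ∀ y, D.X.N y = M (n'.N.fn (M.symm y))
  NY : ∀ x, D.Y.N x = n.N.fn x
  linkX : LinkAt T o.x n.g D.X.S c
  linkY : LinkAt T (L.flip o.x) (fun u => M (n'.g u)) D.Y.S c

/-! ### Duality -/

/-- the derivatives of the two axis maps of a half are dual -/
theorem half_dual (H : Half) (v w : E2) :
    ⟪fderiv ℝ H.N 0 v, fderiv ℝ H.M 0 w⟫ = ⟪v, w⟫ := by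
  have hb : (0 : E2) ∈ ball (0 : E2) H.r := mem_ball_self H.r_pos
  have h0 : ((0 : E2), (0 : E2)) ∈ ball (0 : E2) H.r ×ˢ ball (0 : E2) H.r := ⟨hb, hb⟩
  have ho : IsOpen (ball (0 : E2) H.r ×ˢ ball (0 : E2) H.r) := isOpen_ball.prod isOpen_ball
  have da : HasFDerivAt H.a (fderiv ℝ H.a ((0 : E2), (0 : E2))) ((0 : E2), (0 : E2)) :=
    ((H.a_smooth.contDiffAt (ho.mem_nhds h0)).differentiableAt (by simp)).hasFDerivAt
  have db : HasFDerivAt H.b (fderiv ℝ H.b ((0 : E2), (0 : E2))) ((0 : E2), (0 : E2)) :=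
    ((H.b_smooth.contDiffAt (ho.mem_nhds h0)).differentiableAt (by simp)).hasFDerivAt
  have hi1 : HasFDerivAt (fun q : E2 => (q, (0 : E2))) (ContinuousLinearMap.inl ℝ E2 E2) 0 :=
    hasFDerivAt_prodMk_left 0 0
  have hi2 : HasFDerivAt (fun p : E2 => ((0 : E2), p)) (ContinuousLinearMap.inr ℝ E2 E2) 0 :=
    hasFDerivAt_prodMk_right 0 0
  have e1 : fderiv ℝ H.N 0 = (fderiv ℝ H.a (0, 0)).comp (ContinuousLinearMap.inl ℝ E2 E2) := by
    have h1 : HasFDerivAt (fun q : E2 => H.a (q, 0)) _ 0 := HasFDerivAt.comp 0 da hi1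
    have h2 : H.N =ᶠ[𝓝 0] fun q : E2 => H.a (q, 0) := by
      filter_upwards [isOpen_ball.mem_nhds hb] with q hq
      exact (H.a_axis q hq).symm
    exact (h1.congr_of_eventuallyEq h2).fderiv
  have e2 : fderiv ℝ H.M 0 = (fderiv ℝ H.b (0, 0)).comp (ContinuousLinearMap.inr ℝ E2 E2) := by
    have h1 : HasFDerivAt (fun p : E2 => H.b (0, p)) _ 0 := HasFDerivAt.comp 0 db hi2
    have h2 : H.M =ᶠ[𝓝 0] fun p : E2 => H.b (0, p) := by
      filter_upwards [isOpen_ball.mem_nhds hb] with p hp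
      exact (H.b_axis p hp).symm
    exact (h1.congr_of_eventuallyEq h2).fderiv
  have e3 : (fderiv ℝ H.a (0, 0)).comp (ContinuousLinearMap.inr ℝ E2 E2) = 0 := by
    have h1 : HasFDerivAt (fun p : E2 => H.a (0, p)) _ 0 := HasFDerivAt.comp 0 da hi2
    have h2 : (fun _ : E2 => (0 : E2)) =ᶠ[𝓝 0] fun p : E2 => H.a (0, p) := by
      filter_upwards [isOpen_ball.mem_nhds hb] with p hp
      exact (H.a_zero p hp).symm
    exact (h1.congr_of_eventuallyEq h2).unique (hasFDerivAt_const 0 0)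
  have hs := H.symp (0, 0) h0 (v, 0) (0, w)
  have f1 : fderiv ℝ H.a (0, 0) (v, 0) = fderiv ℝ H.N 0 v := by rw [e1]; rfl
  have f2 : fderiv ℝ H.b (0, 0) (0, w) = fderiv ℝ H.M 0 w := by rw [e2]; rfl
  have f3 : fderiv ℝ H.a (0, 0) (0, w) = 0 := by
    have := congrArg (fun A : E2 →L[ℝ] E2 => A w) e3
    exact this
  rw [f1, f2, f3, inner_zero_right, sub_zero, inner_zero_left, sub_zero] at hs
  exact hs

variable {L : Leaf Γ X B}

theorem POrb.dual {T : Tens L} {o : Orb L} {n : Nor L o} {n' : Nor L o.flip}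
    (P : POrb T n n') : H319.DualIn n.N n'.N P.M := by
  refine ⟨n.ok, n'.ok, fun v w => ?_⟩
  have h := half_dual P.D.Y v w
  have h1 : P.D.Y.N = n.N.fn := funext P.NY
  have h2 : P.D.Y.M = fun y => P.M (n'.N.inv (P.M.symm y)) := funext P.MY
  rw [h1, h2] at h
  exact h

/-! ### From the geometry -/

theorem conj_eq_cj (A N : E2 →L[ℝ] E2) : conj A N = Ten.cj A N := rfl

/-- the label of the points of the disc -/
theorem linkAt_of {M : Metr L} {x : X} {u s S S' : E2 → E2 → ℝ} {xh : E2 × E2 → E2}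
    {Φ : E2 × E2 → E2 × E2} (D : H473.LinkPF (ng u) (ng s) (H473.xhn xh) Φ S S')
    (K : H473.LinkIn L M u s xh) (hx : L.em x = K.ξ 0) (hx' : L.ep x = K.η 0) {g : E2 → E2}
    (hg : ∀ᶠ v in 𝓝 (0 : E2), ∀ q, L.e x v = K.η q → g v = q) :
    LinkAt (Ten.tens M) x g S' (-(K.r0 ^ 2)) := by
  obtain ⟨Q, W, hQ, hQ0, hW, -, hl⟩ := (H473.link0 D K).self_of_nhds x 0 hx
    (mem_ball_self (by norm_num)) (by rw [L.e_zero, hx'])
  refine ⟨W, hW, ?_⟩
  have he : g =ᶠ[𝓝 0] Q := by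
    filter_upwards [hg, hl] with v h1 h2
    exact h1 _ h2.1
  filter_upwards [he.eventuallyEq_nhds, hl] with v h1 h2
  have h3 : g v = Q v := h1.self_of_nhds
  have h4 : fderiv ℝ g v = fderiv ℝ Q v := h1.fderiv_eq
  rw [h3, h4, conj_eq_cj]
  have h5 : fderiv ℝ (∇ (S' (Q v))) 0 = hess (S' (Q v)) 0 := rfl
  rw [h5, h2.2, inv_neg]
  module

section

variable {V : Type} [NormedAddCommGroup V] [NormedSpace ℝ V] [FiniteDimensional ℝ V]
  {I : H722.GeoIn L V} {Mt : Metr L} (H : H722.HessIn I Mt) (o : Orb L) (n : Nor L o)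
  (n' : Nor L o.flip) (M : E2 ≃L[ℝ] E2)

include H in
/-- **the product formula of the geometry** -/
theorem exists_pOrb {h : ℝ} (hh : 0 < h) (P : PFIn n.N.fn (H722.GeoIn.N' o n' M) h)
    (hu : P.u = I.uu o n' M) (hs : P.s = I.ss o n) (hxh : P.xh = I.xh o n)
    (hyh : P.yh = I.yh o n' M) :
    ∃ R : POrb (Ten.tens Mt) n n', R.M = M ∧ R.D.h = h ∧ R.c = -(I.r₀ ^ 2) := by
  have hN' : Continuous (fun y => M (n'.N.fn (M.symm y))) :=
    M.continuous.comp (n'.N.contDiff_fn.continuous.comp M.symm.continuous)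
  obtain ⟨R⟩ := pf_of_in P hh (Ni := n.N.inv) (N'i := fun y => M (n'.N.fn (M.symm y)))
    (H790.NF.inv_zero n.ok) n.N.contDiff_inv.continuous.continuousAt
    (Eventually.of_forall fun x => H790.NF.fn_inv n.ok x)
    (by rw [map_zero, H790.NF.fn_zero n'.ok, map_zero]) hN'.continuousAt
    (Eventually.of_forall fun y => by
      show M (n'.N.inv (M.symm (M (n'.N.fn (M.symm y))))) = y
      rw [ContinuousLinearEquiv.symm_apply_apply, H790.NF.inv_fn n'.ok,
        ContinuousLinearEquiv.apply_symm_apply])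
  have lU := H473.linkPF P R.D R.D' R.T R.T'
  have lS := H473.linkPF' P R.D R.D' R.T R.T'
  rw [← R.YS, ← R.XS] at lU lS
  rw [hu, hs, hxh] at lU
  rw [hu, hs, hyh] at lS
  refine ⟨⟨R.F, M, -(I.r₀ ^ 2), ?_, ?_, ?_, ?_, ?_, ?_, ?_⟩, rfl, R.Fh, rfl⟩
  · exact neg_ne_zero.2 (pow_ne_zero 2 I.r₀_pos.ne')
  · intro x; rw [R.XM]
  · intro y; rw [R.YM]; rfl
  · intro y; rw [R.XN]
  · intro x; rw [R.YN]
  · refine linkAt_of lU (H306.linkU I H o n n' M) ?_ ?_ ?_
    · rw [H306.linkU_ξ, H722.GeoIn.xip_zero]; rfl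
    · rw [H306.linkU_η, H722.inv_zero]; rfl
    · refine Eventually.of_forall fun v q hq => ?_
      rw [H306.linkU_η] at hq
      show n.x (L.e o.x v) = q
      rw [hq, n.inv_right]
  · refine linkAt_of lS (H306.linkS I H o n n' M) ?_ ?_ ?_
    · rw [H306.linkS_ξ, H722.inv_zero]; exact (L.ep_flip o.x).symm
    · rw [H306.linkS_η, H722.GeoIn.xip_zero, L.ep_flip, L.flip_flip]; rfl
    · refine Eventually.of_forall fun v q hq => ?_
      rw [H306.linkS_η] at hq
      show M (n'.x (L.e (L.flip o.x) v)) = q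
      rw [hq]
      show M (n'.x (n'.inv (M.symm q))) = q
      rw [n'.inv_right, ContinuousLinearEquiv.apply_symm_apply]

end

end Vale.Agent.P207.N3.H12
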