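import Vale.Agent.P207.N3.H12.Kern

/-!
# P207, line N3, package P3G (PF2): the push forward to the slices

`T x p = ∇S'_x(p)` (stable leaves `q = T x p`), `G y q = ∇S_y(q)` (unstable leaves `p = G y q`),
`M' = D_p T`, `M = D_q G`, `xh (q, p)`, `yh (q, p)`: labels of the leaves through `(q, p)`.
From the stable holonomy between unstable leaves: `x ↦ T x p` pushes `e^{X'_x(p)} dx` to `dq`.
-/

open Set Filter Topology Metric MeasureTheory
open scoped ContDiff

noncomputable section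

namespace Vale.Agent.P207.N3.H12

/-- The density of the holonomy. -/
def Jh (G : E2 → E2 → E2) (M' M : E2 → E2 → E2 →L[ℝ] E2) (X' : E2 → E2 → ℝ) (xh : E2 × E2 → E2)
    (y q : E2) : ℝ :=
  (1 - M y q ∘L M' (xh (q, G y q)) (G y q)).det * Real.exp (-X' (xh (q, G y q)) (G y q))

/-- The data near `0`. -/
structure HolDat (T G : E2 → E2 → E2) (M' M : E2 → E2 → E2 →L[ℝ] E2) (X' : E2 → E2 → ℝ)
    (xh yh : E2 × E2 → E2) (R r : ℝ) : Prop where
  r_pos : 0 < r
  r_le : r ≤ R
  T_der : ∀ x ∈ ball (0 : E2) R, ∀ p ∈ ball (0 : E2) R, HasFDerivAt (T x) (M' x p) p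
  T_cont : ContinuousOn (fun z : E2 × E2 => T z.1 z.2) (ball 0 R ×ˢ ball 0 R)
  M'_cont : ContinuousOn (fun z : E2 × E2 => M' z.1 z.2) (ball 0 R ×ˢ ball 0 R)
  M'_half : ∀ x ∈ ball (0 : E2) R, ∀ p ∈ ball (0 : E2) R, ‖M' x p‖ ≤ 1 / 2
  T_zero : ∀ x ∈ ball (0 : E2) R, T x 0 = x
  G_der : ∀ y ∈ ball (0 : E2) R, ∀ q ∈ ball (0 : E2) R, HasFDerivAt (G y) (M y q) q
  G_cont : ContinuousOn (fun z : E2 × E2 => G z.1 z.2) (ball 0 R ×ˢ ball 0 R)
  M_cont : ContinuousOn (fun z : E2 × E2 => M z.1 z.2) (ball 0 R ×ˢ ball 0 R)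
  M_half : ∀ y ∈ ball (0 : E2) R, ∀ q ∈ ball (0 : E2) R, ‖M y q‖ ≤ 1 / 2
  G_base : ∀ q ∈ ball (0 : E2) R, G 0 q = 0
  X'_cont : ContinuousOn (fun z : E2 × E2 => X' z.1 z.2) (ball 0 R ×ˢ ball 0 R)
  xh_cont : ContinuousOn xh (ball 0 r ×ˢ ball 0 r)
  yh_cont : ContinuousOn yh (ball 0 r ×ˢ ball 0 r)
  xh_mem : ∀ q ∈ ball (0 : E2) r, ∀ p ∈ ball (0 : E2) r, xh (q, p) ∈ ball (0 : E2) R
  T_xh : ∀ q ∈ ball (0 : E2) r, ∀ p ∈ ball (0 : E2) r, T (xh (q, p)) p = q
  G_yh : ∀ q ∈ ball (0 : E2) r, ∀ p ∈ ball (0 : E2) r, G (yh (q, p)) q = p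
  yh_zero : ∀ q ∈ ball (0 : E2) r, yh (q, 0) = 0
  det_pos : ∀ x ∈ ball (0 : E2) R, ∀ y ∈ ball (0 : E2) R, ∀ q ∈ ball (0 : E2) R,
    ∀ p ∈ ball (0 : E2) R, 0 < (1 - M y q ∘L M' x p).det
  hol : ∀ᶠ r₁ in 𝓝[>] (0 : ℝ), ∃ r₀ > 0, ∀ᶠ y in 𝓝 (0 : E2), ∀ g : E2 → ℝ, Continuous g →
    tsupport g ⊆ ball 0 r₀ →
    ∫ x, g x = ∫ q in ball (0 : E2) r₁, g (xh (q, G y q)) * Jh G M' M X' xh y q

variable {T G : E2 → E2 → E2} {M' M : E2 → E2 → E2 →L[ℝ] E2} {X' : E2 → E2 → ℝ}
  {xh yh : E2 × E2 → E2} {R r : ℝ}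

/-- continuity at a point of the product of the balls -/
theorem contAt_prod {α : Type*} [TopologicalSpace α] {f : E2 × E2 → α} {ρ σ : ℝ}
    (h : ContinuousOn f (ball (0 : E2) ρ ×ˢ ball (0 : E2) σ)) {a b : E2}
    (ha : a ∈ ball (0 : E2) ρ) (hb : b ∈ ball (0 : E2) σ) : ContinuousAt f (a, b) := by
  have hmem : ((a, b) : E2 × E2) ∈ ball (0 : E2) ρ ×ˢ ball (0 : E2) σ := ⟨ha, hb⟩
  have hn : ball (0 : E2) ρ ×ˢ ball (0 : E2) σ ∈ 𝓝 ((a, b) : E2 × E2) :=
    (isOpen_ball.prod isOpen_ball).mem_nhds hmem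
  exact h.continuousAt hn

namespace HolDat

theorem R_pos (H : HolDat T G M' M X' xh yh R r) : 0 < R := H.r_pos.trans_le H.r_le

/-- the stable leaves are Lipschitz -/
theorem T_lip (H : HolDat T G M' M X' xh yh R r) {x p p' : E2} (hx : x ∈ ball (0 : E2) R)
    (hp : p ∈ ball (0 : E2) R) (hp' : p' ∈ ball (0 : E2) R) :
    ‖T x p' - T x p‖ ≤ 1 / 2 * ‖p' - p‖ :=
  (convex_ball (0 : E2) R).norm_image_sub_le_of_norm_hasFDerivWithin_le
    (fun w hw => (H.T_der x hx w hw).hasFDerivWithinAt) (fun w hw => H.M'_half x hx w hw) hp hp'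

/-- the unstable leaves are Lipschitz -/
theorem G_lip (H : HolDat T G M' M X' xh yh R r) {y q q' : E2} (hy : y ∈ ball (0 : E2) R)
    (hq : q ∈ ball (0 : E2) R) (hq' : q' ∈ ball (0 : E2) R) :
    ‖G y q' - G y q‖ ≤ 1 / 2 * ‖q' - q‖ :=
  (convex_ball (0 : E2) R).norm_image_sub_le_of_norm_hasFDerivWithin_le
    (fun w hw => (H.G_der y hy w hw).hasFDerivWithinAt) (fun w hw => H.M_half y hy w hw) hq hq'

/-- the holonomy from the leaf `y` to the slice `p` -/
def psi (T G : E2 → E2 → E2) (xh : E2 × E2 → E2) (y p q : E2) : E2 := T (xh (q, G y q)) p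

/-- it is close to the identity -/
theorem psi_far (H : HolDat T G M' M X' xh yh R r) {y p c q : E2} (hy : y ∈ ball (0 : E2) R)
    (hp : p ∈ ball (0 : E2) R) (hc : c ∈ ball (0 : E2) R) (hyc : G y c = p)
    (hq : q ∈ ball (0 : E2) r) (hGq : G y q ∈ ball (0 : E2) r) :
    3 / 4 * ‖q - c‖ ≤ ‖psi T G xh y p q - c‖ := by
  have hqR : q ∈ ball (0 : E2) R := ball_subset_ball H.r_le hq
  have hGR : G y q ∈ ball (0 : E2) R := ball_subset_ball H.r_le hGq
  have h1 := H.T_lip (H.xh_mem q hq _ hGq) hGR hp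
  rw [H.T_xh q hq _ hGq] at h1
  have h2 := H.G_lip hy hc hqR
  rw [hyc] at h2
  have h3 : ‖p - G y q‖ = ‖G y q - p‖ := norm_sub_rev _ _
  have h4 : ‖q - c‖ ≤ ‖psi T G xh y p q - c‖ + ‖T (xh (q, G y q)) p - q‖ := by
    have e : q - c = (psi T G xh y p q - c) - (T (xh (q, G y q)) p - q) := by
      rw [psi]
      abel
    calc ‖q - c‖ = ‖(psi T G xh y p q - c) - (T (xh (q, G y q)) p - q)‖ := by rw [← e]
      _ ≤ _ := norm_sub_le _ _
  rw [h3] at h1
  linarith

/-- its derivative at the crossing of the leaf with the slice -/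
theorem psi_der (H : HolDat T G M' M X' xh yh R r) {y p c : E2} (hy : y ∈ ball (0 : E2) R)
    (hp : p ∈ ball (0 : E2) r) (hc : c ∈ ball (0 : E2) r) (hyc : G y c = p) :
    HasFDerivAt (psi T G xh y p) (1 - M' (xh (c, p)) p ∘L M y c) c := by
  have hpR : p ∈ ball (0 : E2) R := ball_subset_ball H.r_le hp
  have hcR : c ∈ ball (0 : E2) R := ball_subset_ball H.r_le hc
  set A' := M' (xh (c, p)) p with hA'
  set A := M y c with hA
  have hGc : ContinuousAt (G y) c := (H.G_der y hy c hcR).continuousAt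
  have hGt : Tendsto (G y) (𝓝 c) (𝓝 p) := by
    have := hGc.tendsto
    rwa [hyc] at this
  have hpair : Tendsto (fun q => (q, G y q)) (𝓝 c) (𝓝 (c, p)) := tendsto_id.prodMk_nhds hGt
  have hxc : ContinuousAt xh (c, p) := contAt_prod H.xh_cont hc hp
  have hxt : Tendsto (fun q => xh (q, G y q)) (𝓝 c) (𝓝 (xh (c, p))) := hxc.tendsto.comp hpair
  have hx0 : xh (c, p) ∈ ball (0 : E2) R := H.xh_mem c hc p hp
  rw [hasFDerivAt_iff_isLittleO]
  -- the second bracket
  have ho2 : (fun q => A' ((G y q - G y c) - A (q - c))) =o[𝓝 c] fun q => q - c := by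
    have h1 := (H.G_der y hy c hcR).isLittleO
    exact (A'.isBigO_comp _ _).trans_isLittleO h1
  -- the first bracket
  have ho1 : (fun q => T (xh (q, G y q)) (G y q) - T (xh (q, G y q)) p - A' (G y q - p))
      =o[𝓝 c] fun q => q - c := by
    rw [Asymptotics.isLittleO_iff]
    intro ε hε
    have hM0 : ContinuousAt (fun z : E2 × E2 => M' z.1 z.2) (xh (c, p), p) :=
      contAt_prod H.M'_cont hx0 hpR
    have hM : Tendsto (fun z : E2 × E2 => M' z.1 z.2) (𝓝 (xh (c, p), p)) (𝓝 A') := hM0.tendsto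
    have h2 : ∀ᶠ z : E2 × E2 in 𝓝 (xh (c, p), p), ‖M' z.1 z.2 - A'‖ ≤ ε := by
      filter_upwards [hM.eventually (Metric.closedBall_mem_nhds A' hε)] with z hz
      exact le_of_eq_of_le (dist_eq_norm (M' z.1 z.2) A').symm hz
    rw [nhds_prod_eq] at h2
    obtain ⟨P, hP, Q, hQ, hPQ⟩ := Filter.eventually_prod_iff.1 h2
    obtain ⟨δ, hδ, hQ'⟩ := Metric.eventually_nhds_iff_ball.1
      (hQ.and (isOpen_ball.mem_nhds hpR : ball (0 : E2) R ∈ 𝓝 p))
    have h3 : ∀ᶠ q in 𝓝 c, G y q ∈ ball p δ := by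
      have := hGc.tendsto
      rw [hyc] at this
      exact this.eventually (Metric.ball_mem_nhds p hδ)
    filter_upwards [h3, hxt.eventually hP, hxt.eventually (isOpen_ball.mem_nhds hx0),
      isOpen_ball.mem_nhds hcR] with q a1 a2 a3 a4
    have h4 : ‖(T (xh (q, G y q)) (G y q) - A' (G y q)) - (T (xh (q, G y q)) p - A' p)‖ ≤
        ε * ‖G y q - p‖ := by
      refine (convex_ball p δ).norm_image_sub_le_of_norm_hasFDerivWithin_le
        (f := fun w => T (xh (q, G y q)) w - A' w) (f' := fun w => M' (xh (q, G y q)) w - A')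
        (fun w hw => ?_) (fun w hw => ?_) (mem_ball_self hδ) a1
      · exact ((H.T_der _ a3 w (hQ' w hw).2).sub A'.hasFDerivAt).hasFDerivWithinAt
      · exact hPQ a2 (hQ' w hw).1
    have h5 := H.G_lip hy hcR a4
    rw [hyc] at h5
    have e : T (xh (q, G y q)) (G y q) - T (xh (q, G y q)) p - A' (G y q - p) =
        (T (xh (q, G y q)) (G y q) - A' (G y q)) - (T (xh (q, G y q)) p - A' p) := by
      rw [map_sub]
      abel
    rw [e]
    refine h4.trans (mul_le_mul_of_nonneg_left ?_ hε.le)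
    have := norm_nonneg (q - c)
    linarith
  refine ((ho1.neg_left).sub ho2).congr' ?_ (Eventually.of_forall fun q => rfl)
  have h6 : ∀ᶠ q in 𝓝 c, G y q ∈ ball (0 : E2) r := hGt.eventually (isOpen_ball.mem_nhds hp)
  filter_upwards [h6, isOpen_ball.mem_nhds hc] with q hq2 hq1
  have e1 : psi T G xh y p c = c := by
    rw [psi, hyc, H.T_xh c hc p hp]
  have e2 : T (xh (q, G y q)) (G y q) = q := H.T_xh q hq1 _ hq2
  rw [e1, e2, hyc, psi]
  simp only [sub_apply, one_apply_eq_self, ContinuousLinearMap.comp_apply, map_sub]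
  abel

/-- the determinant -/
theorem det_comm (A B : E2 →L[ℝ] E2) : (1 - A ∘L B).det = (1 - B ∘L A).det := by
  have key : ∀ A B : E2 →ₗ[ℝ] E2, LinearMap.det (1 - A * B) = LinearMap.det (1 - B * A) := by
    intro A B
    set b := (EuclideanSpace.basisFun (Fin 2) ℝ).toBasis
    rw [← LinearMap.det_toMatrix b, ← LinearMap.det_toMatrix b, map_sub, map_sub,
      LinearMap.toMatrix_mul, LinearMap.toMatrix_mul, LinearMap.toMatrix_one]
    exact Matrix.det_one_sub_mul_comm _ _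
  exact key (A : E2 →ₗ[ℝ] E2) (B : E2 →ₗ[ℝ] E2)

end HolDat

/-- the product of a function supported in a ball with a function continuous on it -/
theorem cont_mul_of_supp {Z : Type*} [TopologicalSpace Z] {f : E2 → ℝ} {k : Z × E2 → ℝ} {ρ : ℝ}
    (hf : Continuous f) (hs : tsupport f ⊆ ball 0 ρ)
    (hk : ContinuousOn k (univ ×ˢ ball 0 ρ)) : Continuous fun z : Z × E2 => f z.2 * k z := by
  rw [continuous_iff_continuousAt]
  intro z
  by_cases hz : z.2 ∈ ball (0 : E2) ρ
  · have hn : (univ : Set Z) ×ˢ ball (0 : E2) ρ ∈ 𝓝 z :=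
      (isOpen_univ.prod isOpen_ball).mem_nhds ⟨mem_univ _, hz⟩
    exact (hf.comp continuous_snd).continuousAt.mul (hk.continuousAt hn)
  · have h1 : z.2 ∉ tsupport f := fun h => hz (hs h)
    have h2 : ∀ᶠ w in 𝓝 z.2, f w = 0 := notMem_tsupport_iff_eventuallyEq.1 h1
    have h3 : ∀ᶠ w : Z × E2 in 𝓝 z, f w.2 = 0 := continuous_snd.continuousAt.eventually h2
    have h4 : (fun z : Z × E2 => f z.2 * k z) =ᶠ[𝓝 z] fun _ => 0 := by
      filter_upwards [h3] with w hw
      rw [hw, zero_mul]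
    exact (continuousAt_const (y := (0 : ℝ))).congr h4.symm

/-- the kernel has integral one in the second variable as well -/
theorem ker_int' (c : E2) {ε ρ : ℝ} (hε : 0 < ε) (hc : ‖c‖ + ε < ρ) :
    ∫ q in ball (0 : E2) ρ, (ε ^ 2)⁻¹ * Ker (ε⁻¹ • (c - q)) = 1 := by
  rw [setIntegral_eq_integral_of_forall_compl_eq_zero]
  · rw [integral_const_mul, subst_integral _ c hε]
    have h1 : (∫ w : E2, Ker (ε⁻¹ • (c - (c + ε • w)))) = ∫ w : E2, Ker (-w) := by
      refine integral_congr_ae (Eventually.of_forall fun w => ?_)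
      have : ε⁻¹ • (c - (c + ε • w)) = -w := by
        rw [sub_add_cancel_left, smul_neg, smul_smul, inv_mul_cancel₀ hε.ne', one_smul]
      simp only [this]
    rw [h1, integral_neg_eq_self (fun w => Ker w), ker_int, mul_one]
    field_simp
  · intro q hq
    rw [ker_zero, mul_zero]
    rw [norm_smul, norm_inv, Real.norm_eq_abs, abs_of_pos hε, le_inv_mul_iff₀ hε, mul_one]
    rw [mem_ball_zero_iff, not_lt] at hq
    have h1 : ‖q‖ ≤ ‖c‖ + ‖c - q‖ := by
      calc ‖q‖ = ‖c - (c - q)‖ := by rw [sub_sub_cancel]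
        _ ≤ _ := norm_sub_le _ _
    linarith

/-- a continuous function on `E2 →L E2` is bounded on the ball of radius two -/
theorem det_bdd : ∃ C, 0 < C ∧ ∀ A : E2 →L[ℝ] E2, ‖A‖ ≤ 2 → |A.det| ≤ C := by
  have hcomp : IsCompact (closedBall (0 : E2 →L[ℝ] E2) 2) := isCompact_closedBall _ _
  obtain ⟨C, hC⟩ := hcomp.exists_bound_of_continuousOn
    (f := fun A : E2 →L[ℝ] E2 => A.det) ContinuousLinearMap.continuous_det.continuousOn
  refine ⟨max C 1, by positivity, fun A hA => ?_⟩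
  have := hC A (by simpa using hA)
  rw [Real.norm_eq_abs] at this
  exact this.trans (le_max_left _ _)

/-- continuity of the kernel -/
theorem cont_ker {α : Type*} [TopologicalSpace α] {t c : α → E2} {s : Set α}
    (ht : ContinuousOn t s) (hc : ContinuousOn c s) (ε : ℝ) :
    ContinuousOn (fun z => (ε ^ 2)⁻¹ * Ker (ε⁻¹ • (t z - c z))) s := by
  have h1 : ContinuousOn (fun z => ε⁻¹ • (t z - c z)) s := by fun_prop
  exact continuousOn_const.mul (ker_cont.comp_continuousOn h1)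

/-- the pointwise part of the push forward -/
theorem push_point (H : HolDat T G M' M X' xh yh R r) {r₁ r₀ : ℝ} (h1 : 0 < r₁) (h1r : r₁ < r)
    (h0R : r₀ ≤ R) {p : E2} (hp : p ∈ ball (0 : E2) r)
    {f : E2 → ℝ} (hf : Continuous f) (hfs : tsupport f ⊆ ball 0 r₀) :
    ∃ K : ℝ, 0 ≤ K ∧ ∀ c ∈ ball (0 : E2) r₁, yh (c, p) ∈ ball (0 : E2) R →
      (∀ q ∈ ball (0 : E2) r₁, G (yh (c, p)) q ∈ closedBall (0 : E2) (r / 2)) →
      (∀ g : E2 → ℝ, Continuous g → tsupport g ⊆ ball 0 r₀ →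
        ∫ x, g x = ∫ q in ball (0 : E2) r₁, g (xh (q, G (yh (c, p)) q)) *
          Jh G M' M X' xh (yh (c, p)) q) →
      (∀ ε > 0, |∫ x, f x * Real.exp (X' x p) * ((ε ^ 2)⁻¹ * Ker (ε⁻¹ • (T x p - c)))| ≤ K) ∧
      (∀ ε : ℕ → ℝ, (∀ n, 0 < ε n) → Tendsto ε atTop (𝓝 0) →
        Tendsto (fun n => ∫ x, f x * Real.exp (X' x p) *
          (((ε n) ^ 2)⁻¹ * Ker ((ε n)⁻¹ • (T x p - c)))) atTop (𝓝 (f (xh (c, p))))) := by
  have hpR : p ∈ ball (0 : E2) R := ball_subset_ball H.r_le hp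
  have hfR : tsupport f ⊆ ball (0 : E2) R := hfs.trans (ball_subset_ball h0R)
  have hfK : HasCompactSupport f := by
    refine (isCompact_closedBall (0 : E2) r₀).of_isClosed_subset (isClosed_tsupport f) ?_
    exact hfs.trans ball_subset_closedBall
  -- continuity in the first variable
  have hXx : ∀ p ∈ ball (0 : E2) R, ContinuousOn (fun x => X' x p) (ball (0 : E2) R) := by
    intro p hp x hx
    have h2 : ContinuousAt (fun z : E2 × E2 => X' z.1 z.2) (x, p) := contAt_prod H.X'_cont hx hp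
    have h3 : ContinuousAt (fun x : E2 => (x, p)) x := by fun_prop
    exact (ContinuousAt.comp (f := fun x : E2 => (x, p)) h2 h3).continuousWithinAt
  have hTx : ContinuousOn (fun x => T x p) (ball (0 : E2) R) := by
    intro x hx
    have h2 : ContinuousAt (fun z : E2 × E2 => T z.1 z.2) (x, p) := contAt_prod H.T_cont hx hpR
    have h3 : ContinuousAt (fun x : E2 => (x, p)) x := by fun_prop
    exact (ContinuousAt.comp (f := fun x : E2 => (x, p)) h2 h3).continuousWithinAt
  -- the function `f e^{X'}`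
  have hF : Continuous fun x => f x * Real.exp (X' x p) := by
    have h2 : ContinuousOn (fun z : Unit × E2 => Real.exp (X' z.2 p)) (univ ×ˢ ball 0 R) :=
      Real.continuous_exp.comp_continuousOn ((hXx p hpR).comp continuousOn_snd
        (fun z hz => hz.2))
    have h3 := cont_mul_of_supp hf hfR h2
    exact h3.comp (f := fun x : E2 => ((), x)) (by fun_prop)
  obtain ⟨C1, hC1⟩ := hF.bounded_above_of_compact_support (hfK.mul_right)
  -- the bound of `e^{-X'}` on the compact set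
  obtain ⟨C2, hC2⟩ : ∃ C2 : ℝ, ∀ x ∈ tsupport f, ∀ p' ∈ closedBall (0 : E2) (r / 2),
      Real.exp (-X' x p') ≤ C2 := by
    have hK : IsCompact (tsupport f ×ˢ closedBall (0 : E2) (r / 2)) :=
      hfK.prod (isCompact_closedBall _ _)
    have hsub : tsupport f ×ˢ closedBall (0 : E2) (r / 2) ⊆ ball (0 : E2) R ×ˢ ball (0 : E2) R := by
      refine prod_mono hfR (closedBall_subset_ball ?_)
      have := H.r_pos
      have := H.r_le
      linarith
    have hc : ContinuousOn (fun z : E2 × E2 => Real.exp (-X' z.1 z.2))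
        (tsupport f ×ˢ closedBall (0 : E2) (r / 2)) :=
      Real.continuous_exp.comp_continuousOn (H.X'_cont.mono hsub).neg
    obtain ⟨C, hC⟩ := hK.exists_bound_of_continuousOn hc
    refine ⟨C, fun x hx p' hp' => ?_⟩
    have := hC (x, p') ⟨hx, hp'⟩
    rwa [Real.norm_eq_abs, Real.abs_exp] at this
  obtain ⟨C3, hC3, hdet⟩ := det_bdd
  obtain ⟨C, hC0, hC⟩ := ker_bdd
  have hC10 : 0 ≤ C1 := (norm_nonneg _).trans (hC1 0)
  set Ca : ℝ := C1 * (C3 * max C2 0) with hCa
  have hCa0 : 0 ≤ Ca := by positivity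
  refine ⟨Ca * C * (volume (ball (0 : E2) 2)).toReal, by positivity, ?_⟩
  intro c hc hy hG hhol
  set y := yh (c, p) with hyd
  have hcr : c ∈ ball (0 : E2) r := ball_subset_ball h1r.le hc
  have hcR : c ∈ ball (0 : E2) R := ball_subset_ball H.r_le hcr
  have hyc : G y c = p := H.G_yh c hcr p hp
  have hr2 : closedBall (0 : E2) (r / 2) ⊆ ball 0 r := closedBall_subset_ball (by
    have := H.r_pos
    linarith)
  -- the point `x(q)`
  set ξ : E2 → E2 := fun q => xh (q, G y q) with hξ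
  have hGy : ContinuousOn (G y) (ball 0 r₁) := fun q hq =>
    ((H.G_der y hy q (ball_subset_ball (h1r.le.trans H.r_le) hq)).continuousAt).continuousWithinAt
  have hξm : ∀ q ∈ ball (0 : E2) r₁, ξ q ∈ ball (0 : E2) R := fun q hq =>
    H.xh_mem q (ball_subset_ball h1r.le hq) _ (hr2 (hG q hq))
  have hξc : ContinuousOn ξ (ball 0 r₁) := by
    refine H.xh_cont.comp (continuousOn_id.prodMk hGy) fun q hq => ?_
    exact ⟨ball_subset_ball h1r.le hq, hr2 (hG q hq)⟩
  -- the density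
  set J : E2 → ℝ := fun q => Jh G M' M X' xh y q with hJ
  have hJc : ContinuousOn J (ball 0 r₁) := by
    have e1 : ContinuousOn (fun q => M y q) (ball 0 r₁) := by
      refine H.M_cont.comp (f := fun q => (y, q)) (by fun_prop) fun q hq => ?_
      exact ⟨hy, ball_subset_ball (h1r.le.trans H.r_le) hq⟩
    have e2 : ContinuousOn (fun q => M' (ξ q) (G y q)) (ball 0 r₁) := by
      refine H.M'_cont.comp (f := fun q => (ξ q, G y q)) (hξc.prodMk hGy) fun q hq => ?_
      exact ⟨hξm q hq, ball_subset_ball H.r_le (hr2 (hG q hq))⟩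
    have e3 : ContinuousOn (fun q => X' (ξ q) (G y q)) (ball 0 r₁) := by
      refine H.X'_cont.comp (f := fun q => (ξ q, G y q)) (hξc.prodMk hGy) fun q hq => ?_
      exact ⟨hξm q hq, ball_subset_ball H.r_le (hr2 (hG q hq))⟩
    have e4 : ContinuousOn (fun q => (1 - M y q ∘L M' (ξ q) (G y q)).det) (ball 0 r₁) := by
      refine ContinuousLinearMap.continuous_det.comp_continuousOn ?_
      exact continuousOn_const.sub (e1.clm_comp e2)
    exact e4.mul (Real.continuous_exp.comp_continuousOn e3.neg)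
  -- the amplitude
  set a : E2 → ℝ := fun q => f (ξ q) * Real.exp (X' (ξ q) p) * J q with ha
  have hac : ContinuousOn a (ball 0 r₁) :=
    (hF.comp_continuousOn hξc).mul hJc
  have hab : ∀ q ∈ ball (0 : E2) r₁, |a q| ≤ Ca := by
    intro q hq
    have b1 := hC1 (ξ q)
    rw [Real.norm_eq_abs] at b1
    simp only [ha]
    by_cases hs : ξ q ∈ tsupport f
    · have b2 : |J q| ≤ C3 * max C2 0 := by
        simp only [hJ, Jh]
        rw [abs_mul, Real.abs_exp]
        have b3 := hC2 _ hs _ (hG q hq)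
        refine mul_le_mul (hdet _ ?_) (b3.trans (le_max_left _ _)) (Real.exp_pos _).le hC3.le
        have c1 := H.M_half y hy q (ball_subset_ball (h1r.le.trans H.r_le) hq)
        have c2 := H.M'_half (ξ q) (hξm q hq) _ (ball_subset_ball H.r_le (hr2 (hG q hq)))
        have c3 : ‖M y q ∘L M' (ξ q) (G y q)‖ ≤ 1 / 2 * (1 / 2) :=
          (ContinuousLinearMap.opNorm_comp_le _ _).trans
            (mul_le_mul c1 c2 (norm_nonneg _) (by norm_num))
        have c4 : ‖(1 : E2 →L[ℝ] E2)‖ ≤ 1 := ContinuousLinearMap.norm_id_le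
        refine (norm_sub_le _ _).trans ?_
        linarith
      rw [abs_mul]
      exact mul_le_mul b1 b2 (abs_nonneg _) hC10
    · rw [image_eq_zero_of_notMem_tsupport hs, zero_mul, zero_mul, abs_zero]
      exact hCa0
  -- the map
  set ψ : E2 → E2 := HolDat.psi T G xh y p with hψ
  have hψc : ContinuousOn ψ (ball 0 r₁) := hTx.comp hξc hξm
  have hψf : ∀ q ∈ ball (0 : E2) r₁, 3 / 4 * ‖q - c‖ ≤ ‖ψ q - c‖ := fun q hq =>
    H.psi_far hy hpR hcR hyc (ball_subset_ball h1r.le hq) (hr2 (hG q hq))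
  -- the holonomy
  have hkey : ∀ ε : ℝ, ∫ x, f x * Real.exp (X' x p) * ((ε ^ 2)⁻¹ * Ker (ε⁻¹ • (T x p - c))) =
      ∫ q in ball (0 : E2) r₁, a q * ((ε ^ 2)⁻¹ * Ker (ε⁻¹ • (ψ q - c))) := by
    intro ε
    have h2 : Continuous fun x => f x * Real.exp (X' x p) *
        ((ε ^ 2)⁻¹ * Ker (ε⁻¹ • (T x p - c))) := by
      have h3 : ContinuousOn (fun z : Unit × E2 => (ε ^ 2)⁻¹ * Ker (ε⁻¹ • (T z.2 p - c)))
          (univ ×ˢ ball 0 R) := by
        have h4 : ContinuousOn (fun z : Unit × E2 => T z.2 p) (univ ×ˢ ball 0 R) :=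
          hTx.comp continuousOn_snd (fun z hz => hz.2)
        exact cont_ker h4 continuousOn_const ε
      have h6 := cont_mul_of_supp (f := fun x => f x * Real.exp (X' x p)) hF
        ((closure_mono (Function.support_mul_subset_left _ _)).trans hfR) h3
      exact h6.comp (f := fun x : E2 => ((), x)) (by fun_prop)
    rw [hhol _ h2 ?_]
    · refine setIntegral_congr_fun measurableSet_ball fun q _ => ?_
      simp only [ha, hJ, hξ, hψ, HolDat.psi]
      ring
    · refine (closure_mono ?_).trans hfs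
      exact (Function.support_mul_subset_left _ _).trans (Function.support_mul_subset_left _ _)
  constructor
  · intro ε hε
    rw [hkey ε]
    exact kern_bound hab hCa0 hC hC0 hψf hε
  · intro ε hε hε0
    simp_rw [hkey]
    have hxm : xh (c, p) ∈ ball (0 : E2) R := H.xh_mem c hcr p hp
    have hψ0 : ψ c = c := by
      rw [hψ, HolDat.psi, hyc]
      exact H.T_xh c hcr p hp
    have hd := H.psi_der hy hp hcr hyc
    have hdp : 0 < (1 - M' (xh (c, p)) p ∘L M y c).det := by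
      rw [HolDat.det_comm]
      exact H.det_pos _ hxm _ hy _ hcR _ hpR
    have key := kern_tendsto hc hac hab hψc hψf hψ0 hd hdp hε hε0
    have e1 : a c * ((1 - M' (xh (c, p)) p ∘L M y c).det)⁻¹ = f (xh (c, p)) := by
      simp only [ha, hJ, hξ, Jh, hyc]
      rw [HolDat.det_comm, Real.exp_neg]
      have h2 : (1 - M' (xh (c, p)) p ∘L M y c).det ≠ 0 := hdp.ne'
      have h3 := (Real.exp_pos (X' (xh (c, p)) p)).ne'
      field_simp
    rw [e1] at key
    exact key

/-- **the push forward to the slices** -/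
theorem push (H : HolDat T G M' M X' xh yh R r) :
    ∀ᶠ r₁ in 𝓝[>] (0 : ℝ), ∃ r₀ > 0, ∀ᶠ p in 𝓝 (0 : E2), ∀ f : E2 → ℝ, Continuous f →
      tsupport f ⊆ ball 0 r₀ →
      ∫ x, f x * Real.exp (X' x p) = ∫ q in ball (0 : E2) r₁, f (xh (q, p)) := by
  have hsm : ∀ᶠ r₁ : ℝ in 𝓝[>] 0, r₁ < r :=
    (eventually_lt_nhds H.r_pos).filter_mono nhdsWithin_le_nhds
  filter_upwards [H.hol, hsm, self_mem_nhdsWithin] with r₁ hh h1r h1
  obtain ⟨r₀', h0', hh⟩ := hh
  have h1pos : 0 < r₁ := h1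
  -- uniform smallness
  have hU1 : ∀ᶠ y in 𝓝 (0 : E2), ∀ q ∈ closedBall (0 : E2) r₁,
      G y q ∈ closedBall (0 : E2) (r / 2) := by
    refine (isCompact_closedBall (0 : E2) r₁).eventually_forall_of_forall_eventually ?_
    intro q hq
    have hqR : q ∈ ball (0 : E2) R := closedBall_subset_ball (h1r.trans_le H.r_le) hq
    have h2 : ContinuousAt (fun z : E2 × E2 => G z.1 z.2) (0, q) :=
      contAt_prod H.G_cont (mem_ball_self H.R_pos) hqR
    have h3 : Tendsto (fun z : E2 × E2 => G z.1 z.2) (𝓝 (0, q)) (𝓝 0) := by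
      have := h2.tendsto
      simp only [H.G_base q hqR] at this
      exact this
    exact h3.eventually (Metric.closedBall_mem_nhds (0 : E2) (by have := H.r_pos; linarith))
  obtain ⟨δ, hδ, hV⟩ := Metric.eventually_nhds_iff_ball.1
    ((hh.and hU1).and (isOpen_ball.mem_nhds (mem_ball_self H.R_pos) : ball (0 : E2) R ∈ 𝓝 0))
  have hU2 : ∀ᶠ p in 𝓝 (0 : E2), ∀ c ∈ closedBall (0 : E2) r₁, yh (c, p) ∈ ball (0 : E2) δ := by
    refine (isCompact_closedBall (0 : E2) r₁).eventually_forall_of_forall_eventually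
      (P := fun p c => yh (c, p) ∈ ball (0 : E2) δ) ?_
    intro c hc
    have hcr : c ∈ ball (0 : E2) r := closedBall_subset_ball h1r hc
    have h2 : ContinuousAt yh (c, 0) := contAt_prod H.yh_cont hcr (mem_ball_self H.r_pos)
    have h3 : ContinuousAt (fun z : E2 × E2 => yh (z.2, z.1)) ((0, c) : E2 × E2) :=
      ContinuousAt.comp (f := fun z : E2 × E2 => (z.2, z.1)) h2 (by fun_prop)
    have h4 : Tendsto (fun z : E2 × E2 => yh (z.2, z.1)) (𝓝 (0, c)) (𝓝 0) := by
      have := h3.tendsto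
      simp only [H.yh_zero c hcr] at this
      exact this
    exact h4.eventually (Metric.ball_mem_nhds (0 : E2) hδ)
  set r₀ : ℝ := min r₀' (r₁ / 4) with hr₀
  have hr₀0 : 0 < r₀ := by rw [hr₀]; positivity
  have hr₀' : r₀ ≤ r₀' := min_le_left _ _
  have hr₀1 : r₀ ≤ r₁ / 4 := min_le_right _ _
  have hr₀R : r₀ ≤ R := by
    have := H.r_le
    linarith
  refine ⟨r₀, hr₀0, ?_⟩
  filter_upwards [hU2, Metric.ball_mem_nhds (0 : E2) (by linarith : 0 < r₁ / 4)] with p hp2 hp1 f
    hf hfs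
  have hpr : p ∈ ball (0 : E2) r := ball_subset_ball (by linarith) hp1
  have hpR : p ∈ ball (0 : E2) R := ball_subset_ball H.r_le hpr
  obtain ⟨K, hK0, hK⟩ := push_point H h1pos h1r hr₀R hpr hf hfs
  -- the sequence
  set ε : ℕ → ℝ := fun n => 1 / ((n : ℝ) + 1) with hεd
  have hε : ∀ n, 0 < ε n := fun n => Nat.one_div_pos_of_nat
  have hε0 : Tendsto ε atTop (𝓝 0) := tendsto_one_div_add_atTop_nhds_zero_nat
  have hpt : ∀ c ∈ ball (0 : E2) r₁,
      (∀ ε > 0, |∫ x, f x * Real.exp (X' x p) * ((ε ^ 2)⁻¹ * Ker (ε⁻¹ • (T x p - c)))| ≤ K) ∧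
      (∀ ε : ℕ → ℝ, (∀ n, 0 < ε n) → Tendsto ε atTop (𝓝 0) →
        Tendsto (fun n => ∫ x, f x * Real.exp (X' x p) *
          (((ε n) ^ 2)⁻¹ * Ker ((ε n)⁻¹ • (T x p - c)))) atTop (𝓝 (f (xh (c, p))))) := by
    intro c hc
    have h2 := hp2 c (ball_subset_closedBall hc)
    obtain ⟨⟨h3, h4⟩, h5⟩ := hV _ h2
    refine hK c hc h5 (fun q hq => h4 q (ball_subset_closedBall hq)) fun g hg hgs => ?_
    exact h3 g hg (hgs.trans (ball_subset_ball hr₀'))
  -- continuity of the integrand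
  have hfR : tsupport f ⊆ ball (0 : E2) R := hfs.trans (ball_subset_ball hr₀R)
  have hfK : HasCompactSupport f := by
    refine (isCompact_closedBall (0 : E2) r₀).of_isClosed_subset (isClosed_tsupport f) ?_
    exact hfs.trans ball_subset_closedBall
  have hXx : ContinuousOn (fun x => X' x p) (ball (0 : E2) R) := by
    intro x hx
    have h2 : ContinuousAt (fun z : E2 × E2 => X' z.1 z.2) (x, p) := contAt_prod H.X'_cont hx hpR
    have h3 : ContinuousAt (fun x : E2 => (x, p)) x := by fun_prop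
    exact (ContinuousAt.comp (f := fun x : E2 => (x, p)) h2 h3).continuousWithinAt
  have hTx : ContinuousOn (fun x => T x p) (ball (0 : E2) R) := by
    intro x hx
    have h2 : ContinuousAt (fun z : E2 × E2 => T z.1 z.2) (x, p) := contAt_prod H.T_cont hx hpR
    have h3 : ContinuousAt (fun x : E2 => (x, p)) x := by fun_prop
    exact (ContinuousAt.comp (f := fun x : E2 => (x, p)) h2 h3).continuousWithinAt
  set F : E2 → ℝ := fun x => f x * Real.exp (X' x p) with hFd
  have hF : Continuous F := by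
    have h2 : ContinuousOn (fun z : Unit × E2 => Real.exp (X' z.2 p)) (univ ×ˢ ball 0 R) :=
      Real.continuous_exp.comp_continuousOn (hXx.comp continuousOn_snd (fun z hz => hz.2))
    have h3 := cont_mul_of_supp hf hfR h2
    exact h3.comp (f := fun x : E2 => ((), x)) (by fun_prop)
  have hFs : tsupport F ⊆ tsupport f := closure_mono (Function.support_mul_subset_left _ _)
  have hFK : HasCompactSupport F := hfK.mul_right
  have hcont : ∀ e : ℝ, Continuous fun z : E2 × E2 =>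
      F z.2 * ((e ^ 2)⁻¹ * Ker (e⁻¹ • (T z.2 p - z.1))) := by
    intro e
    refine cont_mul_of_supp (Z := E2) hF (hFs.trans hfR) ?_
    have h4 : ContinuousOn (fun z : E2 × E2 => T z.2 p) (univ ×ˢ ball 0 R) :=
      hTx.comp continuousOn_snd (fun z hz => hz.2)
    exact cont_ker h4 continuousOn_fst e
  -- Fubini
  obtain ⟨C, hC0, hC⟩ := ker_bdd
  have hFub : ∀ n, ∫ c in ball (0 : E2) r₁, (∫ x, F x *
      (((ε n) ^ 2)⁻¹ * Ker ((ε n)⁻¹ • (T x p - c)))) = ∫ x, F x *
      (∫ c in ball (0 : E2) r₁, ((ε n) ^ 2)⁻¹ * Ker ((ε n)⁻¹ • (T x p - c))) := by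
    intro n
    have hint : Integrable (Function.uncurry fun c x => F x *
        (((ε n) ^ 2)⁻¹ * Ker ((ε n)⁻¹ • (T x p - c))))
        ((volume.restrict (ball (0 : E2) r₁)).prod volume) := by
      have hb : Integrable (fun z : E2 × E2 => (((ε n) ^ 2)⁻¹ * C) * ‖F z.2‖)
          ((volume.restrict (ball (0 : E2) r₁)).prod volume) := by
        have h2 : Integrable (fun _ : E2 => ((ε n) ^ 2)⁻¹ * C)
            (volume.restrict (ball (0 : E2) r₁)) := by
          have := integrableOn_const (μ := volume) (s := ball (0 : E2) r₁)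
            (C := ((ε n) ^ 2)⁻¹ * C) measure_ball_lt_top.ne
          exact this
        exact h2.mul_prod (hF.integrable_of_hasCompactSupport hFK).norm
      refine hb.mono' (hcont (ε n)).aestronglyMeasurable (Eventually.of_forall fun z => ?_)
      have hk : ∀ w : E2, ‖((ε n) ^ 2)⁻¹ * Ker w‖ ≤ ((ε n) ^ 2)⁻¹ * C := by
        intro w
        have h3 : 0 ≤ ((ε n) ^ 2)⁻¹ * Ker w := by
          have := hε n
          have := ker_nonneg w
          positivity
        rw [Real.norm_eq_abs, abs_of_nonneg h3]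
        exact mul_le_mul_of_nonneg_left (hC _) (by have := hε n; positivity)
      have h4 : ‖F z.2 * (((ε n) ^ 2)⁻¹ * Ker ((ε n)⁻¹ • (T z.2 p - z.1)))‖ ≤
          ((ε n) ^ 2)⁻¹ * C * ‖F z.2‖ := by
        rw [norm_mul (F z.2), mul_comm ‖F z.2‖]
        exact mul_le_mul_of_nonneg_right (hk _) (norm_nonneg _)
      exact h4
    rw [integral_integral_swap hint]
    refine integral_congr_ae (Eventually.of_forall fun x => ?_)
    simp only
    rw [integral_const_mul]
  -- the limit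
  have hlim : Tendsto (fun n => ∫ c in ball (0 : E2) r₁, (∫ x, F x *
      (((ε n) ^ 2)⁻¹ * Ker ((ε n)⁻¹ • (T x p - c))))) atTop
      (𝓝 (∫ c in ball (0 : E2) r₁, f (xh (c, p)))) := by
    refine tendsto_integral_of_dominated_convergence (fun _ => K) ?_ ?_ ?_ ?_
    · intro n
      have h2 : AEStronglyMeasurable (fun z : E2 × E2 => F z.2 *
          (((ε n) ^ 2)⁻¹ * Ker ((ε n)⁻¹ • (T z.2 p - z.1))))
          ((volume.restrict (ball (0 : E2) r₁)).prod volume) := (hcont (ε n)).aestronglyMeasurable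
      exact h2.integral_prod_right'
    · exact integrableOn_const measure_ball_lt_top.ne
    · intro n
      refine (ae_restrict_iff' measurableSet_ball).2 (Eventually.of_forall fun c hc => ?_)
      rw [Real.norm_eq_abs]
      exact (hpt c hc).1 (ε n) (hε n)
    · refine (ae_restrict_iff' measurableSet_ball).2 (Eventually.of_forall fun c hc => ?_)
      exact (hpt c hc).2 ε hε hε0
  -- the sequence is eventually constant
  have hconst : ∀ᶠ n in atTop, (∫ c in ball (0 : E2) r₁, (∫ x, F x *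
      (((ε n) ^ 2)⁻¹ * Ker ((ε n)⁻¹ • (T x p - c))))) = ∫ x, F x := by
    have h2 : ∀ᶠ n in atTop, ε n < r₁ / 4 := hε0.eventually (eventually_lt_nhds (by linarith))
    filter_upwards [h2] with n hn
    rw [hFub n]
    refine integral_congr_ae (Eventually.of_forall fun x => ?_)
    simp only
    by_cases hx : x ∈ tsupport f
    · rw [ker_int' (T x p) (hε n), mul_one]
      have h3 := H.T_lip (hfR hx) (mem_ball_self H.R_pos) hpR
      rw [H.T_zero x (hfR hx), sub_zero] at h3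
      have h4 : ‖T x p‖ ≤ ‖x‖ + ‖T x p - x‖ := by
        calc ‖T x p‖ = ‖x + (T x p - x)‖ := by rw [add_sub_cancel]
          _ ≤ _ := norm_add_le _ _
      have h5 : ‖x‖ < r₀ := mem_ball_zero_iff.1 (hfs hx)
      have h6 : ‖p‖ < r₁ / 4 := mem_ball_zero_iff.1 hp1
      linarith
    · have h3 : F x = 0 := by
        simp only [hFd]
        rw [image_eq_zero_of_notMem_tsupport hx, zero_mul]
      rw [h3, zero_mul]
  exact tendsto_nhds_unique (tendsto_const_nhds.congr' (hconst.mono fun n hn => hn.symm)) hlim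

end Vale.Agent.P207.N3.H12
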